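import Mathlib

open Finset

namespace Vale.Agent.P162

/-- Uniform average of a real function on a finite type. -/
noncomputable def av {Ω : Type*} [Fintype Ω] (f : Ω → ℝ) : ℝ := (∑ ω, f ω) / (Fintype.card Ω : ℝ)

section av
variable {Ω Ω' : Type*} [Fintype Ω] [Fintype Ω']

theorem av_const [Nonempty Ω] (c : ℝ) : av (fun _ : Ω => c) = c := by
  have : (Fintype.card Ω : ℝ) ≠ 0 := by exact_mod_cast Fintype.card_ne_zero
  simp only [av, Finset.sum_const, Finset.card_univ, nsmul_eq_mul]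
  field_simp

theorem av_add (f g : Ω → ℝ) : av (fun ω => f ω + g ω) = av f + av g := by
  simp only [av, Finset.sum_add_distrib, add_div]

theorem av_sub (f g : Ω → ℝ) : av (fun ω => f ω - g ω) = av f - av g := by
  simp only [av, Finset.sum_sub_distrib, sub_div]

theorem av_neg (f : Ω → ℝ) : av (fun ω => - f ω) = - av f := by
  simp only [av, Finset.sum_neg_distrib, neg_div]

theorem av_mul_left (c : ℝ) (f : Ω → ℝ) : av (fun ω => c * f ω) = c * av f := by
  simp only [av, ← Finset.mul_sum, mul_div_assoc]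

theorem av_mul_right (c : ℝ) (f : Ω → ℝ) : av (fun ω => f ω * c) = av f * c := by
  simp only [av, ← Finset.sum_mul, div_mul_eq_mul_div]

theorem av_div (c : ℝ) (f : Ω → ℝ) : av (fun ω => f ω / c) = av f / c := by
  simp only [div_eq_mul_inv, av_mul_right]

theorem av_mono {f g : Ω → ℝ} (h : ∀ ω, f ω ≤ g ω) : av f ≤ av g := by
  unfold av
  exact div_le_div_of_nonneg_right (Finset.sum_le_sum fun ω _ => h ω) (Nat.cast_nonneg _)

theorem av_nonneg {f : Ω → ℝ} (h : ∀ ω, 0 ≤ f ω) : 0 ≤ av f :=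
  div_nonneg (Finset.sum_nonneg fun ω _ => h ω) (Nat.cast_nonneg _)

theorem av_zero : av (fun _ : Ω => (0 : ℝ)) = 0 := by simp [av]

theorem av_congr {f g : Ω → ℝ} (h : ∀ ω, f ω = g ω) : av f = av g := by
  rw [funext h]

theorem abs_av_le (f : Ω → ℝ) : |av f| ≤ av fun ω => |f ω| := by
  unfold av
  rw [abs_div, Nat.abs_cast]
  exact div_le_div_of_nonneg_right (Finset.abs_sum_le_sum_abs _ _) (Nat.cast_nonneg _)

theorem av_equiv (e : Ω ≃ Ω') (f : Ω' → ℝ) : av (fun ω => f (e ω)) = av f := by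
  unfold av
  rw [Equiv.sum_comp e f, Fintype.card_congr e]

theorem av_prod (f : Ω × Ω' → ℝ) : av f = av fun ω => av fun ω' => f (ω, ω') := by
  unfold av
  rw [Fintype.sum_prod_type, Fintype.card_prod, Nat.cast_mul, ← Finset.sum_div, div_div,
    mul_comm (Fintype.card Ω' : ℝ)]

theorem av_comm (f : Ω → Ω' → ℝ) :
    (av fun ω => av fun ω' => f ω ω') = av fun ω' => av fun ω => f ω ω' := by
  unfold av
  rw [← Finset.sum_div, ← Finset.sum_div, Finset.sum_comm, div_div, div_div,
    mul_comm (Fintype.card Ω : ℝ)]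

theorem av_sum {ι : Type*} (s : Finset ι) (f : ι → Ω → ℝ) :
    av (fun ω => ∑ i ∈ s, f i ω) = ∑ i ∈ s, av (f i) := by
  unfold av
  rw [Finset.sum_comm, Finset.sum_div]

/-- Hölder. -/
theorem av_holder {p q : ℝ} (hpq : p.HolderConjugate q) {f g : Ω → ℝ} (hf : ∀ ω, 0 ≤ f ω)
    (hg : ∀ ω, 0 ≤ g ω) :
    av (fun ω => f ω * g ω) ≤ (av fun ω => f ω ^ p) ^ (1 / p) * (av fun ω => g ω ^ q) ^ (1 / q) := by
  rcases isEmpty_or_nonempty Ω with hΩ | hΩ
  · have : av (fun ω => f ω * g ω) = 0 := by simp [av]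
    rw [this]
    exact mul_nonneg (Real.rpow_nonneg (av_nonneg fun ω => Real.rpow_nonneg (hf ω) _) _)
      (Real.rpow_nonneg (av_nonneg fun ω => Real.rpow_nonneg (hg ω) _) _)
  have hc : (0 : ℝ) < Fintype.card Ω := by exact_mod_cast Fintype.card_pos
  have key := Real.inner_le_Lp_mul_Lq_of_nonneg (Finset.univ : Finset Ω) hpq
    (fun i _ => hf i) (fun i _ => hg i)
  unfold av
  rw [Real.div_rpow (Finset.sum_nonneg fun ω _ => Real.rpow_nonneg (hf ω) _) hc.le,
    Real.div_rpow (Finset.sum_nonneg fun ω _ => Real.rpow_nonneg (hg ω) _) hc.le,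
    div_mul_div_comm, ← Real.rpow_add hc]
  have : 1 / p + 1 / q = 1 := by simpa [one_div] using hpq.inv_add_inv_eq_one
  rw [this, Real.rpow_one]
  exact div_le_div_of_nonneg_right key hc.le

/-- Jensen for powers. -/
theorem av_rpow_le [Nonempty Ω] {p : ℝ} (hp : 1 ≤ p) {f : Ω → ℝ} (hf : ∀ ω, 0 ≤ f ω) :
    (av f) ^ p ≤ av fun ω => f ω ^ p := by
  have hc : (0 : ℝ) < Fintype.card Ω := by exact_mod_cast Fintype.card_pos
  have := Real.rpow_arith_mean_le_arith_mean_rpow (Finset.univ : Finset Ω)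
    (fun _ => (Fintype.card Ω : ℝ)⁻¹) f (fun _ _ => by positivity)
    (by simp [Finset.card_univ, hc.ne']) (fun ω _ => hf ω) hp
  unfold av
  simpa only [← Finset.mul_sum, div_eq_inv_mul] using this

/-- Cauchy-Schwarz. -/
theorem av_mul_le_sqrt (f g : Ω → ℝ) :
    av (fun ω => f ω * g ω) ≤ √(av fun ω => f ω ^ 2) * √(av fun ω => g ω ^ 2) := by
  have h1 : (0 : ℝ) ≤ Fintype.card Ω := Nat.cast_nonneg _
  unfold av
  rw [← Real.sqrt_mul (div_nonneg (Finset.sum_nonneg fun ω _ => sq_nonneg _) h1)]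
  apply Real.le_sqrt_of_sq_le
  rw [div_pow, div_mul_div_comm, ← sq]
  exact div_le_div_of_nonneg_right (Finset.sum_mul_sq_le_sq_mul_sq _ _ _) (sq_nonneg _)

end av

/-- The sign of a bit. -/
def sg (b : Bool) : ℝ := if b then -1 else 1

/-- Walsh characters on the cube, indexed by indicator functions. -/
noncomputable def chi {n : ℕ} (T x : Fin n → Bool) : ℝ := ∏ i, if T i then sg (x i) else 1

/-- The size of the set with indicator function `T`. -/
def deg {n : ℕ} (T : Fin n → Bool) : ℕ := (univ.filter fun i => T i = true).card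

/-- Walsh coefficient. -/
noncomputable def fc {n : ℕ} (f : (Fin n → Bool) → ℝ) (T : Fin n → Bool) : ℝ :=
  av fun x => f x * chi T x

/-- All four cells of the pair of bit functions `(p, q)` have size `M`. -/
def Cells {W : Type*} [Fintype W] (M : ℕ) (p q : W → Bool) : Prop :=
  ∀ a b : Bool, (univ.filter fun i => p i = a ∧ q i = b).card = M

/-- Two-function inequality for one block. -/
def HC (M : ℕ) (ε : ℝ) : Prop :=
  ∀ p q : Fin (4 * M) → Bool, Cells M p q → ∀ u v : (Fin (4 * M) → Bool) → ℝ,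
    (∀ x, 0 ≤ u x) → (∀ x, 0 ≤ v x) →
    av (fun π : Equiv.Perm (Fin (4 * M)) => u (p ∘ π) * v (q ∘ π)) ≤
      (av fun π : Equiv.Perm (Fin (4 * M)) => u (p ∘ π) ^ (1 / (1 - ε))) ^ (1 - ε) *
      (av fun π : Equiv.Perm (Fin (4 * M)) => v (q ∘ π) ^ (1 / (1 - ε))) ^ (1 - ε)

/-- Three-function inequality for the maps `A`, `B`, `C` on a finite probability space. -/
def TF {Ω α β γ : Type*} [Fintype Ω] (A : Ω → α) (B : Ω → β) (C : Ω → γ) (c : ℝ) : Prop :=
  ∀ s b s' : Ω → ℝ, (∀ ω, 0 ≤ s ω) → (∀ ω, 0 ≤ b ω) → (∀ ω, 0 ≤ s' ω) →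
    (∀ x y, A x = A y → s x = s y) → (∀ x y, B x = B y → b x = b y) →
    (∀ x y, C x = C y → s' x = s' y) →
    av (fun ω => b ω * s ω * s' ω) ≤
      (av fun ω => b ω ^ (1 / (1 - c))) ^ (1 - c) * √(av fun ω => s ω ^ 2) *
        √(av fun ω => s' ω ^ 2)

/-- The three-function inequality for one block with cells of size `M`. -/
def BlockTF (M : ℕ) (c : ℝ) : Prop :=
  ∀ p q : Fin (4 * M) → Bool, Cells M p q →
    TF (fun π : Equiv.Perm (Fin (4 * M)) => p ∘ π) (fun π => q ∘ π)
      (fun π i => xor (p (π i)) (q (π i))) c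

/-- arrangements: permutations of the positions `Fin d → Bool`. -/
abbrev Arr (d : ℕ) := Equiv.Perm (Fin d → Bool)

/-- permutations of the positions that preserve all bits outside `Δ`. -/
def GG {d : ℕ} (Δ : Finset (Fin d)) : Subgroup (Arr d) where
  carrier := {π | ∀ v k, k ∉ Δ → π v k = v k}
  mul_mem' := by
    intro a b ha hb v k hk
    rw [Equiv.Perm.mul_apply, ha _ k hk, hb _ k hk]
  one_mem' := by intro v k _; rfl
  inv_mem' := by
    intro a ha v k hk
    have h := ha (a⁻¹ v) k hk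
    rw [← h]
    show (a (a.symm v)) k = v k
    rw [Equiv.apply_symm_apply]

theorem mem_GG {d : ℕ} {Δ : Finset (Fin d)} {π : Arr d} :
    π ∈ GG Δ ↔ ∀ v k, k ∉ Δ → π v k = v k := Iff.rfl

noncomputable instance instFintypeGG {d : ℕ} (Δ : Finset (Fin d)) : Fintype (GG Δ) :=
  Fintype.ofFinite _

/-- average over left multiplication by `GG Δ`. -/
noncomputable def PP {d : ℕ} (Δ : Finset (Fin d)) (f : Arr d → ℝ) (σ : Arr d) : ℝ :=
  av fun h : GG Δ => f ((h : Arr d) * σ)

/-- flip bit `l` if bit `i` is set. -/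
def kap {d : ℕ} (i l : Fin d) (hil : i ≠ l) : Arr d where
  toFun v := if v i then Function.update v l (!v l) else v
  invFun v := if v i then Function.update v l (!v l) else v
  left_inv v := by
    by_cases h : v i = true
    · simp [h, Function.update_of_ne hil]
    · simp [h]
  right_inv v := by
    by_cases h : v i = true
    · simp [h, Function.update_of_ne hil]
    · simp [h]

/-- Entropy of a density on arrangements. -/
noncomputable def Ent {d : ℕ} (f : Arr d → ℝ) : ℝ := av fun σ => f σ * Real.log (f σ)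

/-- one pass: `P_{0} ... P_{d-1} f` (direction `d-1` is applied first). -/
noncomputable def pass {d : ℕ} : ℕ → (Arr d → ℝ) → (Arr d → ℝ)
  | 0, f => f
  | (k + 1), f => if h : k < d then pass k (PP {⟨k, h⟩} f) else pass k f

end Vale.Agent.P162
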