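import Vale.Agent.Lib.P162.Basic

/-!
# P162: module BONAMI, the hypercontractive inequality on the discrete cube
-/

open Finset

namespace Vale.Agent.P162

/-- first step of the two point inequality -/
theorem two_point_aux1 {τ y : ℝ} (h0 : 0 ≤ τ) (h1 : τ ≤ 1) (hy : 0 ≤ y) (hy1 : y < 1) :
    2 * τ * y ≤ (1 + y) ^ τ - (1 - y) ^ τ := by
  have hmono : MonotoneOn (fun y : ℝ => (1 + y) ^ τ - (1 - y) ^ τ - 2 * τ * y) (Set.Ico 0 1) := by
    have hd : ∀ x ∈ Set.Ico (0 : ℝ) 1, HasDerivAt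
        (fun y : ℝ => (1 + y) ^ τ - (1 - y) ^ τ - 2 * τ * y)
        (τ * ((1 + x) ^ (τ - 1) + (1 - x) ^ (τ - 1) - 2)) x := by
      intro x hx
      have a1 : HasDerivAt (fun y : ℝ => (1 + y) ^ τ) (1 * τ * (1 + x) ^ (τ - 1)) x :=
        ((hasDerivAt_id x).const_add 1).rpow_const (Or.inl (by
          have := hx.1; simp only [id_eq]; linarith))
      have a2 : HasDerivAt (fun y : ℝ => (1 - y) ^ τ) (-1 * τ * (1 - x) ^ (τ - 1)) x :=
        ((hasDerivAt_id x).const_sub 1).rpow_const (Or.inl (by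
          have := hx.2; simp only [id_eq]; linarith))
      have a3 : HasDerivAt (fun y : ℝ => 2 * τ * y) (2 * τ * 1) x :=
        (hasDerivAt_id x).const_mul (2 * τ)
      refine ((a1.sub a2).sub a3).congr_deriv ?_
      ring
    apply monotoneOn_of_deriv_nonneg (convex_Ico 0 1)
    · intro x hx
      exact (hd x hx).continuousAt.continuousWithinAt
    · intro x hx
      rw [interior_Ico] at hx
      exact (hd x ⟨hx.1.le, hx.2⟩).differentiableAt.differentiableWithinAt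
    · intro x hx
      rw [interior_Ico] at hx
      rw [(hd x ⟨hx.1.le, hx.2⟩).deriv]
      apply mul_nonneg h0
      have p1 : 0 < 1 + x := by linarith [hx.1]
      have p2 : 0 < 1 - x := by linarith [hx.2]
      have q1 : 0 < (1 + x) ^ (τ - 1) := Real.rpow_pos_of_pos p1 _
      have q2 : 0 < (1 - x) ^ (τ - 1) := Real.rpow_pos_of_pos p2 _
      have q3 : 1 ≤ (1 + x) ^ (τ - 1) * (1 - x) ^ (τ - 1) := by
        rw [← Real.mul_rpow p1.le p2.le]
        apply Real.one_le_rpow_of_pos_of_le_one_of_nonpos (mul_pos p1 p2) _ (by linarith)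
        have := sq_nonneg x
        nlinarith
      nlinarith [sq_nonneg ((1 + x) ^ (τ - 1) - (1 - x) ^ (τ - 1))]
  have := hmono (Set.left_mem_Ico.2 one_pos) ⟨hy, hy1⟩ hy
  simp at this
  linarith

theorem two_point_aux2 {τ y : ℝ} (h0 : 0 ≤ τ) (h1 : τ ≤ 1) (hy : 0 ≤ y) (hy1 : y ≤ 1) :
    2 + (1 + τ) * τ * y ^ 2 ≤ (1 + y) ^ (1 + τ) + (1 - y) ^ (1 + τ) := by
  have hd : ∀ x ∈ Set.Icc (0 : ℝ) 1, HasDerivAt
      (fun y : ℝ => (1 + y) ^ (1 + τ) + (1 - y) ^ (1 + τ) - (1 + τ) * τ * y ^ 2)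
      ((1 + τ) * ((1 + x) ^ τ - (1 - x) ^ τ - 2 * τ * x)) x := by
    intro x hx
    have a1 : HasDerivAt (fun y : ℝ => (1 + y) ^ (1 + τ)) (1 * (1 + τ) * (1 + x) ^ (1 + τ - 1)) x :=
      ((hasDerivAt_id x).const_add 1).rpow_const (Or.inr (by linarith))
    have a2 : HasDerivAt (fun y : ℝ => (1 - y) ^ (1 + τ))
        (-1 * (1 + τ) * (1 - x) ^ (1 + τ - 1)) x :=
      ((hasDerivAt_id x).const_sub 1).rpow_const (Or.inr (by linarith))
    have a3 : HasDerivAt (fun y : ℝ => (1 + τ) * τ * y ^ 2)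
        ((1 + τ) * τ * (((2 : ℕ) : ℝ) * x ^ (2 - 1))) x :=
      (hasDerivAt_pow 2 x).const_mul ((1 + τ) * τ)
    refine ((a1.add a2).sub a3).congr_deriv ?_
    rw [show 1 + τ - 1 = τ by ring]
    push_cast
    ring
  have hmono : MonotoneOn
      (fun y : ℝ => (1 + y) ^ (1 + τ) + (1 - y) ^ (1 + τ) - (1 + τ) * τ * y ^ 2)
      (Set.Icc 0 1) := by
    apply monotoneOn_of_deriv_nonneg (convex_Icc 0 1)
    · intro x hx
      exact (hd x hx).continuousAt.continuousWithinAt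
    · intro x hx
      rw [interior_Icc] at hx
      exact (hd x ⟨hx.1.le, hx.2.le⟩).differentiableAt.differentiableWithinAt
    · intro x hx
      rw [interior_Icc] at hx
      rw [(hd x ⟨hx.1.le, hx.2.le⟩).deriv]
      apply mul_nonneg (by linarith)
      have := two_point_aux1 h0 h1 hx.1.le hx.2
      linarith
  have := hmono (Set.left_mem_Icc.2 zero_le_one) ⟨hy, hy1⟩ hy
  simp at this
  linarith

/-- the two point inequality, `b ≤ a` -/
theorem two_point_le {τ a b : ℝ} (h0 : 0 ≤ τ) (h1 : τ ≤ 1) (hb : 0 ≤ b) (hab : b ≤ a) :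
    ((a + b) / 2) ^ 2 + τ * ((a - b) / 2) ^ 2 ≤
      ((a ^ (1 + τ) + b ^ (1 + τ)) / 2) ^ (2 / (1 + τ)) := by
  have hp : 0 < 1 + τ := by linarith
  have ha : 0 ≤ a := hb.trans hab
  rcases ha.eq_or_lt with ha0 | ha0
  · have hb0 : b = 0 := le_antisymm (by linarith) hb
    rw [← ha0, hb0]
    have : (0 : ℝ) ≤ ((0 ^ (1 + τ) + 0 ^ (1 + τ)) / 2) ^ (2 / (1 + τ)) := by positivity
    simpa using this
  obtain ⟨m, hm⟩ : ∃ m : ℝ, m = (a + b) / 2 := ⟨_, rfl⟩
  have hm0 : 0 < m := by rw [hm]; linarith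
  obtain ⟨y, hy⟩ : ∃ y : ℝ, y = (a - b) / (2 * m) := ⟨_, rfl⟩
  have hmy : m * y = (a - b) / 2 := by rw [hy]; field_simp
  have ea : a = m * (1 + y) := by rw [mul_add, hmy, hm]; ring
  have eb : b = m * (1 - y) := by rw [mul_sub, hmy, hm]; ring
  have hy0 : 0 ≤ y := by rw [hy]; apply div_nonneg <;> linarith
  have hy1 : y ≤ 1 := by
    rw [hy, div_le_one (by positivity), hm]; linarith
  have e1 : (a ^ (1 + τ) + b ^ (1 + τ)) / 2 =
      m ^ (1 + τ) * (((1 + y) ^ (1 + τ) + (1 - y) ^ (1 + τ)) / 2) := by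
    rw [ea, eb, Real.mul_rpow hm0.le (by linarith), Real.mul_rpow hm0.le (by linarith)]
    ring
  have k1 := two_point_aux2 h0 h1 hy0 hy1
  have k2 : (1 + τ * y ^ 2) ^ ((1 + τ) / 2) ≤ 1 + (1 + τ) / 2 * (τ * y ^ 2) :=
    rpow_one_add_le_one_add_mul_self (by nlinarith [mul_nonneg h0 (sq_nonneg y)])
      (by linarith) (by linarith)
  have k3 : (1 + τ * y ^ 2) ^ ((1 + τ) / 2) ≤
      ((1 + y) ^ (1 + τ) + (1 - y) ^ (1 + τ)) / 2 := by
    refine k2.trans ?_
    linarith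
  have hpos : 0 ≤ 1 + τ * y ^ 2 := by nlinarith [mul_nonneg h0 (sq_nonneg y)]
  have k4 : 1 + τ * y ^ 2 ≤
      (((1 + y) ^ (1 + τ) + (1 - y) ^ (1 + τ)) / 2) ^ (2 / (1 + τ)) := by
    calc 1 + τ * y ^ 2 = ((1 + τ * y ^ 2) ^ ((1 + τ) / 2)) ^ (2 / (1 + τ)) := by
          rw [← Real.rpow_mul hpos, show (1 + τ) / 2 * (2 / (1 + τ)) = 1 by field_simp,
            Real.rpow_one]
      _ ≤ _ := Real.rpow_le_rpow (Real.rpow_nonneg hpos _) k3 (by positivity)
  have hR : 0 ≤ ((1 + y) ^ (1 + τ) + (1 - y) ^ (1 + τ)) / 2 :=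
    (Real.rpow_nonneg hpos _).trans k3
  rw [e1, Real.mul_rpow (Real.rpow_nonneg hm0.le _) hR, ← Real.rpow_mul hm0.le,
    show (1 + τ) * (2 / (1 + τ)) = 2 by field_simp]
  calc ((a + b) / 2) ^ 2 + τ * ((a - b) / 2) ^ 2 = m ^ 2 * (1 + τ * y ^ 2) := by
        rw [← hm, ← hmy]; ring
    _ = m ^ (2 : ℝ) * (1 + τ * y ^ 2) := by rw [Real.rpow_two]
    _ ≤ _ := mul_le_mul_of_nonneg_left k4 (Real.rpow_nonneg hm0.le _)

/-- the two point inequality -/
theorem two_point {τ a b : ℝ} (h0 : 0 ≤ τ) (h1 : τ ≤ 1) (ha : 0 ≤ a) (hb : 0 ≤ b) :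
    ((a + b) / 2) ^ 2 + τ * ((a - b) / 2) ^ 2 ≤
      ((a ^ (1 + τ) + b ^ (1 + τ)) / 2) ^ (2 / (1 + τ)) := by
  rcases le_total b a with h | h
  · exact two_point_le h0 h1 hb h
  · have := two_point_le h0 h1 ha h
    rw [add_comm (a ^ (1 + τ)), show (a - b) / 2 = -((b - a) / 2) by ring, neg_sq,
      add_comm a b]
    exact this

theorem pow_deg {n : ℕ} (τ : ℝ) (T : Fin n → Bool) :
    τ ^ deg T = ∏ i, if T i then τ else 1 := by
  unfold deg
  rw [Finset.prod_ite]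
  simp

theorem pow_deg_cons {n : ℕ} (τ : ℝ) (s : Bool) (T : Fin n → Bool) :
    τ ^ deg (Fin.cons s T : Fin (n + 1) → Bool) = (if s then τ else 1) * τ ^ deg T := by
  rw [pow_deg, pow_deg, Fin.prod_univ_succ]
  simp

theorem chi_cons {n : ℕ} (s b : Bool) (T x : Fin n → Bool) :
    chi (Fin.cons s T : Fin (n + 1) → Bool) (Fin.cons b x) =
      (if s then sg b else 1) * chi T x := by
  unfold chi
  rw [Fin.prod_univ_succ]
  simp

theorem sum_cube_succ {n : ℕ} (F : (Fin (n + 1) → Bool) → ℝ) :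
    ∑ T, F T = ∑ T : Fin n → Bool, (F (Fin.cons false T) + F (Fin.cons true T)) := by
  rw [← (Fin.consEquiv (fun _ : Fin (n + 1) => Bool)).sum_comp F, Fintype.sum_prod_type]
  simp only [Fintype.sum_bool, Fin.consEquiv, Equiv.coe_fn_mk]
  rw [Finset.sum_add_distrib, add_comm]

theorem av_cube_succ {n : ℕ} (F : (Fin (n + 1) → Bool) → ℝ) :
    av F = (av (fun x : Fin n → Bool => F (Fin.cons false x)) +
      av (fun x : Fin n → Bool => F (Fin.cons true x))) / 2 := by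
  unfold av
  rw [sum_cube_succ, Finset.sum_add_distrib]
  have : (Fintype.card (Fin (n + 1) → Bool) : ℝ) = 2 * Fintype.card (Fin n → Bool) := by
    simp [pow_succ, mul_comm]
  rw [this]
  have hc : (Fintype.card (Fin n → Bool) : ℝ) ≠ 0 := by
    exact_mod_cast Fintype.card_ne_zero
  field_simp

theorem fc_cons {n : ℕ} (f : (Fin (n + 1) → Bool) → ℝ) (s : Bool) (T : Fin n → Bool) :
    fc f (Fin.cons s T) = (fc (fun x => f (Fin.cons false x)) T +
      (if s then -1 else 1) * fc (fun x => f (Fin.cons true x)) T) / 2 := by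
  unfold fc
  rw [av_cube_succ]
  congr 2
  · apply av_congr
    intro x
    rw [chi_cons]
    cases s <;> simp [sg]
  · rw [← av_mul_left]
    apply av_congr
    intro x
    rw [chi_cons]
    cases s <;> simp [sg]

/-- Bonami: induct on `n` via `Fin.consEquiv`, Cauchy-Schwarz for the cross term, two-point inequality
`((a+b)/2)^2 + τ((a-b)/2)^2 ≤ ((a^p+b^p)/2)^(2/p)`, `p = 1+τ`, for `a, b ≥ 0`. -/
theorem bonami {n : ℕ} {τ : ℝ} (h0 : 0 ≤ τ) (h1 : τ ≤ 1) (f : (Fin n → Bool) → ℝ) :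
    ∑ T : Fin n → Bool, τ ^ deg T * fc f T ^ 2 ≤
      (av fun x => |f x| ^ (1 + τ)) ^ (2 / (1 + τ)) := by
  have hp : 0 < 1 + τ := by linarith
  induction n with
  | zero =>
    have e : ∀ T : Fin 0 → Bool, T = default := fun T => Subsingleton.elim _ _
    have e1 : ∀ F : (Fin 0 → Bool) → ℝ, av F = F default := by
      intro F
      unfold av
      rw [Fintype.sum_unique, Fintype.card_unique, Nat.cast_one, div_one]
      exact congrArg F (Subsingleton.elim _ _)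
    rw [Fintype.sum_unique, e1]
    unfold fc
    rw [e1]
    have e2 : ∀ T : Fin 0 → Bool, deg T = 0 := by intro T; simp [deg]
    rw [e2, pow_zero, one_mul, ← Real.rpow_mul (abs_nonneg _),
      show (1 + τ) * (2 / (1 + τ)) = 2 by field_simp, Real.rpow_two, sq_abs]
    simp [chi]
  | succ n ih =>
    obtain ⟨g, hg⟩ : ∃ g : (Fin n → Bool) → ℝ, g = fun x => f (Fin.cons false x) := ⟨_, rfl⟩
    obtain ⟨g', hg'⟩ : ∃ g : (Fin n → Bool) → ℝ, g = fun x => f (Fin.cons true x) := ⟨_, rfl⟩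
    have i1 := ih g
    have i2 := ih g'
    obtain ⟨U, hU⟩ : ∃ U : ℝ, U = ∑ T : Fin n → Bool, τ ^ deg T * fc g T ^ 2 := ⟨_, rfl⟩
    obtain ⟨V, hV⟩ : ∃ V : ℝ, V = ∑ T : Fin n → Bool, τ ^ deg T * fc g' T ^ 2 := ⟨_, rfl⟩
    obtain ⟨X, hX⟩ : ∃ X : ℝ, X = av fun x => |g x| ^ (1 + τ) := ⟨_, rfl⟩
    obtain ⟨Y, hY⟩ : ∃ Y : ℝ, Y = av fun x => |g' x| ^ (1 + τ) := ⟨_, rfl⟩
    have hX0 : 0 ≤ X := by rw [hX]; exact av_nonneg fun x => Real.rpow_nonneg (abs_nonneg _) _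
    have hY0 : 0 ≤ Y := by rw [hY]; exact av_nonneg fun x => Real.rpow_nonneg (abs_nonneg _) _
    have hU0 : 0 ≤ U := by
      rw [hU]; exact Finset.sum_nonneg fun T _ => mul_nonneg (pow_nonneg h0 _) (sq_nonneg _)
    have hV0 : 0 ≤ V := by
      rw [hV]; exact Finset.sum_nonneg fun T _ => mul_nonneg (pow_nonneg h0 _) (sq_nonneg _)
    rw [← hU, ← hX] at i1
    rw [← hV, ← hY] at i2
    -- left side
    have hL : ∑ T : Fin (n + 1) → Bool, τ ^ deg T * fc f T ^ 2 =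
        (1 + τ) / 4 * (U + V) + (1 - τ) / 2 * ∑ T : Fin n → Bool,
          τ ^ deg T * (fc g T * fc g' T) := by
      rw [sum_cube_succ, hU, hV, ← Finset.sum_add_distrib, Finset.mul_sum, Finset.mul_sum,
        ← Finset.sum_add_distrib]
      apply Finset.sum_congr rfl
      intro T _
      rw [pow_deg_cons, pow_deg_cons, fc_cons, fc_cons, ← hg, ← hg']
      simp
      ring
    have hC : ∑ T : Fin n → Bool, τ ^ deg T * (fc g T * fc g' T) ≤ √U * √V := by
      rw [hU, hV]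
      have := Real.sum_mul_le_sqrt_mul_sqrt (Finset.univ : Finset (Fin n → Bool))
        (fun T => √(τ ^ deg T) * fc g T) (fun T => √(τ ^ deg T) * fc g' T)
      refine le_trans (le_of_eq ?_) (this.trans (le_of_eq ?_))
      · apply Finset.sum_congr rfl
        intro T _
        rw [show √(τ ^ deg T) * fc g T * (√(τ ^ deg T) * fc g' T) =
          (√(τ ^ deg T) * √(τ ^ deg T)) * (fc g T * fc g' T) by ring,
          Real.mul_self_sqrt (pow_nonneg h0 _)]
      · congr 2 <;>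
        · apply Finset.sum_congr rfl
          intro T _
          rw [mul_pow, Real.sq_sqrt (pow_nonneg h0 _)]
    obtain ⟨x, hx⟩ : ∃ x : ℝ, x = X ^ (1 / (1 + τ)) := ⟨_, rfl⟩
    obtain ⟨y, hy⟩ : ∃ y : ℝ, y = Y ^ (1 / (1 + τ)) := ⟨_, rfl⟩
    have hx0 : 0 ≤ x := by rw [hx]; exact Real.rpow_nonneg hX0 _
    have hy0 : 0 ≤ y := by rw [hy]; exact Real.rpow_nonneg hY0 _
    have hxX : x ^ (1 + τ) = X := by
      rw [hx, ← Real.rpow_mul hX0, show 1 / (1 + τ) * (1 + τ) = 1 by field_simp, Real.rpow_one]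
    have hyY : y ^ (1 + τ) = Y := by
      rw [hy, ← Real.rpow_mul hY0, show 1 / (1 + τ) * (1 + τ) = 1 by field_simp, Real.rpow_one]
    have hx2 : x ^ 2 = X ^ (2 / (1 + τ)) := by
      rw [← Real.rpow_two, hx, ← Real.rpow_mul hX0]
      congr 1
      ring
    have hy2 : y ^ 2 = Y ^ (2 / (1 + τ)) := by
      rw [← Real.rpow_two, hy, ← Real.rpow_mul hY0]
      congr 1
      ring
    rw [← hx2] at i1
    rw [← hy2] at i2
    have j1 : √U ≤ x := Real.sqrt_le_iff.2 ⟨hx0, i1⟩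
    have j2 : √V ≤ y := Real.sqrt_le_iff.2 ⟨hy0, i2⟩
    have j3 : √U * √V ≤ x * y := mul_le_mul j1 j2 (Real.sqrt_nonneg _) hx0
    have hR : av (fun x => |f x| ^ (1 + τ)) = (X + Y) / 2 := by
      rw [av_cube_succ, hX, hY, hg, hg']
    have key := two_point h0 h1 hx0 hy0
    rw [hxX, hyY] at key
    rw [hR, hL]
    refine le_trans ?_ key
    have l1 : (1 + τ) / 4 * (U + V) ≤ (1 + τ) / 4 * (x ^ 2 + y ^ 2) :=
      mul_le_mul_of_nonneg_left (by linarith) (by positivity)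
    have l2 : (1 - τ) / 2 * ∑ T : Fin n → Bool, τ ^ deg T * (fc g T * fc g' T) ≤
        (1 - τ) / 2 * (x * y) :=
      mul_le_mul_of_nonneg_left (hC.trans j3) (by linarith)
    nlinarith [l1, l2]

end Vale.Agent.P162
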