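import Vale.Agent.Lib.P162.Basic

open Finset

namespace Vale.Agent.P162

/-! ### General facts on `f ∘ π` for a uniform permutation `π` -/

section general
variable {W α : Type*} [Fintype W] [DecidableEq W] [Fintype α] [DecidableEq α]

omit [DecidableEq W] [Fintype α] in
/-- equal fibre sizes give a permutation. -/
theorem exists_perm_comp {f x : W → α}
    (h : ∀ a, (univ.filter fun i => x i = a).card = (univ.filter fun i => f i = a).card) :
    ∃ π : Equiv.Perm W, f ∘ π = x := by
  have h' : ∀ a, Nonempty ({i // x i = a} ≃ {i // f i = a}) := by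
    intro a
    rw [← Fintype.card_eq, Fintype.card_subtype, Fintype.card_subtype]
    exact h a
  have e := fun a => (h' a).some
  refine ⟨(Equiv.sigmaFiberEquiv x).symm.trans ((Equiv.sigmaCongrRight e).trans
    (Equiv.sigmaFiberEquiv f)), ?_⟩
  funext i
  simp only [Function.comp_apply, Equiv.trans_apply]
  exact (e (x i) ⟨i, rfl⟩).2

omit [DecidableEq W] [Fintype α] in
theorem card_fiber_comp {f : W → α} (π : Equiv.Perm W) (a : α) :
    (univ.filter fun i => (f ∘ π) i = a).card = (univ.filter fun i => f i = a).card := by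
  apply Finset.card_bij (fun i _ => π i)
  · intro i hi; simpa using hi
  · intro i _ j _ h; exact π.injective h
  · intro j hj
    exact ⟨π.symm j, by simpa using hj, by simp⟩

/-- the functions with the same fibre sizes as `f`. -/
def sameFib (f : W → α) : Finset (W → α) :=
  univ.filter fun x => ∀ a, (univ.filter fun i => x i = a).card = (univ.filter fun i => f i = a).card

theorem mem_sameFib {f x : W → α} :
    x ∈ sameFib f ↔ ∀ a, (univ.filter fun i => x i = a).card =
      (univ.filter fun i => f i = a).card := by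
  simp [sameFib]

theorem card_perm_eq {f x : W → α} (hx : x ∈ sameFib f) :
    (univ.filter fun π : Equiv.Perm W => f ∘ π = x).card =
      (univ.filter fun π : Equiv.Perm W => f ∘ π = f).card := by
  obtain ⟨ρ, hρ⟩ := exists_perm_comp (mem_sameFib.1 hx)
  symm
  apply Finset.card_bij (fun π _ => π * ρ)
  · intro π hπ
    simp only [mem_filter, mem_univ, true_and] at hπ ⊢
    rw [Equiv.Perm.coe_mul, ← Function.comp_assoc, hπ, hρ]
  · intro π _ π' _ h
    exact mul_right_cancel h
  · intro π hπ
    simp only [mem_filter, mem_univ, true_and] at hπ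
    refine ⟨π * ρ⁻¹, ?_, by simp⟩
    simp only [mem_filter, mem_univ, true_and]
    rw [Equiv.Perm.coe_mul, ← Function.comp_assoc, hπ, ← hρ, Function.comp_assoc]
    have : (ρ : W → W) ∘ ((ρ⁻¹ : Equiv.Perm W) : W → W) = id := by
      rw [← Equiv.Perm.coe_mul, mul_inv_cancel]; rfl
    rw [this, Function.comp_id]

theorem sum_perm_comp (f : W → α) (F : (W → α) → ℝ) :
    ∑ π : Equiv.Perm W, F (f ∘ π) =
      (univ.filter fun π : Equiv.Perm W => f ∘ π = f).card * ∑ x ∈ sameFib f, F x := by
  classical
  have h1 : ∑ π : Equiv.Perm W, F (f ∘ π) =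
      ∑ x ∈ sameFib f, ∑ π ∈ univ.filter (fun π : Equiv.Perm W => f ∘ π = x), F (f ∘ π) := by
    symm
    apply Finset.sum_fiberwise_of_maps_to
    intro π _
    rw [mem_sameFib]
    exact fun a => card_fiber_comp π a
  rw [h1, Finset.mul_sum]
  apply Finset.sum_congr rfl
  intro x hx
  rw [Finset.sum_congr rfl (g := fun _ => F x), Finset.sum_const, nsmul_eq_mul, card_perm_eq hx]
  intro π hπ
  rw [(mem_filter.1 hπ).2]

omit [Fintype α] in
theorem stab_pos (f : W → α) : 0 < (univ.filter fun π : Equiv.Perm W => f ∘ π = f).card := by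
  apply Finset.card_pos.2
  exact ⟨1, by simp⟩

theorem card_perm_mul (f : W → α) :
    (univ.filter fun π : Equiv.Perm W => f ∘ π = f).card * (sameFib f).card =
      Fintype.card (Equiv.Perm W) := by
  have h := sum_perm_comp f (fun _ => (1 : ℝ))
  simp only [Finset.sum_const, nsmul_eq_mul, mul_one, Finset.card_univ] at h
  exact_mod_cast h.symm

theorem av_perm_comp (f : W → α) (F : (W → α) → ℝ) :
    av (fun π : Equiv.Perm W => F (f ∘ π)) = (∑ x ∈ sameFib f, F x) / (sameFib f).card := by
  have h0 : (0 : ℝ) < ((univ.filter fun π : Equiv.Perm W => f ∘ π = f).card : ℝ) := by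
    exact_mod_cast stab_pos f
  unfold av
  rw [sum_perm_comp, ← card_perm_mul f, Nat.cast_mul, mul_div_mul_left _ _ h0.ne']

theorem stab_card (f : W → α) : (univ.filter fun π : Equiv.Perm W => f ∘ π = f).card =
    ∏ a, (univ.filter fun i => f i = a).card.factorial := by
  have h := DomMulAct.stabilizer_card f
  rw [Fintype.card_subtype] at h
  rw [h]
  apply Finset.prod_congr rfl
  intro a _
  rw [Fintype.card_subtype]

end general

/-! ### Balanced functions -/

/-- balanced points of the cube -/
def Bal {W : Type*} [Fintype W] (x : W → Bool) : Prop :=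
  (univ.filter fun i => x i = true).card = (univ.filter fun i => x i = false).card

/-- pairs with all four cells equal. -/
noncomputable def DD (M : ℕ) : Finset ((Fin (4 * M) → Bool) × (Fin (4 * M) → Bool)) := by
  classical exact univ.filter fun z => Cells M z.1 z.2

noncomputable def BB (M : ℕ) : Finset (Fin (4 * M) → Bool) := by
  classical exact univ.filter fun x => (univ.filter fun i => x i = true).card = 2 * M

theorem mem_DD' {M : ℕ} {z : (Fin (4 * M) → Bool) × (Fin (4 * M) → Bool)} :
    z ∈ DD M ↔ Cells M z.1 z.2 := by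
  classical
  simp [DD]

theorem mem_BB {M : ℕ} {x : Fin (4 * M) → Bool} :
    x ∈ BB M ↔ (univ.filter fun i => x i = true).card = 2 * M := by
  classical
  simp [BB]

section cells
variable {W : Type*} [Fintype W]

theorem card_split (x y : W → Bool) (a : Bool) :
    (univ.filter fun i => x i = a).card =
      (univ.filter fun i => x i = a ∧ y i = true).card +
      (univ.filter fun i => x i = a ∧ y i = false).card := by
  classical
  rw [← Finset.card_union_of_disjoint]
  · congr 1
    ext i
    simp only [mem_filter, mem_univ, true_and, mem_union]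
    cases y i <;> simp
  · rw [Finset.disjoint_filter]
    rintro i _ ⟨_, h1⟩ ⟨_, h2⟩
    rw [h1] at h2
    exact Bool.noConfusion h2

theorem card_split_univ (x : W → Bool) :
    Fintype.card W = (univ.filter fun i => x i = true).card +
      (univ.filter fun i => x i = false).card := by
  classical
  rw [← Finset.card_union_of_disjoint]
  · rw [← Finset.card_univ]
    congr 1
    ext i
    simp only [mem_filter, mem_univ, true_and, mem_union, true_iff]
    cases x i <;> simp
  · rw [Finset.disjoint_filter]
    rintro i _ h1 h2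
    rw [h1] at h2
    exact Bool.noConfusion h2

theorem card_and_comm (x y : W → Bool) (a b : Bool) :
    (univ.filter fun i => x i = a ∧ y i = b).card =
      (univ.filter fun i => y i = b ∧ x i = a).card := by
  congr 1
  ext i
  simp only [mem_filter, mem_univ, true_and]
  exact and_comm

theorem Cells.swap {M : ℕ} {p q : W → Bool} (h : Cells M p q) : Cells M q p := by
  intro a b
  rw [card_and_comm]
  exact h b a

theorem Cells.xor_left {M : ℕ} {p q : W → Bool} (h : Cells M p q) :
    Cells M (fun i => xor (p i) (q i)) q := by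
  intro a b
  rw [← h (xor a b) b]
  congr 1
  ext i
  simp only [mem_filter, mem_univ, true_and]
  cases a <;> cases b <;> cases p i <;> cases q i <;> simp

theorem Cells.card_left {M : ℕ} {p q : W → Bool} (h : Cells M p q) (a : Bool) :
    (univ.filter fun i => p i = a).card = 2 * M := by
  rw [card_split p q a, h a true, h a false, two_mul]

end cells

theorem mem_DD {M : ℕ} {x y : Fin (4 * M) → Bool} :
    (x, y) ∈ DD M ↔ x ∈ BB M ∧ y ∈ BB M ∧ (fun i => xor (x i) (y i)) ∈ BB M := by
  rw [mem_DD', mem_BB, mem_BB, mem_BB]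
  constructor
  · intro h
    exact ⟨h.card_left true, h.swap.card_left true, h.xor_left.card_left true⟩
  · rintro ⟨hx, hy, hz⟩
    have h1 := card_split x y true
    have h2 := card_split x y false
    have h3 := card_split y x true
    rw [card_and_comm y x, card_and_comm y x] at h3
    have h5 := card_split_univ x
    rw [Fintype.card_fin] at h5
    have h6 : (univ.filter fun i => xor (x i) (y i) = true).card =
        (univ.filter fun i => x i = true ∧ y i = false).card +
        (univ.filter fun i => x i = false ∧ y i = true).card := by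
      classical
      rw [← Finset.card_union_of_disjoint]
      · congr 1
        ext i
        simp only [mem_filter, mem_univ, true_and, mem_union]
        cases x i <;> cases y i <;> simp
      · rw [Finset.disjoint_filter]
        rintro i _ ⟨h1, _⟩ ⟨h2, _⟩
        rw [h1] at h2
        exact Bool.noConfusion h2
    intro a b
    cases a <;> cases b <;> simp only <;> omega

theorem mem_sameFib_pair {M : ℕ} {W : Type*} [Fintype W] [DecidableEq W] {p q : W → Bool}
    (h : Cells M p q) (x : W → Bool × Bool) :
    x ∈ sameFib (fun i => (p i, q i)) ↔ Cells M (fun i => (x i).1) (fun i => (x i).2) := by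
  rw [mem_sameFib]
  have key : ∀ (u : W → Bool × Bool) (a b : Bool), (univ.filter fun i => u i = (a, b)).card =
      (univ.filter fun i => (u i).1 = a ∧ (u i).2 = b).card := by
    intro u a b
    congr 1
    ext i
    simp only [mem_filter, mem_univ, true_and, Prod.ext_iff]
  constructor
  · intro hx a b
    rw [← key, hx (a, b), key]
    exact h a b
  · rintro hx ⟨a, b⟩
    rw [key, key, hx a b]
    exact (h a b).symm

theorem sum_DD {M : ℕ} {p q : Fin (4 * M) → Bool} (h : Cells M p q)
    (F : (Fin (4 * M) → Bool) → (Fin (4 * M) → Bool) → ℝ) :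
    ∑ x ∈ sameFib (fun i => (p i, q i)), F (fun i => (x i).1) (fun i => (x i).2) =
      ∑ z ∈ DD M, F z.1 z.2 := by
  apply Finset.sum_bij (fun x _ => ((fun i => (x i).1), (fun i => (x i).2)))
  · intro x hx
    rw [mem_DD']
    exact (mem_sameFib_pair h x).1 hx
  · intro x _ y _ hxy
    funext i
    have h1 := congrFun (congrArg Prod.fst hxy) i
    have h2 := congrFun (congrArg Prod.snd hxy) i
    exact Prod.ext h1 h2
  · rintro ⟨x, y⟩ hxy
    refine ⟨fun i => (x i, y i), ?_, rfl⟩
    rw [mem_sameFib_pair h]
    exact mem_DD'.1 hxy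
  · intro x _
    rfl

theorem card_sameFib_pair {M : ℕ} {p q : Fin (4 * M) → Bool} (h : Cells M p q) :
    (sameFib (fun i => (p i, q i))).card = (DD M).card := by
  have := sum_DD h (fun _ _ => (1 : ℝ))
  simp only [Finset.sum_const, nsmul_eq_mul, mul_one] at this
  exact_mod_cast this

theorem av_perm_pair {M : ℕ} {p q : Fin (4 * M) → Bool} (h : Cells M p q)
    (F : (Fin (4 * M) → Bool) → (Fin (4 * M) → Bool) → ℝ) :
    av (fun π : Equiv.Perm (Fin (4 * M)) => F (p ∘ π) (q ∘ π)) =
      (∑ z ∈ DD M, F z.1 z.2) / (DD M).card := by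
  rw [← sum_DD h, ← card_sameFib_pair h]
  exact av_perm_comp (fun i => (p i, q i)) (fun x => F (fun i => (x i).1) (fun i => (x i).2))

theorem sameFib_eq_BB {M : ℕ} {p : Fin (4 * M) → Bool} (h : p ∈ BB M) : sameFib p = BB M := by
  rw [mem_BB] at h
  ext x
  rw [mem_sameFib, mem_BB]
  constructor
  · intro hx
    rw [hx true, h]
  · intro hx a
    have h1 := card_split_univ p
    have h2 := card_split_univ x
    cases a
    · omega
    · omega

theorem av_perm_left {M : ℕ} {p q : Fin (4 * M) → Bool} (h : Cells M p q)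
    (F : (Fin (4 * M) → Bool) → ℝ) :
    av (fun π : Equiv.Perm (Fin (4 * M)) => F (p ∘ π)) = (∑ x ∈ BB M, F x) / (BB M).card := by
  have hp : p ∈ BB M := mem_BB.2 (h.card_left true)
  rw [← sameFib_eq_BB hp]
  exact av_perm_comp p F

/-- `|B| = C(4M,2M)`. -/
theorem card_BB (M : ℕ) : (BB M).card = (4 * M).choose (2 * M) := by
  have h : (powersetCard (2 * M) (univ : Finset (Fin (4 * M)))).card = (4 * M).choose (2 * M) := by
    rw [Finset.card_powersetCard, Finset.card_univ, Fintype.card_fin]
  rw [← h]
  apply Finset.card_bij (fun x _ => univ.filter fun i => x i = true)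
  · intro x hx
    rw [mem_powersetCard]
    exact ⟨subset_univ _, mem_BB.1 hx⟩
  · intro x _ y _ hxy
    funext i
    have := congrArg (fun s => i ∈ s) hxy
    simp only [mem_filter, mem_univ, true_and, eq_iff_iff] at this
    exact Bool.eq_iff_iff.2 this
  · intro s hs
    rw [mem_powersetCard] at hs
    have h2 : (univ.filter fun i => (fun i => decide (i ∈ s)) i = true) = s := by
      ext i; simp
    refine ⟨fun i => decide (i ∈ s), ?_, h2⟩
    rw [mem_BB, h2]
    exact hs.2

theorem exists_cells (M : ℕ) : ∃ p q : Fin (4 * M) → Bool, Cells M p q := by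
  have hc : Fintype.card (Fin (4 * M)) = Fintype.card ((Bool × Bool) × Fin M) := by
    simp
  have e := Fintype.equivOfCardEq hc
  refine ⟨fun i => (e i).1.1, fun i => (e i).1.2, ?_⟩
  intro a b
  have : (univ : Finset (Fin M)).card = M := by simp
  refine Eq.trans (Eq.symm ?_) this
  apply Finset.card_bij (fun k _ => e.symm ((a, b), k))
  · intro k _
    simp
  · intro k _ k' _ hk
    have := e.symm.injective hk
    simpa using this
  · intro i hi
    simp only [mem_filter, mem_univ, true_and] at hi
    refine ⟨(e i).2, mem_univ _, ?_⟩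
    rw [Equiv.symm_apply_eq]
    exact Prod.ext (Prod.ext hi.1.symm hi.2.symm) rfl

theorem card_DD_mul (M : ℕ) : (M.factorial) ^ 4 * (DD M).card = (4 * M).factorial := by
  obtain ⟨p, q, h⟩ := exists_cells M
  have h1 := card_perm_mul (fun i => (p i, q i))
  rw [card_sameFib_pair h, stab_card, Fintype.card_perm, Fintype.card_fin] at h1
  rw [← h1]
  congr 1
  have key : ∀ (a b : Bool), (univ.filter fun i => (p i, q i) = (a, b)).card = M := by
    intro a b
    refine Eq.trans ?_ (h a b)
    congr 1
    ext i
    simp only [mem_filter, mem_univ, true_and, Prod.ext_iff]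
  rw [Fintype.prod_prod_type]
  simp only [key, Finset.prod_const, Finset.card_univ, Fintype.card_bool]
  ring

/-- `|D| = C(4M,2M) C(2M,M)^2`. -/
theorem card_DD (M : ℕ) : (DD M).card = (4 * M).choose (2 * M) * ((2 * M).choose M) ^ 2 := by
  have h1 := card_DD_mul M
  have h2 : (4 * M).choose (2 * M) * (2 * M).factorial * (2 * M).factorial =
      (4 * M).factorial := by
    have := Nat.choose_mul_factorial_mul_factorial (n := 4 * M) (k := 2 * M) (by omega)
    rwa [show 4 * M - 2 * M = 2 * M by omega] at this
  have h3 : (2 * M).choose M * M.factorial * M.factorial = (2 * M).factorial := by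
    have := Nat.choose_mul_factorial_mul_factorial (n := 2 * M) (k := M) (by omega)
    rwa [show 2 * M - M = M by omega] at this
  have h4 : 0 < M.factorial ^ 4 := pow_pos (Nat.factorial_pos M) 4
  apply Nat.eq_of_mul_eq_mul_left h4
  rw [h1, ← h2, ← h3]
  ring

theorem choose_le (M : ℕ) (hM : 1 ≤ M) :
    (4 * M).choose (2 * M) ≤ 4 * M ^ 2 * ((2 * M).choose M) ^ 2 := by
  have h1 := Nat.sum_range_choose_sq (2 * M)
  rw [show 2 * (2 * M) = 4 * M by ring] at h1
  rw [← h1]
  calc ∑ i ∈ Finset.range (2 * M + 1), ((2 * M).choose i) ^ 2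
      ≤ ∑ i ∈ Finset.range (2 * M + 1), ((2 * M).choose M) ^ 2 := by
        apply Finset.sum_le_sum
        intro i _
        apply Nat.pow_le_pow_left
        have := Nat.choose_le_middle i (2 * M)
        rwa [show 2 * M / 2 = M by omega] at this
    _ = (2 * M + 1) * ((2 * M).choose M) ^ 2 := by
        rw [Finset.sum_const, Finset.card_range, smul_eq_mul]
    _ ≤ 4 * M ^ 2 * ((2 * M).choose M) ^ 2 := by
        apply Nat.mul_le_mul_right
        nlinarith

/-- the joint law has density `≤ 4 M^2` with respect to the product law. -/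
theorem joint_le {M : ℕ} (hM : 1 ≤ M) {p q : Fin (4 * M) → Bool} (h : Cells M p q)
    {u v : (Fin (4 * M) → Bool) → ℝ} (hu : ∀ x, 0 ≤ u x) (hv : ∀ x, 0 ≤ v x) :
    av (fun π : Equiv.Perm (Fin (4 * M)) => u (p ∘ π) * v (q ∘ π)) ≤
      4 * (M : ℝ) ^ 2 * ((av fun π : Equiv.Perm (Fin (4 * M)) => u (p ∘ π)) *
        (av fun π : Equiv.Perm (Fin (4 * M)) => v (q ∘ π))) := by
  rw [av_perm_pair h (fun x y => u x * v y), av_perm_left h u, av_perm_left h.swap v]
  have hB : (0 : ℝ) < (BB M).card := by
    rw [card_BB]
    exact_mod_cast Nat.choose_pos (by omega)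
  have hD : (0 : ℝ) < (DD M).card := by
    rw [card_DD]
    have h1 : 0 < (4 * M).choose (2 * M) := Nat.choose_pos (by omega)
    have h2 : 0 < (2 * M).choose M := Nat.choose_pos (by omega)
    positivity
  have hBD : ((BB M).card : ℝ) * (BB M).card ≤ 4 * (M : ℝ) ^ 2 * (DD M).card := by
    have := choose_le M hM
    have h1 : (BB M).card * (BB M).card ≤ 4 * M ^ 2 * (DD M).card := by
      rw [card_BB, card_DD]
      calc (4 * M).choose (2 * M) * (4 * M).choose (2 * M)
          ≤ (4 * M).choose (2 * M) * (4 * M ^ 2 * ((2 * M).choose M) ^ 2) :=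
            Nat.mul_le_mul_left _ this
        _ = _ := by ring
    exact_mod_cast h1
  have hsum : ∑ z ∈ DD M, u z.1 * v z.2 ≤ (∑ x ∈ BB M, u x) * ∑ y ∈ BB M, v y := by
    rw [Finset.sum_mul_sum, ← Finset.sum_product']
    apply Finset.sum_le_sum_of_subset_of_nonneg
    · rintro ⟨x, y⟩ hz
      rw [mem_DD] at hz
      exact mem_product.2 ⟨hz.1, hz.2.1⟩
    · intro z _ _
      exact mul_nonneg (hu _) (hv _)
  have hS : 0 ≤ (∑ x ∈ BB M, u x) * ∑ y ∈ BB M, v y :=
    mul_nonneg (Finset.sum_nonneg fun x _ => hu x) (Finset.sum_nonneg fun x _ => hv x)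
  rw [div_mul_div_comm, ← mul_div_assoc, div_le_div_iff₀ hD (mul_pos hB hB)]
  calc (∑ z ∈ DD M, u z.1 * v z.2) * (((BB M).card : ℝ) * (BB M).card)
      ≤ ((∑ x ∈ BB M, u x) * ∑ y ∈ BB M, v y) * (4 * (M : ℝ) ^ 2 * (DD M).card) :=
        mul_le_mul hsum hBD (by positivity) hS
    _ = _ := by ring


end Vale.Agent.P162
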