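import Vale.Agent.Lib.P162.Basic

/-!
# P162: module GROUP, tensorisation of the three-function inequality and its lift to subgroups
-/

open Finset

namespace Vale.Agent.P162

section tensor

variable {Ω Ω' α β γ α' β' γ' : Type*} [Fintype Ω] [Fintype Ω']

theorem TF.prod {A : Ω → α} {B : Ω → β}
    {C : Ω → γ} {A' : Ω' → α'} {B' : Ω' → β'} {C' : Ω' → γ'} {c : ℝ} (h1 : c < 1)
    (h : TF A B C c) (h' : TF A' B' C' c) :
    TF (fun z : Ω × Ω' => (A z.1, A' z.2)) (fun z => (B z.1, B' z.2))
      (fun z => (C z.1, C' z.2)) c := by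
  intro s b s' hs hb hs' fs fb fs'
  have hc : 0 < 1 - c := by linarith
  set r : ℝ := 1 / (1 - c) with hr
  have hr' : (1 - c) * r = 1 := by rw [hr]; field_simp
  set bh : Ω → ℝ := fun ω => (av fun ω' => b (ω, ω') ^ r) ^ (1 - c) with hbh
  set sh : Ω → ℝ := fun ω => √(av fun ω' => s (ω, ω') ^ 2) with hsh
  set sh' : Ω → ℝ := fun ω => √(av fun ω' => s' (ω, ω') ^ 2) with hsh'
  have step1 : ∀ ω, av (fun ω' => b (ω, ω') * s (ω, ω') * s' (ω, ω')) ≤ bh ω * sh ω * sh' ω := by
    intro ω
    exact h' (fun ω' => s (ω, ω')) (fun ω' => b (ω, ω')) (fun ω' => s' (ω, ω'))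
      (fun _ => hs _) (fun _ => hb _) (fun _ => hs' _)
      (fun x y hxy => fs _ _ (by simp [hxy])) (fun x y hxy => fb _ _ (by simp [hxy]))
      (fun x y hxy => fs' _ _ (by simp [hxy]))
  have hb0 : ∀ ω, 0 ≤ av fun ω' => b (ω, ω') ^ r := fun ω =>
    av_nonneg fun ω' => Real.rpow_nonneg (hb _) _
  have hs0 : ∀ ω, 0 ≤ av fun ω' => s (ω, ω') ^ 2 := fun ω => av_nonneg fun ω' => sq_nonneg _
  have hs0' : ∀ ω, 0 ≤ av fun ω' => s' (ω, ω') ^ 2 := fun ω => av_nonneg fun ω' => sq_nonneg _
  have step2 := h sh bh sh' (fun ω => Real.sqrt_nonneg _) (fun ω => Real.rpow_nonneg (hb0 ω) _)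
    (fun ω => Real.sqrt_nonneg _)
    (fun x y hxy => by
      simp only [hsh]
      rw [av_congr fun ω' => by rw [fs (x, ω') (y, ω') (by simp [hxy])]])
    (fun x y hxy => by
      simp only [hbh]
      rw [av_congr fun ω' => by rw [fb (x, ω') (y, ω') (by simp [hxy])]])
    (fun x y hxy => by
      simp only [hsh']
      rw [av_congr fun ω' => by rw [fs' (x, ω') (y, ω') (by simp [hxy])]])
  rw [av_prod]
  refine (av_mono step1).trans (step2.trans (le_of_eq ?_))
  rw [av_prod (fun z : Ω × Ω' => b z ^ r), av_prod (fun z : Ω × Ω' => s z ^ 2),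
    av_prod (fun z : Ω × Ω' => s' z ^ 2)]
  congr 1
  · congr 1
    · congr 1
      apply av_congr
      intro ω
      simp only [hbh]
      rw [← Real.rpow_mul (hb0 ω), hr', Real.rpow_one]
    · congr 1
      apply av_congr
      intro ω
      simp only [hsh]
      rw [Real.sq_sqrt (hs0 ω)]
  · congr 1
    apply av_congr
    intro ω
    simp only [hsh']
    rw [Real.sq_sqrt (hs0' ω)]

theorem TF.of_equiv {A : Ω' → α} {B : Ω' → β} {C : Ω' → γ} {A1 : Ω → α'} {B1 : Ω → β'}
    {C1 : Ω → γ'} {c : ℝ} (h : TF A B C c) (e : Ω ≃ Ω')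
    (hA : ∀ x y, A (e x) = A (e y) → A1 x = A1 y) (hB : ∀ x y, B (e x) = B (e y) → B1 x = B1 y)
    (hC : ∀ x y, C (e x) = C (e y) → C1 x = C1 y) : TF A1 B1 C1 c := by
  intro s b s' hs hb hs' fs fb fs'
  have := h (fun x => s (e.symm x)) (fun x => b (e.symm x)) (fun x => s' (e.symm x))
    (fun _ => hs _) (fun _ => hb _) (fun _ => hs' _)
    (fun x y hxy => fs _ _ (hA _ _ (by simpa using hxy)))
    (fun x y hxy => fb _ _ (hB _ _ (by simpa using hxy)))
    (fun x y hxy => fs' _ _ (hC _ _ (by simpa using hxy)))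
  rw [← av_equiv e, ← av_equiv e (fun x => b (e.symm x) ^ (1 / (1 - c))),
    ← av_equiv e (fun x => s (e.symm x) ^ 2), ← av_equiv e (fun x => s' (e.symm x) ^ 2)] at this
  simpa using this

theorem TF.pi_fin {A : Ω → α} {B : Ω → β} {C : Ω → γ} {c : ℝ} (h1 : c < 1) (h : TF A B C c) :
    ∀ k : ℕ, TF (fun (z : Fin k → Ω) i => A (z i)) (fun z i => B (z i)) (fun z i => C (z i)) c := by
  intro k
  induction k with
  | zero =>
    intro s b s' hs hb hs' _ _ _
    have hc : 0 < 1 - c := by linarith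
    have e : ∀ f : (Fin 0 → Ω) → ℝ, av f = f (fun i => i.elim0) := by
      intro f
      have : f = fun _ => f (fun i => i.elim0) := by
        funext x; congr 1; exact Subsingleton.elim _ _
      rw [this, av_const]
    rw [e, e, e, e, ← Real.rpow_mul (hb _), one_div_mul_cancel hc.ne', Real.rpow_one,
      Real.sqrt_sq (hs _), Real.sqrt_sq (hs' _)]
  | succ k ih =>
    have := TF.prod h1 h ih
    refine this.of_equiv (Fin.consEquiv fun _ => Ω).symm ?_ ?_ ?_
    all_goals
      intro x y hxy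
      simp only [Prod.mk.injEq] at hxy
      funext i
      refine Fin.cases ?_ (fun i => ?_) i
      · exact hxy.1
      · exact congrFun hxy.2 i

theorem TF.pi {ι : Type*} [Fintype ι] [DecidableEq ι] {A : Ω → α} {B : Ω → β} {C : Ω → γ} {c : ℝ}
    (h1 : c < 1) (h : TF A B C c) :
    TF (fun (z : ι → Ω) i => A (z i)) (fun z i => B (z i)) (fun z i => C (z i)) c := by
  have e := Fintype.equivFin ι
  refine (h.pi_fin h1 (Fintype.card ι)).of_equiv (Equiv.arrowCongr e (Equiv.refl Ω)) ?_ ?_ ?_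
  all_goals
    intro x y hxy
    funext i
    have := congrFun hxy (e i)
    simpa [Equiv.arrowCongr] using this

end tensor

/-- the block inequality on an arbitrary type. -/
theorem BlockTF.transfer {M : ℕ} {c : ℝ} (h : BlockTF M c) {W : Type*} [Fintype W] [DecidableEq W]
    (hW : Fintype.card W = 4 * M) {p q : W → Bool} (hpq : Cells M p q) :
    TF (fun π : Equiv.Perm W => p ∘ π) (fun π => q ∘ π) (fun π w => xor (p (π w)) (q (π w))) c := by
  have e : W ≃ Fin (4 * M) := Fintype.equivFinOfCardEq hW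
  have hc : Cells M (p ∘ e.symm) (q ∘ e.symm) := by
    intro a b
    refine (Finset.card_bij (fun i _ => e.symm i) ?_ ?_ ?_).trans (hpq a b)
    · intro i hi
      simpa using hi
    · intro i _ j _ hij
      exact e.symm.injective hij
    · intro w hw
      exact ⟨e w, by simpa using hw, by simp⟩
  refine (h _ _ hc).of_equiv e.permCongr ?_ ?_ ?_
  all_goals
    intro x y hxy
    funext w
    have := congrFun hxy (e w)
    simpa using this

section lift

variable {d : ℕ}

/-- restriction to the block coordinates `Δ` and the outside coordinates. -/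
def splitE (Δ : Finset (Fin d)) :
    (Fin d → Bool) ≃ ({k : Fin d // k ∈ Δ} → Bool) × ({k : Fin d // k ∉ Δ} → Bool) :=
  Equiv.piEquivPiSubtypeProd (fun k => k ∈ Δ) (fun _ => Bool)

theorem splitE_fst (Δ : Finset (Fin d)) (v : Fin d → Bool) (k : {k : Fin d // k ∈ Δ}) :
    (splitE Δ v).1 k = v k := rfl

theorem splitE_snd (Δ : Finset (Fin d)) (v : Fin d → Bool) (k : {k : Fin d // k ∉ Δ}) :
    (splitE Δ v).2 k = v k := rfl

/-- block permutation. -/
def blockPerm (Δ : Finset (Fin d))
    (τ : ({k : Fin d // k ∉ Δ} → Bool) → Equiv.Perm ({k : Fin d // k ∈ Δ} → Bool)) : Arr d :=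
  (splitE Δ).trans ((Equiv.prodCongrLeft τ).trans (splitE Δ).symm)

theorem splitE_blockPerm (Δ : Finset (Fin d))
    (τ : ({k : Fin d // k ∉ Δ} → Bool) → Equiv.Perm ({k : Fin d // k ∈ Δ} → Bool))
    (v : Fin d → Bool) :
    splitE Δ (blockPerm Δ τ v) = (τ (splitE Δ v).2 (splitE Δ v).1, (splitE Δ v).2) := by
  unfold blockPerm
  simp only [Equiv.trans_apply, Equiv.apply_symm_apply]
  rfl

theorem blockPerm_mem (Δ : Finset (Fin d))
    (τ : ({k : Fin d // k ∉ Δ} → Bool) → Equiv.Perm ({k : Fin d // k ∈ Δ} → Bool)) :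
    blockPerm Δ τ ∈ GG Δ := by
  intro v k hk
  have h := splitE_blockPerm Δ τ v
  have h2 := congrFun (congrArg Prod.snd h) ⟨k, hk⟩
  exact h2

theorem blockPerm_apply_mem (Δ : Finset (Fin d))
    (τ : ({k : Fin d // k ∉ Δ} → Bool) → Equiv.Perm ({k : Fin d // k ∈ Δ} → Bool))
    (v : Fin d → Bool) (k : {k : Fin d // k ∈ Δ}) :
    blockPerm Δ τ v k = τ (splitE Δ v).2 (splitE Δ v).1 k := by
  have h := splitE_blockPerm Δ τ v
  exact congrFun (congrArg Prod.fst h) k

theorem blockPerm_bijective (Δ : Finset (Fin d)) :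
    Function.Bijective (fun τ => (⟨blockPerm Δ τ, blockPerm_mem Δ τ⟩ : GG Δ)) := by
  constructor
  · intro τ τ' h
    have h' : blockPerm Δ τ = blockPerm Δ τ' := congrArg Subtype.val h
    funext o
    ext w k
    have := congrFun (congrArg (fun π : Arr d => π ((splitE Δ).symm (w, o))) h') (k : Fin d)
    rw [blockPerm_apply_mem, blockPerm_apply_mem, Equiv.apply_symm_apply] at this
    rw [this]
  · rintro ⟨h, hh⟩
    have key : ∀ o w, (splitE Δ (h ((splitE Δ).symm (w, o)))).2 = o := by
      intro o w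
      funext k
      rw [splitE_snd, hh _ _ k.2]
      have : (splitE Δ ((splitE Δ).symm (w, o))).2 k = o k := by rw [Equiv.apply_symm_apply]
      exact this
    have inj : ∀ o, Function.Injective fun w => (splitE Δ (h ((splitE Δ).symm (w, o)))).1 := by
      intro o w w' hw
      have : splitE Δ (h ((splitE Δ).symm (w, o))) = splitE Δ (h ((splitE Δ).symm (w', o))) :=
        Prod.ext hw ((key o w).trans (key o w').symm)
      have := (splitE Δ).symm.injective (h.injective ((splitE Δ).injective this))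
      exact congrArg Prod.fst this
    refine ⟨fun o => Equiv.ofBijective _ (Finite.injective_iff_bijective.1 (inj o)), ?_⟩
    apply Subtype.ext
    apply Equiv.ext
    intro v
    apply (splitE Δ).injective
    show splitE Δ (blockPerm Δ _ v) = splitE Δ (h v)
    rw [splitE_blockPerm]
    refine Prod.ext ?_ ?_
    · show (splitE Δ (h ((splitE Δ).symm ((splitE Δ v).1, (splitE Δ v).2)))).1 = (splitE Δ (h v)).1
      rw [Prod.mk.eta, Equiv.symm_apply_apply]
    · show (splitE Δ v).2 = (splitE Δ (h v)).2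
      have := key (splitE Δ v).2 (splitE Δ v).1
      rw [Prod.mk.eta, Equiv.symm_apply_apply] at this
      exact this.symm

theorem PP_eq_av (Δ : Finset (Fin d)) (F : Arr d → ℝ) (σ : Arr d) :
    PP Δ F σ = av fun τ : ({k : Fin d // k ∉ Δ} → Bool) → Equiv.Perm ({k : Fin d // k ∈ Δ} → Bool) =>
      F (blockPerm Δ τ * σ) := by
  unfold PP
  rw [← av_equiv (Equiv.ofBijective _ (blockPerm_bijective Δ))]
  rfl

/-- the two-bit cells. -/
theorem cells_bits (Δ : Finset (Fin d)) {i l : Fin d} (hi : i ∈ Δ) (hl : l ∈ Δ) (hil : i ≠ l) {M : ℕ}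
    (hM : 2 ^ Δ.card = 4 * M) :
    Cells M (fun w : {k : Fin d // k ∈ Δ} → Bool => w ⟨l, hl⟩) (fun w => w ⟨i, hi⟩) := by
  have hne : (⟨i, hi⟩ : {k : Fin d // k ∈ Δ}) ≠ ⟨l, hl⟩ := fun h => hil (congrArg Subtype.val h)
  set I : {k : Fin d // k ∈ Δ} := ⟨i, hi⟩
  set L : {k : Fin d // k ∈ Δ} := ⟨l, hl⟩
  -- all cells have the same cardinality
  have same : ∀ a b : Bool, (univ.filter fun w : {k : Fin d // k ∈ Δ} → Bool => w L = a ∧ w I = b).card =
      (univ.filter fun w : {k : Fin d // k ∈ Δ} → Bool => w L = false ∧ w I = false).card := by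
    intro a b
    refine Finset.card_bij (fun w _ => Function.update (Function.update w L false) I false) ?_ ?_ ?_
    · intro w _
      simp only [mem_filter, mem_univ, true_and]
      exact ⟨by rw [Function.update_of_ne hne.symm, Function.update_self],
        by rw [Function.update_self]⟩
    · intro w hw w' hw' h
      simp only [mem_filter, mem_univ, true_and] at hw hw'
      funext k
      by_cases hk : k = I
      · rw [hk, hw.2, hw'.2]
      by_cases hk2 : k = L
      · rw [hk2, hw.1, hw'.1]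
      have := congrFun h k
      rwa [Function.update_of_ne hk, Function.update_of_ne hk2, Function.update_of_ne hk,
        Function.update_of_ne hk2] at this
    · intro w hw
      simp only [mem_filter, mem_univ, true_and] at hw
      refine ⟨Function.update (Function.update w L a) I b, ?_, ?_⟩
      · simp only [mem_filter, mem_univ, true_and]
        exact ⟨by rw [Function.update_of_ne hne.symm, Function.update_self],
          by rw [Function.update_self]⟩
      · funext k
        by_cases hk : k = I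
        · subst hk; rw [Function.update_self, hw.2]
        by_cases hk2 : k = L
        · subst hk2; rw [Function.update_of_ne hk, Function.update_self, hw.1]
        rw [Function.update_of_ne hk, Function.update_of_ne hk2, Function.update_of_ne hk,
          Function.update_of_ne hk2]
  have total : Fintype.card ({k : Fin d // k ∈ Δ} → Bool) = ∑ z : Bool × Bool,
      (univ.filter fun w : {k : Fin d // k ∈ Δ} → Bool => w L = z.1 ∧ w I = z.2).card := by
    rw [← Finset.card_univ, Finset.card_eq_sum_card_fiberwise (f := fun w => (w L, w I))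
      (t := univ) (fun _ _ => mem_univ _)]
    apply Finset.sum_congr rfl
    intro z _
    congr 1
    ext w
    simp [Prod.ext_iff]
  have hcard : Fintype.card ({k : Fin d // k ∈ Δ} → Bool) = 4 * M := by
    rw [← hM]; simp
  rw [hcard, Finset.sum_congr rfl fun z _ => same z.1 z.2, Finset.sum_const, Finset.card_univ] at total
  have h4 : Fintype.card (Bool × Bool) = 4 := by simp
  rw [h4, smul_eq_mul] at total
  intro a b
  rw [same a b]
  omega

/-- the three-function inequality on cosets of `GG [i,l]`. -/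
theorem tf_group {i l : Fin d} (hil : i < l) {c : ℝ} (h1 : c < 1)
    (hTF : BlockTF (2 ^ ((l : ℕ) - i - 1)) c) (s b s'' : Arr d → ℝ)
    (hs0 : ∀ σ, 0 ≤ s σ) (hb0 : ∀ σ, 0 ≤ b σ) (hs0' : ∀ σ, 0 ≤ s'' σ)
    (hs : ∀ h ∈ GG (Finset.Ico i l), ∀ σ, s (h * σ) = s σ)
    (hb : ∀ h ∈ GG (Finset.Ioc i l), ∀ σ, b (h * σ) = b σ)
    (hs' : ∀ h ∈ GG (Finset.Ico i l), ∀ σ, s'' (h * σ) = s'' σ) (σ : Arr d) :
    PP (Finset.Icc i l) (fun σ => b σ * s σ * s'' (kap i l hil.ne * σ)) σ ≤
      (PP (Finset.Icc i l) (fun σ => b σ ^ (1 / (1 - c))) σ) ^ (1 - c) *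
      √(PP (Finset.Icc i l) (fun σ => s σ ^ 2) σ) *
      √(PP (Finset.Icc i l) (fun σ => s'' (kap i l hil.ne * σ) ^ 2) σ) := by
  set Δ := Finset.Icc i l with hΔ
  have hi : i ∈ Δ := Finset.mem_Icc.2 ⟨le_rfl, hil.le⟩
  have hl : l ∈ Δ := Finset.mem_Icc.2 ⟨hil.le, le_rfl⟩
  have hM : 2 ^ Δ.card = 4 * 2 ^ ((l : ℕ) - i - 1) := by
    rw [hΔ, Fin.card_Icc, show (4 : ℕ) = 2 ^ 2 by norm_num, ← pow_add]
    congr 1
    have : (i : ℕ) < l := hil
    omega
  have cells := cells_bits Δ hi hl hil.ne hM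
  have hW : Fintype.card ({k : Fin d // k ∈ Δ} → Bool) = 4 * 2 ^ ((l : ℕ) - i - 1) := by
    rw [← hM]; simp
  have T := (hTF.transfer hW cells).pi (ι := {k : Fin d // k ∉ Δ} → Bool) h1
  have key := T (fun τ => s (blockPerm Δ τ * σ)) (fun τ => b (blockPerm Δ τ * σ))
    (fun τ => s'' (kap i l hil.ne * (blockPerm Δ τ * σ))) (fun _ => hs0 _) (fun _ => hb0 _)
    (fun _ => hs0' _) ?_ ?_ ?_
  · rw [PP_eq_av, PP_eq_av, PP_eq_av, PP_eq_av]
    exact key
  · intro τ τ' h
    have hmem : blockPerm Δ τ' * (blockPerm Δ τ)⁻¹ ∈ GG (Finset.Ico i l) := by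
      intro v k hk
      obtain ⟨u, rfl⟩ : ∃ u, v = blockPerm Δ τ u := ⟨(blockPerm Δ τ)⁻¹ v, by
        show v = blockPerm Δ τ ((blockPerm Δ τ).symm v)
        rw [Equiv.apply_symm_apply]⟩
      have e : (blockPerm Δ τ' * (blockPerm Δ τ)⁻¹) (blockPerm Δ τ u) = blockPerm Δ τ' u := by
        show blockPerm Δ τ' ((blockPerm Δ τ).symm (blockPerm Δ τ u)) = _
        rw [Equiv.symm_apply_apply]
      rw [e]
      by_cases hkΔ : k ∈ Δ
      · have hkl : k = l := by
          have h1 := Finset.mem_Icc.1 hkΔ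
          by_contra hne
          exact hk (Finset.mem_Ico.2 ⟨h1.1, lt_of_le_of_ne h1.2 hne⟩)
        subst hkl
        have := congrFun (congrFun h (splitE Δ u).2) (splitE Δ u).1
        simp only [Function.comp] at this
        rw [blockPerm_apply_mem Δ τ' u ⟨k, hkΔ⟩, blockPerm_apply_mem Δ τ u ⟨k, hkΔ⟩]
        exact this.symm
      · rw [blockPerm_mem Δ τ' u k hkΔ, blockPerm_mem Δ τ u k hkΔ]
    have := hs _ hmem (blockPerm Δ τ * σ)
    rw [← this]
    congr 1
    group
  · intro τ τ' h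
    have hmem : blockPerm Δ τ' * (blockPerm Δ τ)⁻¹ ∈ GG (Finset.Ioc i l) := by
      intro v k hk
      obtain ⟨u, rfl⟩ : ∃ u, v = blockPerm Δ τ u := ⟨(blockPerm Δ τ)⁻¹ v, by
        show v = blockPerm Δ τ ((blockPerm Δ τ).symm v)
        rw [Equiv.apply_symm_apply]⟩
      have e : (blockPerm Δ τ' * (blockPerm Δ τ)⁻¹) (blockPerm Δ τ u) = blockPerm Δ τ' u := by
        show blockPerm Δ τ' ((blockPerm Δ τ).symm (blockPerm Δ τ u)) = _
        rw [Equiv.symm_apply_apply]
      rw [e]
      by_cases hkΔ : k ∈ Δ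
      · have hki : k = i := by
          have h1 := Finset.mem_Icc.1 hkΔ
          by_contra hne
          exact hk (Finset.mem_Ioc.2 ⟨lt_of_le_of_ne h1.1 (Ne.symm hne), h1.2⟩)
        subst hki
        have := congrFun (congrFun h (splitE Δ u).2) (splitE Δ u).1
        simp only [Function.comp] at this
        rw [blockPerm_apply_mem Δ τ' u ⟨k, hkΔ⟩, blockPerm_apply_mem Δ τ u ⟨k, hkΔ⟩]
        exact this.symm
      · rw [blockPerm_mem Δ τ' u k hkΔ, blockPerm_mem Δ τ u k hkΔ]
    have := hb _ hmem (blockPerm Δ τ * σ)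
    rw [← this]
    congr 1
    group
  · intro τ τ' h
    set κ := kap i l hil.ne with hκ
    have hmem : κ * (blockPerm Δ τ' * (blockPerm Δ τ)⁻¹) * κ⁻¹ ∈ GG (Finset.Ico i l) := by
      intro v k hk
      obtain ⟨u, rfl⟩ : ∃ u, v = κ (blockPerm Δ τ u) := ⟨(blockPerm Δ τ)⁻¹ (κ⁻¹ v), by
        show v = κ (blockPerm Δ τ ((blockPerm Δ τ).symm (κ.symm v)))
        rw [Equiv.apply_symm_apply, Equiv.apply_symm_apply]⟩
      have e : (κ * (blockPerm Δ τ' * (blockPerm Δ τ)⁻¹) * κ⁻¹) (κ (blockPerm Δ τ u)) =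
          κ (blockPerm Δ τ' u) := by
        show κ (blockPerm Δ τ' ((blockPerm Δ τ).symm (κ.symm (κ (blockPerm Δ τ u))))) = _
        rw [Equiv.symm_apply_apply, Equiv.symm_apply_apply]
      rw [e]
      have kval : ∀ w : Fin d → Bool, κ w = if w i then Function.update w l (!w l) else w :=
        fun w => rfl
      have kl : ∀ w : Fin d → Bool, κ w l = xor (w l) (w i) := by
        intro w
        rw [kval]
        by_cases hw : w i = true
        · rw [if_pos hw, Function.update_self, hw]; simp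
        · rw [if_neg hw]
          have : w i = false := by simpa using hw
          rw [this]; simp
      have kk : ∀ (w : Fin d → Bool) (k : Fin d), k ≠ l → κ w k = w k := by
        intro w k hkl
        rw [kval]
        split_ifs
        · rw [Function.update_of_ne hkl]
        · rfl
      by_cases hkΔ : k ∈ Δ
      · have hkl : k = l := by
          have h1 := Finset.mem_Icc.1 hkΔ
          by_contra hne
          exact hk (Finset.mem_Ico.2 ⟨h1.1, lt_of_le_of_ne h1.2 hne⟩)
        subst hkl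
        have := congrFun (congrFun h (splitE Δ u).2) (splitE Δ u).1
        simp only at this
        rw [kl, kl, blockPerm_apply_mem Δ τ' u ⟨k, hkΔ⟩, blockPerm_apply_mem Δ τ u ⟨k, hkΔ⟩,
          blockPerm_apply_mem Δ τ' u ⟨i, hi⟩, blockPerm_apply_mem Δ τ u ⟨i, hi⟩]
        exact this.symm
      · have hkl : k ≠ l := fun h => hkΔ (h ▸ hl)
        rw [kk _ _ hkl, kk _ _ hkl, blockPerm_mem Δ τ' u k hkΔ, blockPerm_mem Δ τ u k hkΔ]
    have := hs' _ hmem (κ * (blockPerm Δ τ * σ))
    rw [← this]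
    congr 1
    group

end lift

end Vale.Agent.P162
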