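import Vale.Agent.Lib.P162.Rec
import Vale.Agent.Lib.P162.Group

/-!
# P162: one butterfly pass contracts the entropy (given the block inequalities)
-/

open Finset

namespace Vale.Agent.P162

/-- From a summable family of block inequalities to the entropy contraction of a pass. -/
theorem ent_pass_of_seq {c : ℕ → ℝ} (h0 : ∀ j, 0 < c j) (h1 : ∀ j, c j < 1)
    (hB : ∀ j, 1 ≤ j → BlockTF (2 ^ (j - 1)) (c j)) {δ : ℝ} (hδ0 : 0 < δ)
    (hδ : ∀ s : Finset ℕ, δ ≤ ∏ j ∈ s, (1 - c j)) :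
    ∃ δ : ℝ, 0 < δ ∧ δ ≤ 1 ∧ ∀ (d : ℕ) (f : Arr d → ℝ), (∀ σ, 0 ≤ f σ) → av f = 1 →
      Ent (pass d f) ≤ (1 - δ) * Ent f := by
  refine ⟨δ, hδ0, by simpa using hδ ∅, fun d f hf hf1 => ?_⟩
  refine ent_pass_of h0 h1 (fun i l hil => ?_) hδ f hf hf1
  intro s b s'' hs0 hb0 hs0' hs hb hs' σ
  have hj : 1 ≤ (l : ℕ) - i := by
    have : (i : ℕ) < l := hil
    omega
  exact tf_group hil (h1 _) (hB _ hj) s b s'' hs0 hb0 hs0' hs hb hs' σ

end Vale.Agent.P162
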