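import Vale.Agent.Lib.P162.Basic

/-! # Module HCMOD of P162: the two-function inequality for large blocks -/

open Finset

namespace Vale.Agent.P162

namespace Hyper

/-! ### pointwise inequalities -/

theorem pointwise {y δ : ℝ} (hy : 0 ≤ y) (h0 : 0 < δ) (h1 : δ ≤ 1) :
    δ ^ 2 * ((y - 1) ^ 2 / (1 + |y - 1|)) ≤ y ^ (1 + δ) - 1 - (1 + δ) * (y - 1) := by
  rcases hy.eq_or_lt with rfl | hy
  · rw [Real.zero_rpow (by linarith)]
    norm_num
    nlinarith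
  · set D := (1 - δ) * y + δ with hD
    have hD0 : 0 < D := by
      have : 0 ≤ (1 - δ) * y := mul_nonneg (by linarith) hy.le
      linarith
    have hD1 : D ≤ 1 + |y - 1| := by
      have h2 : (1 - δ) * (y - 1) ≤ |y - 1| := by
        rcases le_total 0 (y - 1) with h | h
        · rw [abs_of_nonneg h]; nlinarith
        · rw [abs_of_nonpos h]; nlinarith
      have : D = 1 + (1 - δ) * (y - 1) := by rw [hD]; ring
      linarith
    -- lower bound of `y ^ δ`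
    have hb : (1 + (1 / y - 1)) ^ δ ≤ 1 + δ * (1 / y - 1) := by
      apply rpow_one_add_le_one_add_mul_self _ h0.le h1
      have : 0 < 1 / y := by positivity
      linarith
    have hb' : (1 / y) ^ δ ≤ D / y := by
      have e1 : 1 + (1 / y - 1) = 1 / y := by ring
      have e2 : 1 + δ * (1 / y - 1) = D / y := by rw [hD]; field_simp; ring
      rwa [e1, e2] at hb
    have hyδ : 0 < y ^ δ := Real.rpow_pos_of_pos hy _
    have hlow : y / D ≤ y ^ δ := by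
      rw [one_div, Real.inv_rpow hy.le] at hb'
      rw [div_le_iff₀ hD0]
      have h3 : (y ^ δ)⁻¹ * (y ^ δ * y) ≤ D / y * (y ^ δ * y) :=
        mul_le_mul_of_nonneg_right hb' (by positivity)
      have e3 : (y ^ δ)⁻¹ * (y ^ δ * y) = y := by field_simp
      have e4 : D / y * (y ^ δ * y) = y ^ δ * D := by field_simp
      rw [e3, e4] at h3
      exact h3
    have hpow : y ^ (1 + δ) = y * y ^ δ := by
      rw [Real.rpow_add hy, Real.rpow_one]
    have h4 : y * (y / D) ≤ y ^ (1 + δ) := by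
      rw [hpow]
      exact mul_le_mul_of_nonneg_left hlow hy.le
    have e5 : y * (y / D) - 1 - (1 + δ) * (y - 1) = δ ^ 2 * ((y - 1) ^ 2 / D) := by
      field_simp
      rw [hD]
      ring
    have h6 : δ ^ 2 * ((y - 1) ^ 2 / (1 + |y - 1|)) ≤ δ ^ 2 * ((y - 1) ^ 2 / D) :=
      mul_le_mul_of_nonneg_left
        (div_le_div_of_nonneg_left (sq_nonneg _) hD0 hD1) (sq_nonneg _)
    linarith

/-- the truncated power -/
noncomputable def trunc (ε L t : ℝ) : ℝ := if t ≤ L then t ^ (1 - ε) else 0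

/-- the tail -/
noncomputable def tail (ε L t : ℝ) : ℝ := if t ≤ L then 0 else t ^ (1 - ε)

theorem trunc_add_tail (ε L t : ℝ) : trunc ε L t + tail ε L t = t ^ (1 - ε) := by
  unfold trunc tail
  split_ifs <;> simp

theorem trunc_nonneg {ε L t : ℝ} (ht : 0 ≤ t) : 0 ≤ trunc ε L t := by
  unfold trunc
  split_ifs
  · exact Real.rpow_nonneg ht _
  · exact le_rfl

theorem tail_nonneg {ε L t : ℝ} (ht : 0 ≤ t) : 0 ≤ tail ε L t := by
  unfold tail
  split_ifs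
  · exact le_rfl
  · exact Real.rpow_nonneg ht _

theorem trunc_le {ε L t : ℝ} (e0 : 0 ≤ ε) (e1 : ε ≤ 1) (hL : 1 ≤ L) (ht : 0 ≤ t) :
    trunc ε L t ≤ L := by
  unfold trunc
  split_ifs with h
  · calc t ^ (1 - ε) ≤ L ^ (1 - ε) := Real.rpow_le_rpow ht h (by linarith)
      _ ≤ L ^ (1 : ℝ) := Real.rpow_le_rpow_of_exponent_le hL (by linarith)
      _ = L := Real.rpow_one L
  · linarith

variable {Ω : Type*} [Fintype Ω]

theorem add_rpow_le {a b r : ℝ} (ha : 0 ≤ a) (hb : 0 ≤ b) (hr : 1 ≤ r) :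
    (a + b) ^ r ≤ 2 ^ (r - 1) * (a ^ r + b ^ r) := by
  have h := NNReal.rpow_add_le_mul_rpow_add_rpow ⟨a, ha⟩ ⟨b, hb⟩ hr
  exact_mod_cast h

/-- centring costs a factor two in `L^r` -/
theorem centre [Nonempty Ω] {r : ℝ} (hr : 1 ≤ r) (w : Ω → ℝ) :
    (av fun ω => |w ω - av w| ^ r) ^ (1 / r) ≤ 2 * (av fun ω => |w ω| ^ r) ^ (1 / r) := by
  have hr0 : 0 < r := by linarith
  set R := av fun ω => |w ω| ^ r with hR
  have hR0 : 0 ≤ R := av_nonneg fun ω => Real.rpow_nonneg (abs_nonneg _) _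
  have h1 : |av w| ^ r ≤ R := by
    calc |av w| ^ r ≤ (av fun ω => |w ω|) ^ r :=
          Real.rpow_le_rpow (abs_nonneg _) (abs_av_le w) hr0.le
      _ ≤ R := av_rpow_le hr fun ω => abs_nonneg _
  have h2 : (av fun ω => |w ω - av w| ^ r) ≤ 2 ^ r * R := by
    calc (av fun ω => |w ω - av w| ^ r)
        ≤ av fun ω => 2 ^ (r - 1) * (|w ω| ^ r + |av w| ^ r) := by
          apply av_mono
          intro ω
          calc |w ω - av w| ^ r ≤ (|w ω| + |av w|) ^ r :=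
                Real.rpow_le_rpow (abs_nonneg _) (abs_sub _ _) hr0.le
            _ ≤ _ := add_rpow_le (abs_nonneg _) (abs_nonneg _) hr
      _ = 2 ^ (r - 1) * (R + |av w| ^ r) := by
          rw [av_mul_left, av_add, av_const]
      _ ≤ 2 ^ (r - 1) * (R + R) :=
          mul_le_mul_of_nonneg_left (by linarith) (Real.rpow_nonneg (by norm_num) _)
      _ = 2 ^ r * R := by
          have : (2 : ℝ) ^ r = 2 ^ (r - 1) * 2 := by
            rw [← Real.rpow_add_one (by norm_num)]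
            congr 1
            ring
          rw [this]
          ring
  calc (av fun ω => |w ω - av w| ^ r) ^ (1 / r) ≤ (2 ^ r * R) ^ (1 / r) :=
        Real.rpow_le_rpow (av_nonneg fun ω => Real.rpow_nonneg (abs_nonneg _) _) h2
          (by positivity)
    _ = 2 * R ^ (1 / r) := by
        rw [Real.mul_rpow (by positivity) hR0, ← Real.rpow_mul (by norm_num)]
        have : r * (1 / r) = 1 := by field_simp
        rw [this, Real.rpow_one]

/-- the Hölder step -/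
theorem holder_step [Nonempty Ω] {τ L : ℝ} (t0 : 0 < τ) (t1 : τ < 1) (hL : 1 ≤ L) (w : Ω → ℝ)
    (hw : ∀ ω, |w ω| ≤ L) (hw1 : av (fun ω => 1 + |w ω|) ≤ 3) :
    (av fun ω => |w ω| ^ (1 + τ)) ^ (1 / (1 + τ)) ≤
      √(av fun ω => w ω ^ 2 / (1 + |w ω|)) * √(3 * (1 + L) ^ (2 * τ / (1 - τ))) := by
  set r := 1 + τ with hr
  have hr0 : 0 < r := by linarith
  have hr2 : r < 2 := by linarith
  have hpq : (2 / r).HolderConjugate (2 / (2 - r)) := by
    rw [Real.holderConjugate_iff]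
    constructor
    · rw [lt_div_iff₀ hr0]; linarith
    · have : (2 : ℝ) - r ≠ 0 := by linarith
      field_simp
      ring
  have hpos : ∀ ω, 0 < 1 + |w ω| := fun ω => by positivity
  set F : Ω → ℝ := fun ω => w ω ^ 2 / (1 + |w ω|) with hF
  have hF0 : ∀ ω, 0 ≤ F ω := fun ω => div_nonneg (sq_nonneg _) (hpos ω).le
  set Q := av F with hQ
  have hQ0 : 0 ≤ Q := av_nonneg hF0
  set B := 3 * (1 + L) ^ (2 * τ / (1 - τ)) with hB
  have hB1 : 1 ≤ B := by
    have : 1 ≤ (1 + L) ^ (2 * τ / (1 - τ)) :=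
      Real.one_le_rpow (by linarith) (div_nonneg (by linarith) (by linarith))
    linarith
  have key := av_holder hpq (f := fun ω => F ω ^ (r / 2)) (g := fun ω => (1 + |w ω|) ^ (r / 2))
    (fun ω => Real.rpow_nonneg (hF0 ω) _) (fun ω => Real.rpow_nonneg (hpos ω).le _)
  have e1 : ∀ ω, F ω ^ (r / 2) * (1 + |w ω|) ^ (r / 2) = |w ω| ^ r := by
    intro ω
    rw [← Real.mul_rpow (hF0 ω) (hpos ω).le]
    have : F ω * (1 + |w ω|) = |w ω| ^ (2 : ℝ) := by
      rw [hF, Real.rpow_two, sq_abs]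
      have := (hpos ω).ne'
      field_simp
    rw [this, ← Real.rpow_mul (abs_nonneg _)]
    congr 1
    ring
  have e2 : ∀ ω, (F ω ^ (r / 2)) ^ (2 / r) = F ω := by
    intro ω
    rw [← Real.rpow_mul (hF0 ω)]
    have : r / 2 * (2 / r) = 1 := by field_simp
    rw [this, Real.rpow_one]
  have e3 : ∀ ω, ((1 + |w ω|) ^ (r / 2)) ^ (2 / (2 - r)) = (1 + |w ω|) ^ (1 + 2 * τ / (1 - τ)) := by
    intro ω
    rw [← Real.rpow_mul (hpos ω).le]
    congr 1
    have h2r : (2 : ℝ) - r = 1 - τ := by rw [hr]; ring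
    have h1τ : (1 : ℝ) - τ ≠ 0 := by linarith
    rw [h2r, hr]
    field_simp
    ring
  simp only [e1, e2, e3] at key
  have hS : av (fun ω => (1 + |w ω|) ^ (1 + 2 * τ / (1 - τ))) ≤ B := by
    calc av (fun ω => (1 + |w ω|) ^ (1 + 2 * τ / (1 - τ)))
        ≤ av (fun ω => (1 + |w ω|) * (1 + L) ^ (2 * τ / (1 - τ))) := by
          apply av_mono
          intro ω
          rw [Real.rpow_add (hpos ω), Real.rpow_one]
          apply mul_le_mul_of_nonneg_left _ (hpos ω).le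
          exact Real.rpow_le_rpow (hpos ω).le (by linarith [hw ω])
            (div_nonneg (by linarith) (by linarith))
      _ = av (fun ω => 1 + |w ω|) * (1 + L) ^ (2 * τ / (1 - τ)) := by rw [av_mul_right]
      _ ≤ B := mul_le_mul_of_nonneg_right hw1 (Real.rpow_nonneg (by linarith) _)
  have hS0 : 0 ≤ av (fun ω => (1 + |w ω|) ^ (1 + 2 * τ / (1 - τ))) :=
    av_nonneg fun ω => Real.rpow_nonneg (hpos ω).le _
  have h5 : 1 / (2 / (2 - r)) = (2 - r) / 2 := by field_simp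
  have h6 : 1 / (2 / r) = r / 2 := by field_simp
  rw [h5, h6] at key
  calc (av fun ω => |w ω| ^ r) ^ (1 / r)
      ≤ (Q ^ (r / 2) * (av (fun ω => (1 + |w ω|) ^ (1 + 2 * τ / (1 - τ)))) ^ ((2 - r) / 2)) ^ (1 / r) :=
        Real.rpow_le_rpow (av_nonneg fun ω => Real.rpow_nonneg (abs_nonneg _) _) key (by positivity)
    _ ≤ (Q ^ (r / 2) * B ^ ((2 - r) / 2)) ^ (1 / r) := by
        apply Real.rpow_le_rpow (mul_nonneg (Real.rpow_nonneg hQ0 _) (Real.rpow_nonneg hS0 _)) _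
          (by positivity)
        exact mul_le_mul_of_nonneg_left (Real.rpow_le_rpow hS0 hS (by linarith))
          (Real.rpow_nonneg hQ0 _)
    _ = √Q * B ^ ((2 - r) / 2 * (1 / r)) := by
        rw [Real.mul_rpow (Real.rpow_nonneg hQ0 _) (Real.rpow_nonneg (by linarith) _),
          ← Real.rpow_mul hQ0, ← Real.rpow_mul (by linarith)]
        have : r / 2 * (1 / r) = 1 / 2 := by field_simp
        rw [this, Real.sqrt_eq_rpow]
    _ ≤ √Q * √B := by
        apply mul_le_mul_of_nonneg_left _ (Real.sqrt_nonneg _)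
        rw [Real.sqrt_eq_rpow]
        apply Real.rpow_le_rpow_of_exponent_le hB1
        rw [div_mul_div_comm, mul_one, div_le_div_iff₀ (by positivity) (by norm_num)]
        nlinarith

/-- everything that is needed about one of the two functions -/
theorem oneside [Nonempty Ω] {ε L : ℝ} (e0 : 0 < ε) (e1 : ε ≤ 1 / 2) (hL : 1 ≤ L) {f : Ω → ℝ}
    (hf : ∀ ω, 0 ≤ f ω) (h1 : av f = 1) :
    ∃ P G Q : ℝ, 0 ≤ P ∧ 0 ≤ G ∧ G ≤ 1 ∧ 0 ≤ Q ∧
      av (fun ω => trunc ε L (f ω)) = 1 - G ∧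
      av (fun ω => tail ε L (f ω)) ≤ L ^ (-ε) * P ∧
      av (fun ω => f ω ^ (1 - ε)) ≤ 1 ∧
      P ≤ 2 * G ∧ Q ≤ G / ε ^ 2 ∧
      (∀ τ : ℝ, 0 < τ → τ < 1 →
        (av fun ω => |trunc ε L (f ω) - (1 - G)| ^ (1 + τ)) ^ (1 / (1 + τ)) ≤
          2 * (√Q * √(3 * (1 + L) ^ (2 * τ / (1 - τ))))) ∧
      √(av fun ω => (trunc ε L (f ω) - (1 - G)) ^ 2) ≤ √((1 + L) * Q) := by
  set y : Ω → ℝ := fun ω => trunc ε L (f ω) with hy
  set w : Ω → ℝ := fun ω => y ω - 1 with hw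
  set δ := ε / (1 - ε) with hδ
  have hε1 : 0 < 1 - ε := by linarith
  have hδ0 : 0 < δ := div_pos e0 hε1
  have hδ1 : δ ≤ 1 := by rw [hδ, div_le_one hε1]; linarith
  have hδq : 1 + δ = 1 / (1 - ε) := by rw [hδ]; field_simp; ring
  have hy0 : ∀ ω, 0 ≤ y ω := fun ω => trunc_nonneg (hf ω)
  have hyL : ∀ ω, y ω ≤ L := fun ω => trunc_le e0.le (by linarith) hL (hf ω)
  -- the tail mass
  set P := av fun ω => if f ω ≤ L then 0 else f ω with hP
  have hP0 : 0 ≤ P := av_nonneg fun ω => by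
    split_ifs
    · exact le_rfl
    · exact hf ω
  -- `y ^ q`
  have hyq : av (fun ω => y ω ^ (1 + δ)) = 1 - P := by
    have : ∀ ω, y ω ^ (1 + δ) = f ω - if f ω ≤ L then 0 else f ω := by
      intro ω
      simp only [hy, trunc]
      split_ifs
      · rw [hδq, ← Real.rpow_mul (hf ω)]
        have : (1 - ε) * (1 / (1 - ε)) = 1 := by field_simp
        rw [this, Real.rpow_one, sub_zero]
      · rw [Real.zero_rpow (by linarith), sub_self]
    rw [av_congr this, av_sub, h1]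
  set Q := av fun ω => w ω ^ 2 / (1 + |w ω|) with hQ
  have hQ0 : 0 ≤ Q := av_nonneg fun ω => div_nonneg (sq_nonneg _) (by positivity)
  set G := 1 - av y with hG
  have hmain : δ ^ 2 * Q ≤ (1 + δ) * G - P := by
    have h2 : av (fun ω => δ ^ 2 * (w ω ^ 2 / (1 + |w ω|))) ≤
        av (fun ω => y ω ^ (1 + δ) - 1 - (1 + δ) * w ω) :=
      av_mono fun ω => pointwise (hy0 ω) hδ0 hδ1
    rw [av_mul_left, av_sub, av_sub, av_const, av_mul_left, hyq] at h2
    have h3 : av w = -G := by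
      rw [hw, av_sub, av_const, hG]; ring
    rw [h3] at h2
    linarith
  have hδQ : 0 ≤ δ ^ 2 * Q := by positivity
  have hG0 : 0 ≤ G := by
    have : 0 ≤ (1 + δ) * G := by linarith
    exact nonneg_of_mul_nonneg_right this (by linarith)
  have hG1 : G ≤ 1 := by
    have : 0 ≤ av y := av_nonneg hy0
    linarith
  have hPG : P ≤ 2 * G := by nlinarith
  have hQG : Q ≤ G / ε ^ 2 := by
    rw [le_div_iff₀ (by positivity)]
    have h4 : δ ^ 2 * Q ≤ (1 + δ) * G := by linarith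
    have e4 : δ ^ 2 = ε ^ 2 / (1 - ε) ^ 2 := by rw [hδ, div_pow]
    rw [e4, hδq] at h4
    have h5 : ε ^ 2 * Q ≤ (1 - ε) * G := by
      have h6 := mul_le_mul_of_nonneg_left h4 (sq_nonneg (1 - ε))
      have e6 : (1 - ε) ^ 2 * (ε ^ 2 / (1 - ε) ^ 2 * Q) = ε ^ 2 * Q := by field_simp
      have e7 : (1 - ε) ^ 2 * (1 / (1 - ε) * G) = (1 - ε) * G := by field_simp
      rwa [e6, e7] at h6
    nlinarith
  have hwL : ∀ ω, |w ω| ≤ L := by
    intro ω
    rw [abs_le]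
    constructor
    · have := hy0 ω
      simp only [hw]
      linarith
    · have := hyL ω
      simp only [hw]
      linarith
  have hw3 : av (fun ω => 1 + |w ω|) ≤ 3 := by
    calc av (fun ω => 1 + |w ω|) ≤ av (fun ω => 2 + y ω) := by
          apply av_mono
          intro ω
          have : |w ω| ≤ y ω + 1 := by
            rw [abs_le]
            have := hy0 ω
            simp only [hw]
            constructor <;> linarith
          linarith
      _ = 2 + av y := by rw [av_add, av_const]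
      _ ≤ 3 := by linarith
  have hcw : ∀ ω, y ω - (1 - G) = w ω - av w := by
    intro ω
    have : av w = -G := by rw [hw, av_sub, av_const, hG]; ring
    rw [this]
    simp only [hw]
    ring
  refine ⟨P, G, Q, hP0, hG0, hG1, hQ0, by rw [hG]; ring, ?_, ?_, hPG, hQG, ?_, ?_⟩
  · rw [hP, ← av_mul_left]
    apply av_mono
    intro ω
    simp only [tail]
    split_ifs with h
    · simp
    · have hfL : L < f ω := not_le.1 h
      have hf0 : 0 < f ω := by linarith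
      have : f ω ^ (1 - ε) = f ω * f ω ^ (-ε) := by
        rw [sub_eq_add_neg, Real.rpow_add hf0, Real.rpow_one]
      rw [this, mul_comm]
      apply mul_le_mul_of_nonneg_right _ hf0.le
      exact Real.rpow_le_rpow_of_nonpos (by linarith) hfL.le (by linarith)
  · calc av (fun ω => f ω ^ (1 - ε)) ≤ av (fun ω => 1 + (1 - ε) * (f ω - 1)) := by
          apply av_mono
          intro ω
          have := rpow_one_add_le_one_add_mul_self (s := f ω - 1) (by linarith [hf ω])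
            (p := 1 - ε) hε1.le (by linarith)
          rwa [add_sub_cancel] at this
      _ = 1 := by
          rw [av_add, av_const, av_mul_left, av_sub, av_const, h1]
          ring
  · intro τ t0 t1
    have h7 := centre (r := 1 + τ) (by linarith) w
    have h8 := holder_step t0 t1 hL w hwL hw3
    have h9 : (av fun ω => |y ω - (1 - G)| ^ (1 + τ)) = av fun ω => |w ω - av w| ^ (1 + τ) :=
      av_congr fun ω => by rw [hcw ω]
    calc (av fun ω => |y ω - (1 - G)| ^ (1 + τ)) ^ (1 / (1 + τ))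
        = (av fun ω => |w ω - av w| ^ (1 + τ)) ^ (1 / (1 + τ)) := by rw [h9]
      _ ≤ 2 * (av fun ω => |w ω| ^ (1 + τ)) ^ (1 / (1 + τ)) := h7
      _ ≤ _ := mul_le_mul_of_nonneg_left h8 (by norm_num)
  · have h9 : (av fun ω => (y ω - (1 - G)) ^ 2) = av fun ω => (w ω - av w) ^ 2 :=
      av_congr fun ω => by rw [hcw ω]
    apply Real.sqrt_le_sqrt
    refine le_trans (le_of_eq h9) ?_
    calc (av fun ω => (w ω - av w) ^ 2) = av (fun ω => w ω ^ 2) - (av w) ^ 2 := by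
          have : ∀ ω, (w ω - av w) ^ 2 = w ω ^ 2 - (2 * av w) * w ω + (av w) ^ 2 := by
            intro ω; ring
          rw [av_congr this, av_add, av_sub, av_mul_left, av_const]
          ring
      _ ≤ av (fun ω => w ω ^ 2) := by linarith [sq_nonneg (av w)]
      _ ≤ av (fun ω => (1 + L) * (w ω ^ 2 / (1 + |w ω|))) := by
          apply av_mono
          intro ω
          have hpos : 0 < 1 + |w ω| := by positivity
          have : w ω ^ 2 = (1 + |w ω|) * (w ω ^ 2 / (1 + |w ω|)) := by field_simp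
          conv_lhs => rw [this]
          exact mul_le_mul_of_nonneg_right (by linarith [hwL ω]) (by positivity)
      _ = (1 + L) * Q := by rw [av_mul_left]

theorem final_arith {G G' P P' c₁ Δ l cov T1 T2 : ℝ} (hG0 : 0 ≤ G) (hG1 : G ≤ 1) (hG0' : 0 ≤ G')
    (hG1' : G' ≤ 1) (hP : P ≤ 2 * G) (hP' : P' ≤ 2 * G') (hΔ : 0 ≤ Δ) (hl : 0 ≤ l)
    (hcov : cov ≤ c₁ * (G + G')) (h1 : T1 ≤ Δ * (l * P)) (h2 : T2 ≤ Δ * (l * P'))
    (hnum : c₁ + 2 * Δ * l ≤ 1 / 2) :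
    cov + ((1 - G') * (1 - G) + ((1 - G) * (1 - G') - (1 - G) * (1 - G'))) + (T1 + T2) ≤ 1 := by
  have h0 : 0 ≤ Δ * l := mul_nonneg hΔ hl
  have f1 : Δ * (l * P) + Δ * (l * P') ≤ 2 * Δ * l * (G + G') := by
    have a1 := mul_le_mul_of_nonneg_left hP h0
    have a2 := mul_le_mul_of_nonneg_left hP' h0
    linarith
  have f2 : (1 - G) * (1 - G') ≤ 1 - (G + G') / 2 := by
    have a1 := mul_nonneg hG0 (sub_nonneg.2 hG1')
    have a2 := mul_nonneg hG0' (sub_nonneg.2 hG1)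
    linarith
  have f3 : (c₁ + 2 * Δ * l) * (G + G') ≤ 1 / 2 * (G + G') :=
    mul_le_mul_of_nonneg_right hnum (by linarith)
  linarith

theorem sqrt_mul_sqrt_le {G G' Q Q' ε : ℝ} (hε : 0 < ε) (hQ0 : 0 ≤ Q) (hQ0' : 0 ≤ Q')
    (hQG : Q ≤ G / ε ^ 2) (hQG' : Q' ≤ G' / ε ^ 2) : √Q * √Q' ≤ (G + G') / (2 * ε ^ 2) := by
  have h3 : √Q * √Q' ≤ (Q + Q') / 2 := by
    nlinarith [sq_nonneg (√Q - √Q'), Real.sq_sqrt hQ0, Real.sq_sqrt hQ0']
  have h4 : (Q + Q') / 2 ≤ (G / ε ^ 2 + G' / ε ^ 2) / 2 := by linarith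
  have h5 : (G / ε ^ 2 + G' / ε ^ 2) / 2 = (G + G') / (2 * ε ^ 2) := by field_simp
  linarith

/-- the core inequality -/
theorem core [Nonempty Ω] {α β : Type*} (A : Ω → α) (B : Ω → β) {ε τ L a₁ a₂ Δ : ℝ}
    (e0 : 0 < ε) (e1 : ε ≤ 1 / 2) (t0 : 0 < τ) (t1 : τ < 1) (hL : 1 ≤ L) (ha₁ : 0 ≤ a₁)
    (ha₂ : 0 ≤ a₂) (hΔ : 0 ≤ Δ)
    (hbil : ∀ (u : α → ℝ) (w : β → ℝ), av (fun ω => u (A ω)) = 0 → av (fun ω => w (B ω)) = 0 →
      |av fun ω => u (A ω) * w (B ω)| ≤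
        a₁ * ((av fun ω => |u (A ω)| ^ (1 + τ)) ^ (1 / (1 + τ)) *
          (av fun ω => |w (B ω)| ^ (1 + τ)) ^ (1 / (1 + τ))) +
        a₂ * (√(av fun ω => u (A ω) ^ 2) * √(av fun ω => w (B ω) ^ 2)))
    (hjoint : ∀ (u : α → ℝ) (w : β → ℝ), (∀ x, 0 ≤ u x) → (∀ x, 0 ≤ w x) →
      av (fun ω => u (A ω) * w (B ω)) ≤ Δ * (av (fun ω => u (A ω)) * av (fun ω => w (B ω))))
    (hnum : (4 * a₁ * (3 * (1 + L) ^ (2 * τ / (1 - τ))) + a₂ * (1 + L)) / (2 * ε ^ 2) +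
      2 * Δ * L ^ (-ε) ≤ 1 / 2)
    (h : α → ℝ) (k : β → ℝ) (hh : ∀ x, 0 ≤ h x) (hk : ∀ x, 0 ≤ k x)
    (hh1 : av (fun ω => h (A ω)) = 1) (hk1 : av (fun ω => k (B ω)) = 1) :
    av (fun ω => h (A ω) ^ (1 - ε) * k (B ω) ^ (1 - ε)) ≤ 1 := by
  obtain ⟨P, G, Q, hP0, hG0, hG1, hQ0, ey, ez, ef, hPG, hQG, hr, h2⟩ :=
    oneside e0 e1 hL (f := fun ω => h (A ω)) (fun ω => hh _) hh1
  obtain ⟨P', G', Q', hP0', hG0', hG1', hQ0', ey', ez', ef', hPG', hQG', hr', h2'⟩ :=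
    oneside e0 e1 hL (f := fun ω => k (B ω)) (fun ω => hk _) hk1
  set S := √(3 * (1 + L) ^ (2 * τ / (1 - τ))) with hS
  have hS2 : S * S = 3 * (1 + L) ^ (2 * τ / (1 - τ)) :=
    Real.mul_self_sqrt (mul_nonneg (by norm_num) (Real.rpow_nonneg (by linarith) _))
  -- decomposition
  have hdec : ∀ ω, h (A ω) ^ (1 - ε) * k (B ω) ^ (1 - ε) =
      ((trunc ε L (h (A ω)) - (1 - G)) * (trunc ε L (k (B ω)) - (1 - G')) +
        ((1 - G') * trunc ε L (h (A ω)) + ((1 - G) * trunc ε L (k (B ω)) - (1 - G) * (1 - G')))) +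
      (tail ε L (h (A ω)) * k (B ω) ^ (1 - ε) + trunc ε L (h (A ω)) * tail ε L (k (B ω))) := by
    intro ω
    rw [← trunc_add_tail ε L (h (A ω)), ← trunc_add_tail ε L (k (B ω))]
    ring
  have hLε : 0 ≤ L ^ (-ε) := Real.rpow_nonneg (by linarith) _
  -- the covariance
  have hcov := hbil (fun x => trunc ε L (h x) - (1 - G)) (fun x => trunc ε L (k x) - (1 - G'))
    (by rw [av_sub, av_const, ey, sub_self]) (by rw [av_sub, av_const, ey', sub_self])
  have hcov2 : (av fun ω => (trunc ε L (h (A ω)) - (1 - G)) * (trunc ε L (k (B ω)) - (1 - G'))) ≤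
      (4 * a₁ * (3 * (1 + L) ^ (2 * τ / (1 - τ))) + a₂ * (1 + L)) * (√Q * √Q') := by
    refine (le_abs_self _).trans (hcov.trans ?_)
    have k1 : (av fun ω => |trunc ε L (h (A ω)) - (1 - G)| ^ (1 + τ)) ^ (1 / (1 + τ)) *
          (av fun ω => |trunc ε L (k (B ω)) - (1 - G')| ^ (1 + τ)) ^ (1 / (1 + τ)) ≤
        (2 * (√Q * S)) * (2 * (√Q' * S)) :=
      mul_le_mul (hr τ t0 t1) (hr' τ t0 t1)
        (Real.rpow_nonneg (av_nonneg fun ω => Real.rpow_nonneg (abs_nonneg _) _) _)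
        (by positivity)
    have k2 : √(av fun ω => (trunc ε L (h (A ω)) - (1 - G)) ^ 2) *
        √(av fun ω => (trunc ε L (k (B ω)) - (1 - G')) ^ 2) ≤ √((1 + L) * Q) * √((1 + L) * Q') :=
      mul_le_mul h2 h2' (Real.sqrt_nonneg _) (Real.sqrt_nonneg _)
    have k3 : √((1 + L) * Q) * √((1 + L) * Q') = (1 + L) * (√Q * √Q') := by
      rw [Real.sqrt_mul (by linarith), Real.sqrt_mul (by linarith)]
      have := Real.mul_self_sqrt (show 0 ≤ 1 + L by linarith)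
      linear_combination (√Q * √Q') * this
    have k4 : (2 * (√Q * S)) * (2 * (√Q' * S)) =
        4 * (3 * (1 + L) ^ (2 * τ / (1 - τ))) * (√Q * √Q') := by
      linear_combination (4 * √Q * √Q') * hS2
    have k5 := mul_le_mul_of_nonneg_left k1 ha₁
    have k6 := mul_le_mul_of_nonneg_left k2 ha₂
    rw [k4] at k5
    rw [k3] at k6
    calc _ ≤ a₁ * (4 * (3 * (1 + L) ^ (2 * τ / (1 - τ))) * (√Q * √Q')) +
        a₂ * ((1 + L) * (√Q * √Q')) := add_le_add k5 k6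
      _ = _ := by ring
  have hQQ : √Q * √Q' ≤ (G + G') / (2 * ε ^ 2) := sqrt_mul_sqrt_le e0 hQ0 hQ0' hQG hQG'
  set E₁ := 4 * a₁ * (3 * (1 + L) ^ (2 * τ / (1 - τ))) + a₂ * (1 + L) with hE₁
  have hE₁0 : 0 ≤ E₁ := by
    have h2L : 0 ≤ (1 + L) ^ (2 * τ / (1 - τ)) := Real.rpow_nonneg (by linarith) _
    have h1L : 0 ≤ 1 + L := by linarith
    exact add_nonneg (mul_nonneg (mul_nonneg (by norm_num) ha₁) (mul_nonneg (by norm_num) h2L))
      (mul_nonneg ha₂ h1L)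
  have hcov3 : (av fun ω => (trunc ε L (h (A ω)) - (1 - G)) * (trunc ε L (k (B ω)) - (1 - G'))) ≤
      E₁ / (2 * ε ^ 2) * (G + G') := by
    refine hcov2.trans ((mul_le_mul_of_nonneg_left hQQ hE₁0).trans (le_of_eq ?_))
    ring
  -- the tails
  have ht1 : av (fun ω => tail ε L (h (A ω)) * k (B ω) ^ (1 - ε)) ≤ Δ * (L ^ (-ε) * P) := by
    refine (hjoint (fun x => tail ε L (h x)) (fun x => k x ^ (1 - ε)) (fun x => tail_nonneg (hh x))
      (fun x => Real.rpow_nonneg (hk x) _)).trans (mul_le_mul_of_nonneg_left ?_ hΔ)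
    calc _ ≤ (L ^ (-ε) * P) * 1 := mul_le_mul ez ef'
          (av_nonneg fun ω => Real.rpow_nonneg (hk _) _) (mul_nonneg hLε hP0)
      _ = _ := mul_one _
  have ht2 : av (fun ω => trunc ε L (h (A ω)) * tail ε L (k (B ω))) ≤ Δ * (L ^ (-ε) * P') := by
    refine (hjoint (fun x => trunc ε L (h x)) (fun x => tail ε L (k x))
      (fun x => trunc_nonneg (hh x)) (fun x => tail_nonneg (hk x))).trans
      (mul_le_mul_of_nonneg_left ?_ hΔ)
    calc _ ≤ 1 * (L ^ (-ε) * P') := mul_le_mul (by rw [ey]; linarith) ez'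
          (av_nonneg fun ω => tail_nonneg (hk _)) (by norm_num)
      _ = _ := one_mul _
  -- conclusion
  rw [av_congr hdec, av_add, av_add, av_add, av_add, av_sub, av_mul_left, av_mul_left, av_const,
    ey, ey']
  exact final_arith hG0 hG1 hG0' hG1' hPG hPG' hΔ hLε hcov3 ht1 ht2 hnum

theorem eq_zero_of_av_eq_zero {f : Ω → ℝ} (hf : ∀ ω, 0 ≤ f ω) (h : av f = 0) (ω : Ω) :
    f ω = 0 := by
  have hne : (Fintype.card Ω : ℝ) ≠ 0 := by
    have : Nonempty Ω := ⟨ω⟩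
    exact_mod_cast Fintype.card_ne_zero
  rw [av, div_eq_zero_iff] at h
  rcases h with h | h
  · exact (Finset.sum_eq_zero_iff_of_nonneg fun i _ => hf i).1 h ω (Finset.mem_univ ω)
  · exact absurd h hne

/-- normalisation -/
theorem hc_of {M : ℕ} {ε τ L a₁ a₂ Δ : ℝ}
    (e0 : 0 < ε) (e1 : ε ≤ 1 / 2) (t0 : 0 < τ) (t1 : τ < 1) (hL : 1 ≤ L) (ha₁ : 0 ≤ a₁)
    (ha₂ : 0 ≤ a₂) (hΔ : 0 ≤ Δ)
    (hbil : ∀ p q : Fin (4 * M) → Bool, Cells M p q → ∀ u w : (Fin (4 * M) → Bool) → ℝ,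
      av (fun π : Equiv.Perm (Fin (4 * M)) => u (p ∘ π)) = 0 →
      av (fun π : Equiv.Perm (Fin (4 * M)) => w (q ∘ π)) = 0 →
      |av fun π : Equiv.Perm (Fin (4 * M)) => u (p ∘ π) * w (q ∘ π)| ≤
        a₁ * ((av fun π : Equiv.Perm (Fin (4 * M)) => |u (p ∘ π)| ^ (1 + τ)) ^ (1 / (1 + τ)) *
          (av fun π : Equiv.Perm (Fin (4 * M)) => |w (q ∘ π)| ^ (1 + τ)) ^ (1 / (1 + τ))) +
        a₂ * (√(av fun π : Equiv.Perm (Fin (4 * M)) => u (p ∘ π) ^ 2) *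
          √(av fun π : Equiv.Perm (Fin (4 * M)) => w (q ∘ π) ^ 2)))
    (hjoint : ∀ p q : Fin (4 * M) → Bool, Cells M p q → ∀ u w : (Fin (4 * M) → Bool) → ℝ,
      (∀ x, 0 ≤ u x) → (∀ x, 0 ≤ w x) →
      av (fun π : Equiv.Perm (Fin (4 * M)) => u (p ∘ π) * w (q ∘ π)) ≤
        Δ * (av (fun π : Equiv.Perm (Fin (4 * M)) => u (p ∘ π)) *
          av (fun π : Equiv.Perm (Fin (4 * M)) => w (q ∘ π))))
    (hnum : (4 * a₁ * (3 * (1 + L) ^ (2 * τ / (1 - τ))) + a₂ * (1 + L)) / (2 * ε ^ 2) +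
      2 * Δ * L ^ (-ε) ≤ 1 / 2) : HC M ε := by
  intro p q hpq u v hu hv
  have hε1 : 0 < 1 - ε := by linarith
  have hq0 : 0 < 1 / (1 - ε) := by positivity
  set U := av fun π : Equiv.Perm (Fin (4 * M)) => u (p ∘ π) ^ (1 / (1 - ε)) with hU
  set V := av fun π : Equiv.Perm (Fin (4 * M)) => v (q ∘ π) ^ (1 / (1 - ε)) with hV
  have hU0 : 0 ≤ U := av_nonneg fun π => Real.rpow_nonneg (hu _) _
  have hV0 : 0 ≤ V := av_nonneg fun π => Real.rpow_nonneg (hv _) _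
  have hR0 : 0 ≤ U ^ (1 - ε) * V ^ (1 - ε) :=
    mul_nonneg (Real.rpow_nonneg hU0 _) (Real.rpow_nonneg hV0 _)
  rcases hU0.eq_or_lt with h0 | hUpos
  · have : ∀ π : Equiv.Perm (Fin (4 * M)), u (p ∘ π) * v (q ∘ π) = 0 := by
      intro π
      have h1 := eq_zero_of_av_eq_zero
        (f := fun π : Equiv.Perm (Fin (4 * M)) => u (p ∘ π) ^ (1 / (1 - ε)))
        (fun π => Real.rpow_nonneg (hu _) _) h0.symm π
      rw [(Real.rpow_eq_zero (hu _) hq0.ne').1 h1, zero_mul]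
    rw [av_congr this, av_zero]
    exact hR0
  rcases hV0.eq_or_lt with h0 | hVpos
  · have : ∀ π : Equiv.Perm (Fin (4 * M)), u (p ∘ π) * v (q ∘ π) = 0 := by
      intro π
      have h1 := eq_zero_of_av_eq_zero
        (f := fun π : Equiv.Perm (Fin (4 * M)) => v (q ∘ π) ^ (1 / (1 - ε)))
        (fun π => Real.rpow_nonneg (hv _) _) h0.symm π
      rw [(Real.rpow_eq_zero (hv _) hq0.ne').1 h1, mul_zero]
    rw [av_congr this, av_zero]
    exact hR0
  have key := core (fun π : Equiv.Perm (Fin (4 * M)) => p ∘ π)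
    (fun π : Equiv.Perm (Fin (4 * M)) => q ∘ π) e0 e1 t0 t1 hL ha₁ ha₂ hΔ (hbil p q hpq)
    (hjoint p q hpq) hnum (fun x => u x ^ (1 / (1 - ε)) / U) (fun x => v x ^ (1 / (1 - ε)) / V)
    (fun x => div_nonneg (Real.rpow_nonneg (hu x) _) hU0)
    (fun x => div_nonneg (Real.rpow_nonneg (hv x) _) hV0)
    (by rw [av_div]; exact div_self hUpos.ne') (by rw [av_div]; exact div_self hVpos.ne')
  have hpw : ∀ t : ℝ, 0 ≤ t → ∀ T : ℝ, 0 < T →
      (t ^ (1 / (1 - ε)) / T) ^ (1 - ε) = t / T ^ (1 - ε) := by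
    intro t ht T hT
    rw [Real.div_rpow (Real.rpow_nonneg ht _) hT.le, ← Real.rpow_mul ht]
    have : 1 / (1 - ε) * (1 - ε) = 1 := by field_simp
    rw [this, Real.rpow_one]
  have hpt : ∀ π : Equiv.Perm (Fin (4 * M)),
      (u (p ∘ π) ^ (1 / (1 - ε)) / U) ^ (1 - ε) * (v (q ∘ π) ^ (1 / (1 - ε)) / V) ^ (1 - ε) =
      (u (p ∘ π) * v (q ∘ π)) / (U ^ (1 - ε) * V ^ (1 - ε)) := by
    intro π
    rw [hpw _ (hu _) _ hUpos, hpw _ (hv _) _ hVpos, div_mul_div_comm]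
  rw [av_congr hpt, av_div, div_le_one (mul_pos (Real.rpow_pos_of_pos hUpos _)
    (Real.rpow_pos_of_pos hVpos _))] at key
  exact key

/-! ### the asymptotics -/

theorem exists_J : ∃ J : ℕ, 3 ≤ J ∧ ∀ j : ℕ, J ≤ j → 384 * (j : ℝ) ^ 16 ≤ 2 ^ j := by
  have h := tendsto_pow_const_div_const_pow_of_one_lt 16 (by norm_num : (1 : ℝ) < 2)
  have h1 := h.eventually (gt_mem_nhds (show (0 : ℝ) < 1 / 384 by norm_num))
  obtain ⟨J, hJ⟩ := Filter.eventually_atTop.1 h1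
  refine ⟨max J 3, le_max_right _ _, fun j hj => ?_⟩
  have h2 := hJ j ((le_max_left _ _).trans hj)
  rw [div_lt_iff₀ (by positivity)] at h2
  linarith

theorem numeric {j : ℕ} (h3 : 3 ≤ j) (hj : 384 * (j : ℝ) ^ 16 ≤ 2 ^ j) :
    (((8 * j ^ 4 : ℕ) : ℝ) ≤ ((2 ^ (j - 1) : ℕ) : ℝ) * (1 / (j : ℝ) ^ 6) ^ 2) ∧
    (4 * (2 * ((4 * ((2 ^ (j - 1) : ℕ) : ℝ)) ^ (2 * (1 / (j : ℝ) ^ 6)) /
        ((4 * ((2 ^ (j - 1) : ℕ) : ℝ) - 1) * (1 / (j : ℝ) ^ 6) ^ 2))) *
      (3 * (1 + (2 : ℝ) ^ ((2 * j + 4) * j ^ 2)) ^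
        (2 * (1 / (j : ℝ) ^ 6) / (1 - 1 / (j : ℝ) ^ 6))) +
      (2 * (4 * ((2 ^ (j - 1) : ℕ) : ℝ) * (1 / (j : ℝ) ^ 6) ^ (2 * (8 * j ^ 4)))) *
        (1 + (2 : ℝ) ^ ((2 * j + 4) * j ^ 2))) / (2 * (1 / (j : ℝ) ^ 2) ^ 2) +
      2 * (4 * ((2 ^ (j - 1) : ℕ) : ℝ) ^ 2) *
        ((2 : ℝ) ^ ((2 * j + 4) * j ^ 2)) ^ (-(1 / (j : ℝ) ^ 2)) ≤ 1 / 2 := by
  have hj3 : (3 : ℝ) ≤ j := by exact_mod_cast h3
  have hj0 : (0 : ℝ) < j := by linarith
  set x : ℝ := (j : ℝ) with hx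
  have hM : ((2 ^ (j - 1) : ℕ) : ℝ) = 2 ^ j / 2 := by
    obtain ⟨i, rfl⟩ : ∃ i, j = i + 1 := ⟨j - 1, by omega⟩
    simp [pow_succ]
  rw [hM]
  set N : ℝ := 2 ^ j with hN
  have hN1 : 384 ≤ N := by
    have : 1 ≤ x ^ 16 := one_le_pow₀ (by linarith)
    linarith
  set τ : ℝ := 1 / x ^ 6 with hτ
  have hx6 : 729 ≤ x ^ 6 := by
    have := pow_le_pow_left₀ (by norm_num) hj3 6
    norm_num at this
    exact this
  have hτ0 : 0 < τ := by positivity
  have hτ2 : τ ≤ 1 / 2 := by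
    rw [hτ, div_le_div_iff₀ (by positivity) (by norm_num)]
    linarith
  set n₀ := (2 * j + 4) * j ^ 2 with hn₀
  set L : ℝ := 2 ^ n₀ with hL
  have hL1 : 1 ≤ L := one_le_pow₀ (by norm_num)
  refine ⟨?_, ?_⟩
  · push_cast
    rw [hτ, ← hx]
    have : N / 2 * (1 / x ^ 6) ^ 2 = N / 2 / x ^ 12 := by field_simp
    rw [this, le_div_iff₀ (by positivity)]
    have e : 8 * x ^ 4 * x ^ 12 = 8 * x ^ 16 := by ring
    rw [e]
    have : 0 ≤ x ^ 16 := by positivity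
    linarith
  -- first factor
  have q1 : (4 * (N / 2)) ^ (2 * τ) ≤ 2 := by
    have e1 : 4 * (N / 2) = (2 : ℝ) ^ (j + 1) := by rw [hN, pow_succ]; ring
    rw [e1, ← Real.rpow_natCast, ← Real.rpow_mul (by norm_num)]
    calc (2 : ℝ) ^ (((j + 1 : ℕ) : ℝ) * (2 * τ)) ≤ 2 ^ (1 : ℝ) := by
          apply Real.rpow_le_rpow_of_exponent_le (by norm_num)
          push_cast
          rw [hτ, ← hx]
          have : (x + 1) * (2 * (1 / x ^ 6)) = (2 * x + 2) / x ^ 6 := by ring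
          rw [this, div_le_one (by positivity)]
          have : x ^ 6 = x * x ^ 5 := by ring
          have h5 : 243 ≤ x ^ 5 := by
            have := pow_le_pow_left₀ (by norm_num) hj3 5
            norm_num at this
            exact this
          nlinarith
      _ = 2 := Real.rpow_one 2
  have q2 : (1 + L) ^ (2 * τ / (1 - τ)) ≤ 2 := by
    have e1 : 1 + L ≤ (2 : ℝ) ^ (n₀ + 1) := by rw [pow_succ]; linarith
    calc (1 + L) ^ (2 * τ / (1 - τ)) ≤ ((2 : ℝ) ^ (n₀ + 1)) ^ (2 * τ / (1 - τ)) :=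
          Real.rpow_le_rpow (by linarith) e1 (div_nonneg (by linarith) (by linarith))
      _ = 2 ^ (((n₀ + 1 : ℕ) : ℝ) * (2 * τ / (1 - τ))) := by
          rw [← Real.rpow_natCast, ← Real.rpow_mul (by norm_num)]
      _ ≤ 2 ^ (1 : ℝ) := by
          apply Real.rpow_le_rpow_of_exponent_le (by norm_num)
          have e2 : 2 * τ / (1 - τ) ≤ 4 * τ := by
            rw [div_le_iff₀ (by linarith)]
            nlinarith
          have e3 : ((n₀ + 1 : ℕ) : ℝ) = (2 * x + 4) * x ^ 2 + 1 := by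
            rw [hn₀]; push_cast; rfl
          rw [e3]
          have e4 : 0 ≤ (2 * x + 4) * x ^ 2 + 1 := by positivity
          refine (mul_le_mul_of_nonneg_left e2 e4).trans ?_
          rw [hτ]
          have : ((2 * x + 4) * x ^ 2 + 1) * (4 * (1 / x ^ 6)) =
              (8 * x ^ 3 + 16 * x ^ 2 + 4) / x ^ 6 := by field_simp; ring
          rw [this, div_le_one (by positivity)]
          have h3' : 27 ≤ x ^ 3 := by
            have := pow_le_pow_left₀ (by norm_num) hj3 3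
            norm_num at this
            exact this
          have h6 : x ^ 6 = x ^ 3 * x ^ 3 := by ring
          have h32 : 3 * x ^ 2 ≤ x ^ 3 := by
            have : x ^ 3 = x * x ^ 2 := by ring
            rw [this]
            exact mul_le_mul_of_nonneg_right hj3 (by positivity)
          nlinarith
      _ = 2 := Real.rpow_one 2
  have hq1 : 0 ≤ (4 * (N / 2)) ^ (2 * τ) := Real.rpow_nonneg (by linarith) _
  have hq2 : 0 ≤ (1 + L) ^ (2 * τ / (1 - τ)) := Real.rpow_nonneg (by linarith) _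
  -- first term
  have p1 : 4 * (2 * ((4 * (N / 2)) ^ (2 * τ) / ((4 * (N / 2) - 1) * τ ^ 2))) *
      (3 * (1 + L) ^ (2 * τ / (1 - τ))) / (2 * (1 / x ^ 2) ^ 2) ≤ 1 / 8 := by
    have e1 : (4 * (N / 2)) ^ (2 * τ) / ((4 * (N / 2) - 1) * τ ^ 2) ≤ 2 * x ^ 12 / N := by
      rw [div_le_div_iff₀ (mul_pos (by linarith) (by positivity)) (by linarith)]
      have e2 : (4 * (N / 2)) ^ (2 * τ) * N ≤ 2 * N := mul_le_mul_of_nonneg_right q1 (by linarith)
      have e3 : 2 * x ^ 12 * ((4 * (N / 2) - 1) * τ ^ 2) = 2 * (2 * N - 1) := by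
        rw [hτ]; field_simp; ring
      rw [e3]
      linarith
    have e4 : 4 * (2 * ((4 * (N / 2)) ^ (2 * τ) / ((4 * (N / 2) - 1) * τ ^ 2))) *
        (3 * (1 + L) ^ (2 * τ / (1 - τ))) ≤ 4 * (2 * (2 * x ^ 12 / N)) * (3 * 2) := by
      have : 0 ≤ 2 * x ^ 12 / N := by positivity
      apply mul_le_mul _ (by linarith) (by linarith) (by linarith)
      linarith
    have e5 : 4 * (2 * (2 * x ^ 12 / N)) * (3 * 2) / (2 * (1 / x ^ 2) ^ 2) = 48 * x ^ 16 / N := by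
      field_simp
      ring
    calc _ ≤ 4 * (2 * (2 * x ^ 12 / N)) * (3 * 2) / (2 * (1 / x ^ 2) ^ 2) :=
          div_le_div_of_nonneg_right e4 (by positivity)
      _ = 48 * x ^ 16 / N := e5
      _ ≤ 1 / 8 := by
          rw [div_le_div_iff₀ (by linarith) (by norm_num)]
          linarith
  -- second term
  have p2 : (2 * (4 * (N / 2) * τ ^ (2 * (8 * j ^ 4)))) * (1 + L) / (2 * (1 / x ^ 2) ^ 2) ≤
      1 / 4 := by
    have e1 : τ ^ (2 * (8 * j ^ 4)) ≤ (1 / 2) ^ (2 * (8 * j ^ 4)) :=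
      pow_le_pow_left₀ hτ0.le hτ2 _
    have e2 : x ^ 4 ≤ (2 : ℝ) ^ (4 * j) := by
      rw [mul_comm 4 j, pow_mul]
      apply pow_le_pow_left₀ hj0.le
      rw [hx]
      exact_mod_cast (Nat.lt_pow_self (by norm_num : 1 < 2)).le
    have e3 : 1 + L ≤ (2 : ℝ) ^ (n₀ + 1) := by rw [pow_succ]; linarith
    have e4 : (2 * (4 * (N / 2) * τ ^ (2 * (8 * j ^ 4)))) * (1 + L) / (2 * (1 / x ^ 2) ^ 2) =
        2 * (N * τ ^ (2 * (8 * j ^ 4)) * (1 + L) * x ^ 4) := by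
      field_simp
      ring
    rw [e4]
    have e5 : N * τ ^ (2 * (8 * j ^ 4)) * (1 + L) * x ^ 4 ≤
        (2 : ℝ) ^ j * (1 / 2) ^ (2 * (8 * j ^ 4)) * (2 : ℝ) ^ (n₀ + 1) * (2 : ℝ) ^ (4 * j) := by
      rw [← hN]
      gcongr
    have e6 : (2 : ℝ) ^ j * (1 / 2) ^ (2 * (8 * j ^ 4)) * (2 : ℝ) ^ (n₀ + 1) * (2 : ℝ) ^ (4 * j) =
        (2 : ℝ) ^ (j + (n₀ + 1) + 4 * j) / 2 ^ (2 * (8 * j ^ 4)) := by
      rw [one_div, inv_pow]
      field_simp
      ring
    have e7 : (2 : ℝ) ^ (j + (n₀ + 1) + 4 * j) / 2 ^ (2 * (8 * j ^ 4)) ≤ 1 / 8 := by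
      rw [div_le_div_iff₀ (by positivity) (by norm_num)]
      have : (8 : ℝ) = 2 ^ 3 := by norm_num
      rw [this, ← pow_add, one_mul]
      apply pow_le_pow_right₀ (by norm_num)
      have h1 : 3 ≤ j := h3
      have h2 : j ≤ j ^ 4 := Nat.le_self_pow (by norm_num) j
      have h4 : j ^ 2 ≤ j ^ 4 := Nat.pow_le_pow_right (by omega) (by norm_num)
      have h5 : j ^ 3 ≤ j ^ 4 := Nat.pow_le_pow_right (by omega) (by norm_num)
      have h6 : n₀ = 2 * j ^ 3 + 4 * j ^ 2 := by rw [hn₀]; ring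
      omega
    rw [e6] at e5
    linarith
  -- third term
  have p3 : 2 * (4 * (N / 2) ^ 2) * L ^ (-(1 / x ^ 2)) = 1 / 8 := by
    have e1 : L ^ (-(1 / x ^ 2)) = ((2 : ℝ) ^ (2 * j + 4))⁻¹ := by
      have h1 : L = ((2 : ℝ) ^ (2 * j + 4)) ^ ((j ^ 2 : ℕ) : ℝ) := by
        rw [Real.rpow_natCast, ← pow_mul]
      rw [h1, ← Real.rpow_mul (by positivity)]
      have h2 : ((j ^ 2 : ℕ) : ℝ) * -(1 / x ^ 2) = -1 := by
        push_cast
        rw [← hx]
        field_simp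
      rw [h2, Real.rpow_neg_one]
    have e2 : (2 : ℝ) ^ (2 * j + 4) = N ^ 2 * 16 := by
      rw [pow_add, mul_comm 2 j, pow_mul, ← hN]
      norm_num
    rw [e1, e2]
    have : N ≠ 0 := by linarith
    field_simp
    ring
  rw [add_div]
  linarith

end Hyper

open Hyper in
/-- Module HCMOD, the statements of `bilinear` and `joint_le` being hypotheses. -/
theorem hc_large_of
    (bilinear : ∀ {M : ℕ} (_ : 1 ≤ M) {p q : Fin (4 * M) → Bool} (_ : Cells M p q)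
      {τ : ℝ} (_ : 0 < τ) (_ : τ ≤ 1) {j₀ : ℕ} (_ : (j₀ : ℝ) ≤ M * τ ^ 2)
      (u w : (Fin (4 * M) → Bool) → ℝ)
      (_ : av (fun π : Equiv.Perm (Fin (4 * M)) => u (p ∘ π)) = 0)
      (_ : av (fun π : Equiv.Perm (Fin (4 * M)) => w (q ∘ π)) = 0),
      |av (fun π : Equiv.Perm (Fin (4 * M)) => u (p ∘ π) * w (q ∘ π))| ≤
        2 * (((4 * M : ℝ) ^ (2 * τ) / ((4 * M - 1) * τ ^ 2)) *
          ((av fun π : Equiv.Perm (Fin (4 * M)) => |u (p ∘ π)| ^ (1 + τ)) ^ (1 / (1 + τ)) *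
           (av fun π : Equiv.Perm (Fin (4 * M)) => |w (q ∘ π)| ^ (1 + τ)) ^ (1 / (1 + τ))) +
          4 * M * τ ^ (2 * j₀) *
          (√(av fun π : Equiv.Perm (Fin (4 * M)) => u (p ∘ π) ^ 2) *
           √(av fun π : Equiv.Perm (Fin (4 * M)) => w (q ∘ π) ^ 2))))
    (joint_le : ∀ {M : ℕ} (_ : 1 ≤ M) {p q : Fin (4 * M) → Bool} (_ : Cells M p q)
      {u v : (Fin (4 * M) → Bool) → ℝ} (_ : ∀ x, 0 ≤ u x) (_ : ∀ x, 0 ≤ v x),
      av (fun π : Equiv.Perm (Fin (4 * M)) => u (p ∘ π) * v (q ∘ π)) ≤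
        4 * (M : ℝ) ^ 2 * ((av fun π : Equiv.Perm (Fin (4 * M)) => u (p ∘ π)) *
          (av fun π : Equiv.Perm (Fin (4 * M)) => v (q ∘ π)))) :
    ∃ J : ℕ, 3 ≤ J ∧ ∀ j : ℕ, J ≤ j → HC (2 ^ (j - 1)) (1 / (j : ℝ) ^ 2) := by
  obtain ⟨J, hJ3, hJ⟩ := exists_J
  refine ⟨J, hJ3, fun j hj => ?_⟩
  have h3 : 3 ≤ j := hJ3.trans hj
  obtain ⟨n1, n2⟩ := numeric h3 (hJ j hj)
  have hj3 : (3 : ℝ) ≤ j := by exact_mod_cast h3
  have hx6 : 729 ≤ (j : ℝ) ^ 6 := by
    have := pow_le_pow_left₀ (by norm_num) hj3 6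
    norm_num at this
    exact this
  have hx2 : 9 ≤ (j : ℝ) ^ 2 := by
    have := pow_le_pow_left₀ (by norm_num) hj3 2
    norm_num at this
    exact this
  have hM1 : 1 ≤ 2 ^ (j - 1) := Nat.one_le_pow _ _ (by norm_num)
  have hM1' : (1 : ℝ) ≤ ((2 ^ (j - 1) : ℕ) : ℝ) := by exact_mod_cast hM1
  have hτ1 : 1 / (j : ℝ) ^ 6 < 1 := by
    rw [div_lt_one (by positivity)]; linarith
  refine hc_of (by positivity) ?_ (by positivity) hτ1 (one_le_pow₀ (by norm_num)) ?_ ?_ ?_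
    (fun p q hpq u w hu hw => ?_) (fun p q hpq u w hu hw => joint_le hM1 hpq hu hw) n2
  · rw [div_le_div_iff₀ (by positivity) (by norm_num)]; linarith
  · have h1 : 0 < 4 * ((2 ^ (j - 1) : ℕ) : ℝ) - 1 := by linarith
    have h2 : 0 ≤ (4 * ((2 ^ (j - 1) : ℕ) : ℝ)) ^ (2 * (1 / (j : ℝ) ^ 6)) :=
      Real.rpow_nonneg (by linarith) _
    positivity
  · positivity
  · positivity
  · refine (bilinear hM1 hpq (by positivity) hτ1.le n1 u w hu hw).trans (le_of_eq ?_)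
    ring

end Vale.Agent.P162
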