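import Vale.Agent.Lib.P162.Basic

/-!
# P162, module TFMOD: the three-function inequality for one block

From the two-function inequality `HC` (large blocks) and from the spectral gap (small blocks).
-/

open Finset

namespace Vale.Agent.P162

/-! ## Partial products -/

theorem one_sub_sum_le_prod {c : ℕ → ℝ} (h0 : ∀ j, 0 < c j) (h1 : ∀ j, c j < 1) (s : Finset ℕ) :
    1 - ∑ j ∈ s, c j ≤ ∏ j ∈ s, (1 - c j) := by
  classical
  induction s using Finset.induction_on with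
  | empty => simp
  | insert a s ha ih =>
    rw [Finset.sum_insert ha, Finset.prod_insert ha]
    have hp : 0 ≤ ∏ j ∈ s, (1 - c j) :=
      Finset.prod_nonneg fun j _ => by linarith [h1 j]
    have hp1 : ∏ j ∈ s, (1 - c j) ≤ 1 :=
      Finset.prod_le_one (fun j _ => by linarith [h1 j]) (fun j _ => by linarith [h0 j])
    nlinarith [h0 a, h1 a]

/-- there is a uniform positive lower bound of the partial products -/
theorem prod_lower {c : ℕ → ℝ} (h0 : ∀ j, 0 < c j) (h1 : ∀ j, c j < 1) (h : Summable c) :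
    ∃ δ : ℝ, 0 < δ ∧ ∀ s : Finset ℕ, δ ≤ ∏ j ∈ s, (1 - c j) := by
  classical
  rw [summable_iff_vanishing_norm] at h
  obtain ⟨s0, hs0⟩ := h (1 / 2) (by norm_num)
  have hP : 0 < ∏ j ∈ s0, (1 - c j) := Finset.prod_pos fun j _ => by linarith [h1 j]
  refine ⟨(∏ j ∈ s0, (1 - c j)) * (1 / 2), by positivity, fun s => ?_⟩
  rw [← Finset.prod_inter_mul_prod_sdiff (s := s) (t := s0)]
  have e1 : ∏ j ∈ s0, (1 - c j) ≤ ∏ j ∈ s ∩ s0, (1 - c j) := by
    rw [← Finset.prod_sdiff (Finset.inter_subset_right : s ∩ s0 ⊆ s0)]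
    have q1 : ∏ j ∈ s0 \ (s ∩ s0), (1 - c j) ≤ 1 :=
      Finset.prod_le_one (fun j _ => by linarith [h1 j]) (fun j _ => by linarith [h0 j])
    have q2 : 0 ≤ ∏ j ∈ s ∩ s0, (1 - c j) :=
      Finset.prod_nonneg fun j _ => by linarith [h1 j]
    nlinarith
  have e2 : (1 : ℝ) / 2 ≤ ∏ j ∈ s \ s0, (1 - c j) := by
    have q1 := one_sub_sum_le_prod h0 h1 (s \ s0)
    have q2 := hs0 (s \ s0) Finset.sdiff_disjoint
    have q3 : ∑ j ∈ s \ s0, c j ≤ ‖∑ j ∈ s \ s0, c j‖ := Real.le_norm_self _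
    linarith
  exact mul_le_mul e1 e2 (by norm_num) (hP.le.trans e1)

/-! ## Hölder with three functions -/

theorem av_holder3 {Ω : Type*} [Fintype Ω] {a b c : ℝ} (ha : 0 < a) (hb : 0 < b) (hc : 0 < c)
    (hsum : a + b + c = 1) {F G H : Ω → ℝ} (hF : ∀ ω, 0 ≤ F ω) (hG : ∀ ω, 0 ≤ G ω)
    (hH : ∀ ω, 0 ≤ H ω) :
    av (fun ω => F ω ^ a * G ω ^ b * H ω ^ c) ≤ (av F) ^ a * (av G) ^ b * (av H) ^ c := by
  have zero_case : ∀ K : Ω → ℝ, (∀ ω, 0 ≤ K ω) → av K = 0 → ∀ ω, K ω = 0 := by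
    intro K hK h ω
    unfold av at h
    have hcard : (Fintype.card Ω : ℝ) ≠ 0 := by
      have : Nonempty Ω := ⟨ω⟩
      exact_mod_cast Fintype.card_ne_zero
    rw [div_eq_zero_iff] at h
    rcases h with h | h
    · exact (Finset.sum_eq_zero_iff_of_nonneg (fun i _ => hK i)).1 h ω (Finset.mem_univ _)
    · exact absurd h hcard
  have hF0 := av_nonneg hF
  have hG0 := av_nonneg hG
  have hH0 := av_nonneg hH
  rcases eq_or_lt_of_le hF0 with hF1 | hF1
  · have : av (fun ω => F ω ^ a * G ω ^ b * H ω ^ c) = 0 := by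
      rw [← av_zero (Ω := Ω)]
      apply av_congr
      intro ω
      rw [zero_case F hF hF1.symm ω, Real.zero_rpow ha.ne']
      ring
    rw [this]; positivity
  rcases eq_or_lt_of_le hG0 with hG1 | hG1
  · have : av (fun ω => F ω ^ a * G ω ^ b * H ω ^ c) = 0 := by
      rw [← av_zero (Ω := Ω)]
      apply av_congr
      intro ω
      rw [zero_case G hG hG1.symm ω, Real.zero_rpow hb.ne']
      ring
    rw [this]; positivity
  rcases eq_or_lt_of_le hH0 with hH1 | hH1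
  · have : av (fun ω => F ω ^ a * G ω ^ b * H ω ^ c) = 0 := by
      rw [← av_zero (Ω := Ω)]
      apply av_congr
      intro ω
      rw [zero_case H hH hH1.symm ω, Real.zero_rpow hc.ne']
      ring
    rw [this]; positivity
  -- main case
  have key : ∀ ω, F ω ^ a * G ω ^ b * H ω ^ c ≤
      ((av F) ^ a * (av G) ^ b * (av H) ^ c) *
        (a * (F ω / av F) + b * (G ω / av G) + c * (H ω / av H)) := by
    intro ω
    have h := Real.geom_mean_le_arith_mean3_weighted ha.le hb.le hc.le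
      (div_nonneg (hF ω) hF1.le) (div_nonneg (hG ω) hG1.le) (div_nonneg (hH ω) hH1.le) hsum
    rw [Real.div_rpow (hF ω) hF1.le, Real.div_rpow (hG ω) hG1.le, Real.div_rpow (hH ω) hH1.le] at h
    have p1 : 0 < (av F) ^ a := Real.rpow_pos_of_pos hF1 _
    have p2 : 0 < (av G) ^ b := Real.rpow_pos_of_pos hG1 _
    have p3 : 0 < (av H) ^ c := Real.rpow_pos_of_pos hH1 _
    have h2 := mul_le_mul_of_nonneg_left h (show 0 ≤ (av F) ^ a * (av G) ^ b * (av H) ^ c by
      positivity)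
    refine le_trans (le_of_eq ?_) h2
    field_simp
  refine (av_mono key).trans (le_of_eq ?_)
  rw [av_mul_left]
  have hΩ : Nonempty Ω := by
    by_contra hne
    rw [not_nonempty_iff] at hne
    have : av F = 0 := by simp [av]
    linarith
  have e : av (fun ω => a * (F ω / av F) + b * (G ω / av G) + c * (H ω / av H)) = 1 := by
    rw [av_add, av_add, av_mul_left, av_mul_left, av_mul_left, av_div, av_div, av_div,
      div_self hF1.ne', div_self hG1.ne', div_self hH1.ne']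
    linarith
  rw [e, mul_one]

/-! ## Cells -/

theorem cells_swap' {M : ℕ} {W : Type*} [Fintype W] {p q : W → Bool} (h : Cells M p q) :
    Cells M q p := by
  intro a b
  rw [← h b a]
  congr 1
  ext i
  simp [and_comm]

theorem cells_xor_left' {M : ℕ} {W : Type*} [Fintype W] {p q : W → Bool} (h : Cells M p q) :
    Cells M (fun i => xor (p i) (q i)) q := by
  intro a b
  rw [← h (xor a b) b]
  congr 1
  ext i
  simp only [Finset.mem_filter, Finset.mem_univ, true_and]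
  constructor
  · rintro ⟨h1, h2⟩
    refine ⟨?_, h2⟩
    rw [← h1, ← h2]
    cases p i <;> cases q i <;> rfl
  · rintro ⟨h1, h2⟩
    refine ⟨?_, h2⟩
    rw [h1, h2]
    cases a <;> cases b <;> rfl

theorem cells_xor_right' {M : ℕ} {W : Type*} [Fintype W] {p q : W → Bool} (h : Cells M p q) :
    Cells M p (fun i => xor (p i) (q i)) := by
  intro a b
  rw [← h a (xor a b)]
  congr 1
  ext i
  simp only [Finset.mem_filter, Finset.mem_univ, true_and]
  constructor
  · rintro ⟨h1, h2⟩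
    refine ⟨h1, ?_⟩
    rw [← h1, ← h2]
    cases p i <;> cases q i <;> rfl
  · rintro ⟨h1, h2⟩
    refine ⟨h1, ?_⟩
    rw [h1, h2]
    cases a <;> cases b <;> rfl

theorem factor_ex {Ω α : Type*} (A : Ω → α) (s : Ω → ℝ) (hs0 : ∀ ω, 0 ≤ s ω)
    (hs : ∀ x y, A x = A y → s x = s y) :
    ∃ S : α → ℝ, (∀ x, 0 ≤ S x) ∧ ∀ ω, s ω = S (A ω) := by
  refine ⟨Function.extend A s (fun _ => 0), ?_, ?_⟩
  · intro x
    by_cases hx : ∃ ω, A ω = x
    · obtain ⟨ω, rfl⟩ := hx
      rw [Function.FactorsThrough.extend_apply (fun x y h => hs x y h)]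
      exact hs0 ω
    · rw [Function.extend_apply' _ _ _ hx]
  · intro ω
    rw [Function.FactorsThrough.extend_apply (fun x y h => hs x y h)]

/-! ## Three functions from two functions -/

theorem tf_of_hc {M : ℕ} {ε : ℝ} (h0 : 0 < ε) (h1 : ε < 1 / 2) (h : HC M ε) :
    BlockTF M (2 * ε) := by
  intro p q hpq s b s' hs0 hb0 hs0' hs hb hs'
  obtain ⟨S, hS0, hS⟩ := factor_ex _ s hs0 hs
  obtain ⟨B, hB0, hB⟩ := factor_ex _ b hb0 hb
  obtain ⟨S', hS0', hS'⟩ := factor_ex (fun (π : Equiv.Perm (Fin (4 * M))) i =>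
    xor (p (π i)) (q (π i))) s' hs0' hs'
  have hε1 : 0 < 1 - ε := by linarith
  have hε2 : 0 < 1 - 2 * ε := by linarith
  set lam : ℝ := (1 - 2 * ε) / (1 - ε) with hlam
  have hlam0 : 0 < lam := by positivity
  have hlam1 : lam < 1 := by
    rw [hlam, div_lt_one hε1]; linarith
  -- the three two-function inequalities
  have k1 := h p q hpq (fun x => S x ^ (2 * (1 - ε))) (fun x => B x ^ (1 / lam))
    (fun x => Real.rpow_nonneg (hS0 x) _) (fun x => Real.rpow_nonneg (hB0 x) _)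
  have k2 := h (fun i => xor (p i) (q i)) q (cells_xor_left' hpq)
    (fun x => S' x ^ (2 * (1 - ε))) (fun x => B x ^ (1 / lam))
    (fun x => Real.rpow_nonneg (hS0' x) _) (fun x => Real.rpow_nonneg (hB0 x) _)
  have k3 := h p (fun i => xor (p i) (q i)) (cells_xor_right' hpq)
    (fun x => S x ^ (2 * (1 - ε))) (fun x => S' x ^ (2 * (1 - ε)))
    (fun x => Real.rpow_nonneg (hS0 x) _) (fun x => Real.rpow_nonneg (hS0' x) _)
  have pow1 : ∀ y : ℝ, 0 ≤ y → (y ^ (2 * (1 - ε))) ^ (1 / (1 - ε)) = y ^ 2 := by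
    intro y hy
    rw [← Real.rpow_mul hy]
    have : 2 * (1 - ε) * (1 / (1 - ε)) = ((2 : ℕ) : ℝ) := by
      push_cast
      field_simp
    rw [this, Real.rpow_natCast]
  have pow2 : ∀ y : ℝ, 0 ≤ y → (y ^ (1 / lam)) ^ (1 / (1 - ε)) = y ^ (1 / (1 - 2 * ε)) := by
    intro y hy
    rw [← Real.rpow_mul hy]
    congr 1
    rw [hlam]
    field_simp
  set X : ℝ := av fun π : Equiv.Perm (Fin (4 * M)) => s π ^ 2 with hX
  set Y : ℝ := av fun π : Equiv.Perm (Fin (4 * M)) => s' π ^ 2 with hY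
  set Z : ℝ := av fun π : Equiv.Perm (Fin (4 * M)) => b π ^ (1 / (1 - 2 * ε)) with hZ
  have eX : (av fun π : Equiv.Perm (Fin (4 * M)) =>
      (S (p ∘ π) ^ (2 * (1 - ε))) ^ (1 / (1 - ε))) = X := by
    apply av_congr; intro π
    rw [pow1 _ (hS0 _), ← hS]
  have eZ : (av fun π : Equiv.Perm (Fin (4 * M)) =>
      (B (q ∘ π) ^ (1 / lam)) ^ (1 / (1 - ε))) = Z := by
    apply av_congr; intro π
    rw [pow2 _ (hB0 _), ← hB]
  have eY : (av fun π : Equiv.Perm (Fin (4 * M)) =>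
      (S' ((fun i => xor (p i) (q i)) ∘ π) ^ (2 * (1 - ε))) ^ (1 / (1 - ε))) = Y := by
    apply av_congr; intro π
    rw [pow1 _ (hS0' _)]
    rw [hS' π]
    rfl
  rw [eX, eZ] at k1
  rw [eY, eZ] at k2
  rw [eX, eY] at k3
  have X0 : 0 ≤ X := av_nonneg fun π => sq_nonneg _
  have Y0 : 0 ≤ Y := av_nonneg fun π => sq_nonneg _
  have Z0 : 0 ≤ Z := av_nonneg fun π => Real.rpow_nonneg (hb0 π) _
  -- Hölder
  have hsum : lam / 2 + lam / 2 + (1 - lam) = 1 := by ring
  have H3 := av_holder3 (Ω := Equiv.Perm (Fin (4 * M))) (a := lam / 2) (b := lam / 2)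
    (c := 1 - lam) (by positivity) (by positivity) (by linarith) hsum
    (F := fun π => S (p ∘ π) ^ (2 * (1 - ε)) * B (q ∘ π) ^ (1 / lam))
    (G := fun π => S' ((fun i => xor (p i) (q i)) ∘ π) ^ (2 * (1 - ε)) * B (q ∘ π) ^ (1 / lam))
    (H := fun π => S (p ∘ π) ^ (2 * (1 - ε)) *
      S' ((fun i => xor (p i) (q i)) ∘ π) ^ (2 * (1 - ε)))
    (fun π => mul_nonneg (Real.rpow_nonneg (hS0 _) _) (Real.rpow_nonneg (hB0 _) _))
    (fun π => mul_nonneg (Real.rpow_nonneg (hS0' _) _) (Real.rpow_nonneg (hB0 _) _))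
    (fun π => mul_nonneg (Real.rpow_nonneg (hS0 _) _) (Real.rpow_nonneg (hS0' _) _))
  have elhs : ∀ π : Equiv.Perm (Fin (4 * M)), b π * s π * s' π =
      (S (p ∘ π) ^ (2 * (1 - ε)) * B (q ∘ π) ^ (1 / lam)) ^ (lam / 2) *
      (S' ((fun i => xor (p i) (q i)) ∘ π) ^ (2 * (1 - ε)) * B (q ∘ π) ^ (1 / lam)) ^ (lam / 2) *
      (S (p ∘ π) ^ (2 * (1 - ε)) *
        S' ((fun i => xor (p i) (q i)) ∘ π) ^ (2 * (1 - ε))) ^ (1 - lam) := by
    intro π
    have e1 : s π = S (p ∘ π) := hS π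
    have e2 : b π = B (q ∘ π) := hB π
    have e3 : s' π = S' ((fun i => xor (p i) (q i)) ∘ π) := hS' π
    rw [e1, e2, e3]
    generalize hx : S (p ∘ π) = x
    generalize hy : S' ((fun i => xor (p i) (q i)) ∘ π) = y
    generalize hz : B (q ∘ π) = z
    have x0 : 0 ≤ x := hx ▸ hS0 _
    have y0 : 0 ≤ y := hy ▸ hS0' _
    have z0 : 0 ≤ z := hz ▸ hB0 _
    rw [Real.mul_rpow (Real.rpow_nonneg x0 _) (Real.rpow_nonneg z0 _),
      Real.mul_rpow (Real.rpow_nonneg y0 _) (Real.rpow_nonneg z0 _),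
      Real.mul_rpow (Real.rpow_nonneg x0 _) (Real.rpow_nonneg y0 _),
      ← Real.rpow_mul x0, ← Real.rpow_mul z0, ← Real.rpow_mul y0, ← Real.rpow_mul x0,
      ← Real.rpow_mul y0]
    have ex : x = x ^ (2 * (1 - ε) * (lam / 2)) * x ^ (2 * (1 - ε) * (1 - lam)) := by
      rw [← Real.rpow_add_of_nonneg x0 (by positivity)
        (mul_nonneg (by positivity) (by linarith))]
      have : 2 * (1 - ε) * (lam / 2) + 2 * (1 - ε) * (1 - lam) = 1 := by
        rw [hlam]; field_simp; ring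
      rw [this, Real.rpow_one]
    have ey : y = y ^ (2 * (1 - ε) * (lam / 2)) * y ^ (2 * (1 - ε) * (1 - lam)) := by
      rw [← Real.rpow_add_of_nonneg y0 (by positivity)
        (mul_nonneg (by positivity) (by linarith))]
      have : 2 * (1 - ε) * (lam / 2) + 2 * (1 - ε) * (1 - lam) = 1 := by
        rw [hlam]; field_simp; ring
      rw [this, Real.rpow_one]
    have ez : z = z ^ (1 / lam * (lam / 2)) * z ^ (1 / lam * (lam / 2)) := by
      rw [← Real.rpow_add_of_nonneg z0 (by positivity) (by positivity)]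
      have : 1 / lam * (lam / 2) + 1 / lam * (lam / 2) = 1 := by
        field_simp; ring
      rw [this, Real.rpow_one]
    conv_lhs => rw [ex, ey, ez]
    ring
  rw [av_congr elhs]
  refine H3.trans ?_
  -- plug in
  have a1 : 0 ≤ av (fun π : Equiv.Perm (Fin (4 * M)) =>
      S (p ∘ π) ^ (2 * (1 - ε)) * B (q ∘ π) ^ (1 / lam)) :=
    av_nonneg fun π => mul_nonneg (Real.rpow_nonneg (hS0 _) _) (Real.rpow_nonneg (hB0 _) _)
  have a2 : 0 ≤ av (fun π : Equiv.Perm (Fin (4 * M)) =>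
      S' ((fun i => xor (p i) (q i)) ∘ π) ^ (2 * (1 - ε)) * B (q ∘ π) ^ (1 / lam)) :=
    av_nonneg fun π => mul_nonneg (Real.rpow_nonneg (hS0' _) _) (Real.rpow_nonneg (hB0 _) _)
  have a3 : 0 ≤ av (fun π : Equiv.Perm (Fin (4 * M)) =>
      S (p ∘ π) ^ (2 * (1 - ε)) * S' ((fun i => xor (p i) (q i)) ∘ π) ^ (2 * (1 - ε))) :=
    av_nonneg fun π => mul_nonneg (Real.rpow_nonneg (hS0 _) _) (Real.rpow_nonneg (hS0' _) _)
  have m1 := Real.rpow_le_rpow a1 k1 (show 0 ≤ lam / 2 by positivity)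
  have m2 := Real.rpow_le_rpow a2 k2 (show 0 ≤ lam / 2 by positivity)
  have m3 := Real.rpow_le_rpow a3 k3 (show 0 ≤ 1 - lam by linarith)
  refine (mul_le_mul (mul_le_mul m1 m2 (Real.rpow_nonneg a2 _) (by positivity)) m3
    (Real.rpow_nonneg a3 _) (by positivity)).trans (le_of_eq ?_)
  rw [Real.mul_rpow (by positivity) (by positivity), Real.mul_rpow (by positivity) (by positivity),
    Real.mul_rpow (by positivity) (by positivity), ← Real.rpow_mul X0, ← Real.rpow_mul Y0,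
    ← Real.rpow_mul Z0, ← Real.rpow_mul X0, ← Real.rpow_mul Y0, Real.sqrt_eq_rpow,
    Real.sqrt_eq_rpow]
  have fX : X ^ (1 / 2 : ℝ) = X ^ ((1 - ε) * (lam / 2)) * X ^ ((1 - ε) * (1 - lam)) := by
    rw [← Real.rpow_add_of_nonneg X0 (by positivity)
      (mul_nonneg (by positivity) (by linarith))]
    congr 1
    rw [hlam]; field_simp; ring
  have fY : Y ^ (1 / 2 : ℝ) = Y ^ ((1 - ε) * (lam / 2)) * Y ^ ((1 - ε) * (1 - lam)) := by
    rw [← Real.rpow_add_of_nonneg Y0 (by positivity)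
      (mul_nonneg (by positivity) (by linarith))]
    congr 1
    rw [hlam]; field_simp; ring
  have fZ : Z ^ (1 - 2 * ε) = Z ^ ((1 - ε) * (lam / 2)) * Z ^ ((1 - ε) * (lam / 2)) := by
    rw [← Real.rpow_add_of_nonneg Z0 (by positivity) (by positivity)]
    congr 1
    rw [hlam]; field_simp; ring
  rw [fX, fY, fZ]
  ring

/-! ## Small blocks -/

/-- The spectral gap statement at block size `M`. -/
def GapAt (M : ℕ) : Prop := ∃ γ : ℝ, 0 < γ ∧ γ ≤ 1 ∧
    ∀ p q : Fin (4 * M) → Bool, Cells M p q → ∀ u w : (Fin (4 * M) → Bool) → ℝ,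
    av (fun π : Equiv.Perm (Fin (4 * M)) => u (p ∘ π)) = 0 →
    av (fun π : Equiv.Perm (Fin (4 * M)) => w (q ∘ π)) = 0 →
    |av (fun π : Equiv.Perm (Fin (4 * M)) => u (p ∘ π) * w (q ∘ π))| ≤
      (1 - γ) * (√(av fun π : Equiv.Perm (Fin (4 * M)) => u (p ∘ π) ^ 2) *
         √(av fun π : Equiv.Perm (Fin (4 * M)) => w (q ∘ π) ^ 2))

/-- permutations preserving `q` -/
abbrev Stab {M : ℕ} (q : Fin (4 * M) → Bool) := {h : Equiv.Perm (Fin (4 * M)) // q ∘ h = q}

instance {M : ℕ} (q : Fin (4 * M) → Bool) : Nonempty (Stab q) := ⟨⟨1, rfl⟩⟩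

theorem av_stab_le {M : ℕ} (q : Fin (4 * M) → Bool) (π : Equiv.Perm (Fin (4 * M)))
    (G : Equiv.Perm (Fin (4 * M)) → ℝ) (hG : ∀ σ, 0 ≤ G σ) :
    av (fun h : Stab q => G (h.1 * π)) ≤
      (Fintype.card (Equiv.Perm (Fin (4 * M))) : ℝ) * av G := by
  have hN : (Fintype.card (Equiv.Perm (Fin (4 * M))) : ℝ) ≠ 0 := by
    exact_mod_cast Fintype.card_ne_zero
  have hH : (1 : ℝ) ≤ Fintype.card (Stab q) := by
    exact_mod_cast Fintype.card_pos
  have e1 : (Fintype.card (Equiv.Perm (Fin (4 * M))) : ℝ) * av G = ∑ σ, G σ := by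
    unfold av
    field_simp
  rw [e1]
  have hs : 0 ≤ ∑ h : Stab q, G (h.1 * π) := Finset.sum_nonneg fun h _ => hG _
  have e2 : av (fun h : Stab q => G (h.1 * π)) ≤ ∑ h : Stab q, G (h.1 * π) := by
    unfold av
    rw [div_le_iff₀ (by linarith)]
    nlinarith
  refine e2.trans ?_
  have hinj : Function.Injective (fun h : Stab q => h.1 * π) := by
    intro a b hab
    exact Subtype.ext (mul_right_cancel hab)
  have e3 : ∑ h : Stab q, G (h.1 * π) =
      ∑ σ ∈ (Finset.univ : Finset (Stab q)).map ⟨_, hinj⟩, G σ := by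
    rw [Finset.sum_map]
    rfl
  rw [e3]
  exact Finset.sum_le_univ_sum_of_nonneg hG

theorem av_stab {M : ℕ} (q : Fin (4 * M) → Bool) (G : Equiv.Perm (Fin (4 * M)) → ℝ) :
    av (fun π => av fun h : Stab q => G (h.1 * π)) = av G := by
  rw [av_comm]
  have : ∀ h : Stab q, (av fun π => G (h.1 * π)) = av G := by
    intro h
    exact av_equiv (Equiv.mulLeft h.1) G
  rw [av_congr this, av_const]

theorem rpow_le_quad {z τ : ℝ} (hz : 0 ≤ z) (h0 : 0 < τ) (h1 : τ ≤ 1) :
    z ^ (1 + τ) ≤ z + τ * (z - 1) + τ * (z - 1) ^ 2 := by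
  rcases eq_or_lt_of_le hz with h | h
  · rw [← h, Real.zero_rpow (by linarith)]
    nlinarith
  · rw [Real.rpow_add h, Real.rpow_one]
    have hb := rpow_one_add_le_one_add_mul_self (s := z - 1) (by linarith) (p := τ) h0.le h1
    have e : 1 + (z - 1) = z := by ring
    rw [e] at hb
    nlinarith

section core

variable {M : ℕ} {s s' : Equiv.Perm (Fin (4 * M)) → ℝ}

theorem core_var (hX : av (fun π => s π ^ 2) = 1) :
    av (fun π => (s π - av s) ^ 2) = 1 - (av s) ^ 2 := by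
  have : ∀ π, (s π - av s) ^ 2 = s π ^ 2 - (2 * av s * s π - (av s) ^ 2) := fun π => by ring
  rw [av_congr this, av_sub, av_sub, av_mul_left, av_const, hX]
  ring

theorem core_sqrt {v v' : ℝ} (v0 : 0 ≤ v) (v0' : 0 ≤ v') : √v * √v' ≤ (v + v') / 2 := by
  nlinarith [sq_nonneg (√v - √v'), Real.sq_sqrt v0, Real.sq_sqrt v0']

theorem core_cov {γ : ℝ} (hγ0 : 0 < γ) (hγ1 : γ ≤ 1)
    (hX : av (fun π => s π ^ 2) = 1) (hY : av (fun π => s' π ^ 2) = 1)
    (hgap : |av (fun π => (s π - av s) * (s' π - av s'))| ≤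
      (1 - γ) * (√(av fun π => (s π - av s) ^ 2) * √(av fun π => (s' π - av s') ^ 2))) :
    av (fun π => s π * s' π) ≤ 1 - γ * ((1 - (av s) ^ 2) + (1 - (av s') ^ 2)) / 2 := by
  have v0 : 0 ≤ 1 - (av s) ^ 2 := core_var hX ▸ av_nonneg fun π => sq_nonneg _
  have v0' : 0 ≤ 1 - (av s') ^ 2 := core_var hY ▸ av_nonneg fun π => sq_nonneg _
  rw [core_var hX, core_var hY] at hgap
  have e1 : av (fun π => (s π - av s) * (s' π - av s')) = av (fun π => s π * s' π)
      - av s * av s' := by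
    have : ∀ π, (s π - av s) * (s' π - av s') =
        s π * s' π - (av s * s' π + (av s' * s π - av s * av s')) := fun π => by ring
    rw [av_congr this, av_sub, av_add, av_sub, av_mul_left, av_mul_left, av_const]
    ring
  rw [e1] at hgap
  have h4 := (abs_le.1 hgap).2
  have h5 := core_sqrt v0 v0'
  have h6 : av s * av s' ≤ 1 - ((1 - (av s) ^ 2) + (1 - (av s') ^ 2)) / 2 := by
    nlinarith [sq_nonneg (av s - av s')]
  have h7 := mul_le_mul_of_nonneg_left h5 (show 0 ≤ 1 - γ by linarith)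
  nlinarith

theorem core_abs (hX : av (fun π => s π ^ 2) = 1) {V : ℝ} (hV : 1 - (av s) ^ 2 ≤ V) :
    av (fun π => |s π - av s|) ≤ √V := by
  have h1 := av_mul_le_sqrt (fun π => |s π - av s|) (fun _ : Equiv.Perm (Fin (4 * M)) => (1 : ℝ))
  simp only [mul_one, sq_abs, one_pow, av_const, Real.sqrt_one] at h1
  rw [core_var hX] at h1
  exact h1.trans (Real.sqrt_le_sqrt hV)

theorem core_abs2 (hX : av (fun π => s π ^ 2) = 1) (hY : av (fun π => s' π ^ 2) = 1) {V : ℝ}
    (hV : V = (1 - (av s) ^ 2) + (1 - (av s') ^ 2)) (hV2 : V ≤ 2) :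
    av (fun π => |s π - av s| * |s' π - av s'|) ≤ √V := by
  have v0 : 0 ≤ 1 - (av s) ^ 2 := core_var hX ▸ av_nonneg fun π => sq_nonneg _
  have v0' : 0 ≤ 1 - (av s') ^ 2 := core_var hY ▸ av_nonneg fun π => sq_nonneg _
  have h1 := av_mul_le_sqrt (fun π => |s π - av s|) (fun π => |s' π - av s'|)
  simp only [sq_abs] at h1
  rw [core_var hX, core_var hY] at h1
  have h5 := core_sqrt v0 v0'
  have V0 : 0 ≤ V := by rw [hV]; positivity
  have sqV : √V ^ 2 = V := Real.sq_sqrt V0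
  have hsV0 : 0 ≤ √V := Real.sqrt_nonneg _
  nlinarith

theorem core_Z (q : Fin (4 * M) → Bool) (s0 : ∀ π, 0 ≤ s π) (s0' : ∀ π, 0 ≤ s' π)
    (hX : av (fun π => s π ^ 2) = 1) (hY : av (fun π => s' π ^ 2) = 1) {V N : ℝ}
    (hN : N = (Fintype.card (Equiv.Perm (Fin (4 * M))) : ℝ))
    (hV : V = (1 - (av s) ^ 2) + (1 - (av s') ^ 2)) (π : Equiv.Perm (Fin (4 * M))) :
    |(av fun h : Stab q => s (h.1 * π) * s' (h.1 * π)) - 1| ≤ (3 * N + 2) * √V := by
  have v0 : 0 ≤ 1 - (av s) ^ 2 := core_var hX ▸ av_nonneg fun π => sq_nonneg _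
  have v0' : 0 ≤ 1 - (av s') ^ 2 := core_var hY ▸ av_nonneg fun π => sq_nonneg _
  have m0 : 0 ≤ av s := av_nonneg s0
  have m0' : 0 ≤ av s' := av_nonneg s0'
  have m1 : av s ≤ 1 := by nlinarith
  have m1' : av s' ≤ 1 := by nlinarith
  have hN0 : 0 ≤ N := by rw [hN]; positivity
  have V0 : 0 ≤ V := by rw [hV]; positivity
  have V2 : V ≤ 2 := by rw [hV]; nlinarith [sq_nonneg (av s), sq_nonneg (av s')]
  have sqV : √V ^ 2 = V := Real.sq_sqrt V0
  have hsV0 : 0 ≤ √V := Real.sqrt_nonneg _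
  have hsV2 : √V ≤ 2 := by nlinarith
  have a1 : av (fun π => |s π - av s|) ≤ √V := core_abs hX (by rw [hV]; linarith)
  have a2 : av (fun π => |s' π - av s'|) ≤ √V := core_abs hY (by rw [hV]; linarith)
  have a3 := core_abs2 hX hY hV V2
  generalize hm : av s = m at *
  generalize hm' : av s' = m' at *
  have e1 : (av fun h : Stab q => s (h.1 * π) * s' (h.1 * π)) - 1 =
      (m * m' - 1) + (m * (av fun h : Stab q => (s' (h.1 * π) - m')) +
      (m' * (av fun h : Stab q => (s (h.1 * π) - m)) +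
      av fun h : Stab q => (s (h.1 * π) - m) * (s' (h.1 * π) - m'))) := by
    rw [← av_mul_left, ← av_mul_left, ← av_add, ← av_add]
    have : (av fun h : Stab q => s (h.1 * π) * s' (h.1 * π)) =
      av fun h : Stab q => (m * m' + (m * (s' (h.1 * π) - m') +
      (m' * (s (h.1 * π) - m) + (s (h.1 * π) - m) * (s' (h.1 * π) - m')))) := by
      apply av_congr
      intro h
      ring
    rw [this, av_add, av_const]
    ring
  have b1 : |av fun h : Stab q => (s' (h.1 * π) - m')| ≤ N * √V := by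
    have := av_stab_le q π (fun σ => |s' σ - m'|) (fun σ => abs_nonneg _)
    rw [← hN] at this
    exact ((abs_av_le _).trans this).trans (mul_le_mul_of_nonneg_left a2 hN0)
  have b2 : |av fun h : Stab q => (s (h.1 * π) - m)| ≤ N * √V := by
    have := av_stab_le q π (fun σ => |s σ - m|) (fun σ => abs_nonneg _)
    rw [← hN] at this
    exact ((abs_av_le _).trans this).trans (mul_le_mul_of_nonneg_left a1 hN0)
  have b3 : |av fun h : Stab q => (s (h.1 * π) - m) * (s' (h.1 * π) - m')| ≤ N * √V := by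
    have := av_stab_le q π (fun σ => |s σ - m| * |s' σ - m'|)
      (fun σ => mul_nonneg (abs_nonneg _) (abs_nonneg _))
    rw [← hN] at this
    refine ((abs_av_le _).trans ?_).trans (mul_le_mul_of_nonneg_left a3 hN0)
    simpa only [abs_mul] using this
  have b4 : |m * m' - 1| ≤ 2 * √V := by
    have c1 : m * m' ≤ 1 := by nlinarith
    have c2 : 1 - m * m' ≤ V := by
      have d1 : m ^ 2 ≤ m := by nlinarith
      have d2 : m' ^ 2 ≤ m' := by nlinarith
      have d3 : m ^ 2 * m' ^ 2 ≤ m * m' := mul_le_mul d1 d2 (sq_nonneg _) m0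
      nlinarith [mul_nonneg v0 v0']
    rw [abs_of_nonpos (by linarith)]
    nlinarith
  have t1 : |m * (av fun h : Stab q => (s' (h.1 * π) - m'))| ≤ N * √V := by
    rw [abs_mul, abs_of_nonneg m0]
    exact (mul_le_of_le_one_left (abs_nonneg _) m1).trans b1
  have t2 : |m' * (av fun h : Stab q => (s (h.1 * π) - m))| ≤ N * √V := by
    rw [abs_mul, abs_of_nonneg m0']
    exact (mul_le_of_le_one_left (abs_nonneg _) m1').trans b2
  rw [e1]
  have u0 := abs_add_le (m * m' - 1) (m * (av fun h : Stab q => (s' (h.1 * π) - m')) +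
      (m' * (av fun h : Stab q => (s (h.1 * π) - m)) +
      av fun h : Stab q => (s (h.1 * π) - m) * (s' (h.1 * π) - m')))
  have u1 := abs_add_le (m * (av fun h : Stab q => (s' (h.1 * π) - m')))
    (m' * (av fun h : Stab q => (s (h.1 * π) - m)) +
      av fun h : Stab q => (s (h.1 * π) - m) * (s' (h.1 * π) - m'))
  have u2 := abs_add_le (m' * (av fun h : Stab q => (s (h.1 * π) - m)))
    (av fun h : Stab q => (s (h.1 * π) - m) * (s' (h.1 * π) - m'))
  linarith

theorem small_core {γ : ℝ} (hγ0 : 0 < γ) (hγ1 : γ ≤ 1) (q : Fin (4 * M) → Bool)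
    (s0 : ∀ π, 0 ≤ s π) (s0' : ∀ π, 0 ≤ s' π)
    (hX : av (fun π => s π ^ 2) = 1) (hY : av (fun π => s' π ^ 2) = 1)
    (hgap : |av (fun π => (s π - av s) * (s' π - av s'))| ≤
      (1 - γ) * (√(av fun π => (s π - av s) ^ 2) * √(av fun π => (s' π - av s') ^ 2)))
    {τ : ℝ}
    (hτ : τ = γ / (2 * (3 * (Fintype.card (Equiv.Perm (Fin (4 * M))) : ℝ) + 2) ^ 2)) :
    av (fun π => (av fun h : Stab q => s (h.1 * π) * s' (h.1 * π)) ^ (1 + τ)) ≤ 1 := by
  obtain ⟨N, hN⟩ : ∃ N : ℝ, N = (Fintype.card (Equiv.Perm (Fin (4 * M))) : ℝ) := ⟨_, rfl⟩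
  rw [← hN] at hτ
  have hN1 : 1 ≤ N := by
    rw [hN]; exact_mod_cast Fintype.card_pos
  have hτ0 : 0 < τ := by rw [hτ]; positivity
  have hτ1 : τ ≤ 1 := by
    rw [hτ, div_le_one (by positivity)]
    nlinarith
  obtain ⟨V, hV⟩ : ∃ V : ℝ, V = (1 - (av s) ^ 2) + (1 - (av s') ^ 2) := ⟨_, rfl⟩
  have v0 : 0 ≤ 1 - (av s) ^ 2 := core_var hX ▸ av_nonneg fun π => sq_nonneg _
  have v0' : 0 ≤ 1 - (av s') ^ 2 := core_var hY ▸ av_nonneg fun π => sq_nonneg _
  have V0 : 0 ≤ V := by rw [hV]; positivity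
  have sqV : √V ^ 2 = V := Real.sq_sqrt V0
  have hcov := core_cov hγ0 hγ1 hX hY hgap
  rw [← hV] at hcov
  have hZ1 := core_Z q s0 s0' hX hY hN hV
  have hfin : ∀ π, (av fun h : Stab q => s (h.1 * π) * s' (h.1 * π)) ^ (1 + τ) ≤
      (1 + τ) * (av fun h : Stab q => s (h.1 * π) * s' (h.1 * π)) +
        (τ * ((3 * N + 2) ^ 2 * V) - τ) := by
    intro π
    have h1 := rpow_le_quad (av_nonneg fun h : Stab q => mul_nonneg (s0 (h.1 * π))
      (s0' (h.1 * π))) hτ0 hτ1
    have h2 : ((av fun h : Stab q => s (h.1 * π) * s' (h.1 * π)) - 1) ^ 2 ≤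
        (3 * N + 2) ^ 2 * V := by
      rw [← sq_abs]
      have := pow_le_pow_left₀ (abs_nonneg _) (hZ1 π) 2
      rw [mul_pow, sqV] at this
      exact this
    have h3 := mul_le_mul_of_nonneg_left h2 hτ0.le
    linarith
  refine (av_mono hfin).trans ?_
  rw [av_add, av_mul_left, av_const, av_stab q (fun π => s π * s' π)]
  have e5 : τ * ((3 * N + 2) ^ 2 * V) = γ * V / 2 := by
    rw [hτ]
    have : (3 * N + 2) ≠ 0 := by positivity
    field_simp
  rw [e5]
  have hγV : 0 ≤ γ * V := by positivity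
  have h8 : (1 + τ) * av (fun π => s π * s' π) ≤ (1 + τ) * (1 - γ * V / 2) :=
    mul_le_mul_of_nonneg_left hcov (by linarith)
  nlinarith

end core

theorem tf_small_of_gap (M : ℕ) (hgap : GapAt M) : ∃ c : ℝ, 0 < c ∧ c < 1 ∧ BlockTF M c := by
  obtain ⟨γ, hγ0, hγ1, hgap⟩ := hgap
  set N : ℝ := (Fintype.card (Equiv.Perm (Fin (4 * M))) : ℝ) with hN
  have hN1 : 1 ≤ N := by
    rw [hN]; exact_mod_cast Fintype.card_pos
  set τ : ℝ := γ / (2 * (3 * N + 2) ^ 2) with hτ
  have hτ0 : 0 < τ := by rw [hτ]; positivity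
  refine ⟨1 / (1 + τ), by positivity, by rw [div_lt_one (by positivity)]; linarith, ?_⟩
  intro p q hpq s b s' hs0 hb0 hs0' hs hb hs'
  obtain ⟨S, hS0, hS⟩ := factor_ex _ s hs0 hs
  obtain ⟨S', hS0', hS'⟩ := factor_ex (fun (π : Equiv.Perm (Fin (4 * M))) i =>
    xor (p (π i)) (q (π i))) s' hs0' hs'
  set X : ℝ := av fun π : Equiv.Perm (Fin (4 * M)) => s π ^ 2 with hX
  set Y : ℝ := av fun π : Equiv.Perm (Fin (4 * M)) => s' π ^ 2 with hY
  have X0 : 0 ≤ X := av_nonneg fun π => sq_nonneg _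
  have Y0 : 0 ≤ Y := av_nonneg fun π => sq_nonneg _
  have hexp : 0 ≤ (av fun ω => b ω ^ (1 / (1 - 1 / (1 + τ)))) ^ (1 - 1 / (1 + τ)) :=
    Real.rpow_nonneg (av_nonneg fun ω => Real.rpow_nonneg (hb0 ω) _) _
  -- Cauchy-Schwarz handles the degenerate cases
  have zero_case : ∀ K : Equiv.Perm (Fin (4 * M)) → ℝ, av (fun ω => K ω ^ 2) = 0 →
      ∀ ω, K ω = 0 := by
    intro K h ω
    unfold av at h
    have hcard : (Fintype.card (Equiv.Perm (Fin (4 * M))) : ℝ) ≠ 0 := by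
      exact_mod_cast Fintype.card_ne_zero
    rw [div_eq_zero_iff] at h
    rcases h with h | h
    · have := (Finset.sum_eq_zero_iff_of_nonneg (fun i _ => sq_nonneg (K i))).1 h ω
        (Finset.mem_univ _)
      exact pow_eq_zero_iff (two_ne_zero) |>.1 this
    · exact absurd h hcard
  rcases eq_or_lt_of_le X0 with hX0 | hXpos
  · have hz := zero_case s hX0.symm
    have : av (fun ω => b ω * s ω * s' ω) = 0 := by
      rw [← av_zero (Ω := Equiv.Perm (Fin (4 * M)))]
      apply av_congr; intro ω; rw [hz ω]; ring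
    rw [this]
    positivity
  rcases eq_or_lt_of_le Y0 with hY0 | hYpos
  · have hz := zero_case s' hY0.symm
    have : av (fun ω => b ω * s ω * s' ω) = 0 := by
      rw [← av_zero (Ω := Equiv.Perm (Fin (4 * M)))]
      apply av_congr; intro ω; rw [hz ω]; ring
    rw [this]
    positivity
  have sX : 0 < √X := Real.sqrt_pos.2 hXpos
  have sY : 0 < √Y := Real.sqrt_pos.2 hYpos
  have hX1 : av (fun π : Equiv.Perm (Fin (4 * M)) => (s π / √X) ^ 2) = 1 := by
    have : ∀ π : Equiv.Perm (Fin (4 * M)), (s π / √X) ^ 2 = s π ^ 2 / X := by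
      intro π
      rw [div_pow, Real.sq_sqrt X0]
    rw [av_congr this, av_div, ← hX, div_self hXpos.ne']
  have hY1 : av (fun π : Equiv.Perm (Fin (4 * M)) => (s' π / √Y) ^ 2) = 1 := by
    have : ∀ π : Equiv.Perm (Fin (4 * M)), (s' π / √Y) ^ 2 = s' π ^ 2 / Y := by
      intro π
      rw [div_pow, Real.sq_sqrt Y0]
    rw [av_congr this, av_div, ← hY, div_self hYpos.ne']
  have hg := hgap p (fun i => xor (p i) (q i)) (cells_xor_right' hpq)
    (fun x => S x / √X - av (fun π => s π / √X)) (fun x => S' x / √Y - av (fun π => s' π / √Y))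
    (by
      have : ∀ π : Equiv.Perm (Fin (4 * M)), S (p ∘ π) / √X - av (fun π => s π / √X) =
        s π / √X - av (fun π => s π / √X) := fun π => by rw [hS π]
      rw [av_congr this, av_sub, av_const, sub_self])
    (by
      have : ∀ π : Equiv.Perm (Fin (4 * M)), S' ((fun i => xor (p i) (q i)) ∘ π) / √Y
          - av (fun π => s' π / √Y) =
        s' π / √Y - av (fun π => s' π / √Y) := fun π => by rw [hS' π]; rfl
      rw [av_congr this, av_sub, av_const, sub_self])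
  have hs1 : ∀ π : Equiv.Perm (Fin (4 * M)), S (p ∘ π) = s π := fun π => (hS π).symm
  have hs1' : ∀ π : Equiv.Perm (Fin (4 * M)), S' ((fun i => xor (p i) (q i)) ∘ π) = s' π :=
    fun π => (hS' π).symm
  simp only [hs1, hs1'] at hg
  have core' := small_core hγ0 hγ1 q (s := fun π => s π / √X) (s' := fun π => s' π / √Y)
    (fun π => div_nonneg (hs0 π) sX.le) (fun π => div_nonneg (hs0' π) sY.le) hX1 hY1 hg hτ
  set Z : Equiv.Perm (Fin (4 * M)) → ℝ := fun π => av fun h : Stab q =>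
    s (h.1 * π) / √X * (s' (h.1 * π) / √Y) with hZ
  have Z0 : ∀ π, 0 ≤ Z π := fun π => av_nonneg fun h =>
    mul_nonneg (div_nonneg (hs0 _) sX.le) (div_nonneg (hs0' _) sY.le)
  have main : av (fun ω => b ω * s ω * s' ω) = √X * √Y * av (fun π => b π * Z π) := by
    rw [← av_stab q (fun ω => b ω * s ω * s' ω), ← av_mul_left]
    apply av_congr
    intro π
    rw [hZ, ← av_mul_left, ← av_mul_left]
    apply av_congr
    intro h
    have e1 : b (h.1 * π) = b π := by
      apply hb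
      funext i
      have := congrFun h.2 (π i)
      exact this
    rw [e1]
    field_simp
  rw [main]
  have hconj : (1 / (1 - 1 / (1 + τ))).HolderConjugate (1 + τ) := by
    rw [Real.holderConjugate_iff]
    constructor
    · rw [lt_div_iff₀]
      · have : 0 < 1 / (1 + τ) := by positivity
        linarith
      · have : 1 / (1 + τ) < 1 := by rw [div_lt_one (by positivity)]; linarith
        linarith
    · rw [one_div, inv_inv, ← one_div]
      ring
  have hH := av_holder hconj hb0 Z0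
  have hZt : (av fun π => Z π ^ (1 + τ)) ^ (1 / (1 + τ)) ≤ 1 := by
    apply Real.rpow_le_one (av_nonneg fun π => Real.rpow_nonneg (Z0 π) _) core' (by positivity)
  have e9 : 1 / (1 / (1 - 1 / (1 + τ))) = 1 - 1 / (1 + τ) := by
    rw [one_div_one_div]
  rw [e9] at hH
  have hH2 : av (fun π => b π * Z π) ≤
      (av fun ω => b ω ^ (1 / (1 - 1 / (1 + τ)))) ^ (1 - 1 / (1 + τ)) := by
    refine hH.trans ?_
    exact mul_le_of_le_one_right hexp hZt
  calc √X * √Y * av (fun π => b π * Z π) ≤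
      √X * √Y * (av fun ω => b ω ^ (1 / (1 - 1 / (1 + τ)))) ^ (1 - 1 / (1 + τ)) :=
        mul_le_mul_of_nonneg_left hH2 (by positivity)
    _ = _ := by ring

/-! ## The sequence of constants -/

theorem tf_seq_of (hgap : ∀ M : ℕ, 1 ≤ M → GapAt M)
    (hlarge : ∃ J : ℕ, 3 ≤ J ∧ ∀ j : ℕ, J ≤ j → HC (2 ^ (j - 1)) (1 / (j : ℝ) ^ 2)) :
    ∃ c : ℕ → ℝ, (∀ j, 0 < c j) ∧ (∀ j, c j < 1) ∧ Summable c ∧
    ∀ j, 1 ≤ j → BlockTF (2 ^ (j - 1)) (c j) := by
  classical
  obtain ⟨J, hJ3, hJ⟩ := hlarge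
  have hsmall : ∀ j : ℕ, ∃ c : ℝ, 0 < c ∧ c < 1 ∧ BlockTF (2 ^ (j - 1)) c := fun j =>
    tf_small_of_gap _ (hgap _ Nat.one_le_two_pow)
  choose c0 hc0 hc1 hc2 using hsmall
  refine ⟨fun j => if J ≤ j then 2 * (1 / (j : ℝ) ^ 2) else c0 j, ?_, ?_, ?_, ?_⟩
  · intro j
    simp only
    split_ifs with h
    · have : (0 : ℝ) < j := by exact_mod_cast (by omega : 0 < j)
      positivity
    · exact hc0 j
  · intro j
    simp only
    split_ifs with h
    · have : (3 : ℝ) ≤ j := by exact_mod_cast (hJ3.trans h)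
      rw [mul_one_div, div_lt_one (by positivity)]
      nlinarith
    · exact hc1 j
  · have hs : Summable (fun j : ℕ => 2 * (1 / (j : ℝ) ^ 2)) :=
      (Real.summable_one_div_nat_pow.2 one_lt_two).mul_left 2
    apply hs.congr_atTop
    filter_upwards [Filter.eventually_ge_atTop J] with j hj
    simp [hj]
  · intro j hj
    simp only
    split_ifs with h
    · have h3 : (3 : ℝ) ≤ j := by exact_mod_cast (hJ3.trans h)
      apply tf_of_hc (by positivity) _ (hJ j h)
      rw [div_lt_div_iff₀ (by positivity) (by norm_num)]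
      nlinarith
    · exact hc2 j

end Vale.Agent.P162
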