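import Mathlib

open Finset

namespace Vale.Agent.P162

/-- New position of the card at position `x` in a Thorp shuffle of `2 * m` cards with coins `c`:
the cards at positions `i` and `m + i` move to positions `2 i` and `2 i + 1`, in the order given by
the coin `c i`. -/
def thorpPos (m : ℕ) (c : Fin m → Bool) (x : Fin (2 * m)) : Fin (2 * m) :=
  if h : (x : ℕ) < m then ⟨2 * x + (if c ⟨x, h⟩ then 1 else 0), by split_ifs <;> omega⟩
  else ⟨2 * (x - m) + (if c ⟨x - m, by omega⟩ then 0 else 1), by split_ifs <;> omega⟩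

/-- The law of one Thorp shuffle on the permutations of the `2 * m` positions. -/
noncomputable def thorpLaw (m : ℕ) (g : Equiv.Perm (Fin (2 * m))) : ℝ :=
  (Fintype.card {c : Fin m → Bool // ∀ x, thorpPos m c x = g x} : ℝ) / 2 ^ m

/-- The law of `t` independent Thorp shuffles. -/
noncomputable def thorpLawN (m : ℕ) : ℕ → Equiv.Perm (Fin (2 * m)) → ℝ
  | 0, g => if g = 1 then 1 else 0
  | (t + 1), g => ∑ h : Equiv.Perm (Fin (2 * m)), thorpLaw m h * thorpLawN m t (h⁻¹ * g)

/-- Total variation distance to the uniform law. -/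
noncomputable def thorpTV (m t : ℕ) : ℝ :=
  (∑ g : Equiv.Perm (Fin (2 * m)), |thorpLawN m t g - 1 / (Nat.factorial (2 * m) : ℝ)|) / 2

end Vale.Agent.P162
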