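import Mathlib
import Vale.Agent.Lib.P162.Basic
import Vale.Agent.Lib.P162.Model

open Finset

namespace Vale.Agent.P162

section perm

variable {m : ℕ}

theorem thorpPos_lt (c : Fin m → Bool) (x : Fin (2 * m)) (h : (x : ℕ) < m) :
    (thorpPos m c x : ℕ) = 2 * x + (if c ⟨x, h⟩ then 1 else 0) := by
  simp [thorpPos, h]

theorem thorpPos_ge (c : Fin m → Bool) (x : Fin (2 * m)) (h : ¬ (x : ℕ) < m) :
    (thorpPos m c x : ℕ) = 2 * (x - m) + (if c ⟨x - m, by omega⟩ then 0 else 1) := by
  simp [thorpPos, h]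

theorem thorpPos_injective (c : Fin m → Bool) : Function.Injective (thorpPos m c) := by
  intro x y hxy
  have h := congrArg Fin.val hxy
  apply Fin.ext
  by_cases hx : (x : ℕ) < m <;> by_cases hy : (y : ℕ) < m
  · rw [thorpPos_lt c x hx, thorpPos_lt c y hy] at h
    split_ifs at h <;> omega
  · rw [thorpPos_lt c x hx, thorpPos_ge c y hy] at h
    have h1 : (x : ℕ) = y - m := by split_ifs at h <;> omega
    have h2 : (⟨x, hx⟩ : Fin m) = ⟨y - m, by omega⟩ := Fin.ext h1
    rw [h2] at h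
    split_ifs at h <;> omega
  · rw [thorpPos_ge c x hx, thorpPos_lt c y hy] at h
    have h1 : (x : ℕ) - m = y := by split_ifs at h <;> omega
    have h2 : (⟨x - m, by omega⟩ : Fin m) = ⟨y, hy⟩ := Fin.ext h1
    rw [h2] at h
    split_ifs at h <;> omega
  · rw [thorpPos_ge c x hx, thorpPos_ge c y hy] at h
    split_ifs at h <;> omega

/-- The permutation of positions given by the coins. -/
noncomputable def thorpPerm (m : ℕ) (c : Fin m → Bool) : Equiv.Perm (Fin (2 * m)) :=
  Equiv.ofBijective _ (Finite.injective_iff_bijective.1 (thorpPos_injective c))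

theorem thorpPerm_apply (c : Fin m → Bool) (x : Fin (2 * m)) :
    thorpPerm m c x = thorpPos m c x := rfl

theorem sum_thorpLaw (F : Equiv.Perm (Fin (2 * m)) → ℝ) :
    ∑ g, thorpLaw m g * F g = av (fun c : Fin m → Bool => F (thorpPerm m c)) := by
  have h1 : ∀ g : Equiv.Perm (Fin (2 * m)), thorpLaw m g =
      (∑ c : Fin m → Bool, if thorpPerm m c = g then (1 : ℝ) else 0) / 2 ^ m := by
    intro g
    rw [thorpLaw, Fintype.card_subtype, ← Finset.sum_boole]
    congr 1
    apply Finset.sum_congr rfl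
    intro c _
    have : (∀ x, thorpPos m c x = g x) ↔ thorpPerm m c = g :=
      ⟨fun h => Equiv.ext h, fun h x => by rw [← h]; rfl⟩
    by_cases hc : thorpPerm m c = g
    · rw [if_pos hc, if_pos (this.2 hc)]
    · rw [if_neg hc, if_neg (fun h => hc (this.1 h))]
  have h2 : (Fintype.card (Fin m → Bool) : ℝ) = 2 ^ m := by
    rw [Fintype.card_fun, Fintype.card_bool, Fintype.card_fin]; push_cast; rfl
  unfold av
  rw [h2, Finset.sum_congr rfl fun g _ => by rw [h1 g]]
  simp only [div_mul_eq_mul_div, ← Finset.sum_div, Finset.sum_mul]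
  congr 1
  rw [Finset.sum_comm]
  apply Finset.sum_congr rfl
  intro c _
  simp

theorem sum_thorpLaw_one : ∑ g, thorpLaw m g = 1 := by
  have := sum_thorpLaw (m := m) (fun _ => 1)
  simp only [mul_one] at this
  rw [this]
  exact av_const 1

theorem thorpLaw_nonneg (g : Equiv.Perm (Fin (2 * m))) : 0 ≤ thorpLaw m g := by
  unfold thorpLaw; positivity

theorem thorpLawN_nonneg (t : ℕ) : ∀ g : Equiv.Perm (Fin (2 * m)), 0 ≤ thorpLawN m t g := by
  induction t with
  | zero => intro g; rw [thorpLawN]; split_ifs <;> norm_num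
  | succ t ih =>
    intro g
    rw [thorpLawN]
    exact Finset.sum_nonneg fun h _ => mul_nonneg (thorpLaw_nonneg h) (ih _)

theorem sum_thorpLawN (t : ℕ) : ∑ g, thorpLawN m t g = 1 := by
  induction t with
  | zero => simp [thorpLawN]
  | succ t ih =>
    simp only [thorpLawN]
    rw [Finset.sum_comm]
    have : ∀ h : Equiv.Perm (Fin (2 * m)), ∑ g, thorpLaw m h * thorpLawN m t (h⁻¹ * g) =
        thorpLaw m h := by
      intro h
      rw [← Finset.mul_sum]
      have := Equiv.sum_comp (Equiv.mulLeft h⁻¹) (fun g => thorpLawN m t g)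
      simp only [Equiv.coe_mulLeft] at this
      rw [this, ih, mul_one]
    rw [Finset.sum_congr rfl fun h _ => this h, sum_thorpLaw_one]

theorem thorpTV_succ_le (t : ℕ) : thorpTV m (t + 1) ≤ thorpTV m t := by
  unfold thorpTV
  apply div_le_div_of_nonneg_right _ (by norm_num : (0 : ℝ) ≤ 2)
  set u : ℝ := 1 / (Nat.factorial (2 * m) : ℝ)
  have h1 : ∀ g : Equiv.Perm (Fin (2 * m)), |thorpLawN m (t + 1) g - u| ≤
      ∑ h, thorpLaw m h * |thorpLawN m t (h⁻¹ * g) - u| := by
    intro g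
    have : thorpLawN m (t + 1) g - u = ∑ h, thorpLaw m h * (thorpLawN m t (h⁻¹ * g) - u) := by
      simp only [mul_sub, Finset.sum_sub_distrib, ← Finset.sum_mul, sum_thorpLaw_one, one_mul]
      rfl
    rw [this]
    refine (Finset.abs_sum_le_sum_abs _ _).trans (Finset.sum_le_sum fun h _ => ?_)
    rw [abs_mul, abs_of_nonneg (thorpLaw_nonneg h)]
  refine (Finset.sum_le_sum fun g _ => h1 g).trans ?_
  rw [Finset.sum_comm]
  have h2 : ∀ h : Equiv.Perm (Fin (2 * m)), ∑ g, thorpLaw m h * |thorpLawN m t (h⁻¹ * g) - u| =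
      thorpLaw m h * ∑ g, |thorpLawN m t g - u| := by
    intro h
    rw [← Finset.mul_sum]
    congr 1
    have := Equiv.sum_comp (Equiv.mulLeft h⁻¹) (fun g => |thorpLawN m t g - u|)
    simpa only [Equiv.coe_mulLeft] using this
  rw [Finset.sum_congr rfl fun h _ => h2 h, ← Finset.sum_mul, sum_thorpLaw_one, one_mul]

theorem thorpTV_antitone : Antitone (thorpTV m) := antitone_nat_of_succ_le thorpTV_succ_le

end perm

section transfer

variable (D : ℕ)

theorem bits_injective : Function.Injective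
    (fun (x : Fin (2 * 2 ^ D)) (k : Fin (D + 1)) => Nat.testBit x k) := by
  intro x y h
  apply Fin.ext
  apply Nat.eq_of_testBit_eq
  intro i
  by_cases hi : i < D + 1
  · exact congrFun h ⟨i, hi⟩
  · have hx : (x : ℕ) < 2 ^ i := lt_of_lt_of_le x.2 (by
      rw [← pow_succ']; exact Nat.pow_le_pow_right (by norm_num) (by omega))
    have hy : (y : ℕ) < 2 ^ i := lt_of_lt_of_le y.2 (by
      rw [← pow_succ']; exact Nat.pow_le_pow_right (by norm_num) (by omega))
    rw [Nat.testBit_eq_false_of_lt hx, Nat.testBit_eq_false_of_lt hy]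

/-- Binary digits of a position. -/
noncomputable def bitsE : Fin (2 * 2 ^ D) ≃ (Fin (D + 1) → Bool) :=
  Equiv.ofBijective _ ((Fintype.bijective_iff_injective_and_card _).2 ⟨bits_injective D, by
    rw [Fintype.card_fin, Fintype.card_fun, Fintype.card_bool, Fintype.card_fin, pow_succ']⟩)

theorem bitsE_apply (x : Fin (2 * 2 ^ D)) (k : Fin (D + 1)) :
    bitsE D x k = Nat.testBit x k := rfl

/-- Rotation of the bits. -/
def rotE : Arr (D + 1) where
  toFun v j := v (j - 1)
  invFun v j := v (j + 1)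
  left_inv v := by ext j; simp
  right_inv v := by ext j; simp

theorem rotE_apply (v : Fin (D + 1) → Bool) (j : Fin (D + 1)) : rotE D v j = v (j - 1) := rfl

/-- Reduction modulo `D + 1`. -/
def fo (t : ℕ) : Fin (D + 1) := Fin.ofNat (D + 1) t

theorem fo_succ (t : ℕ) : fo D (t + 1) = fo D t + 1 := by
  apply Fin.ext
  simp [fo, Fin.val_add]

theorem fo_zero : fo D 0 = 0 := by
  apply Fin.ext
  simp [fo]

theorem fo_add (s t : ℕ) : fo D (s + t) = fo D s + fo D t := by
  apply Fin.ext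
  simp [fo, Fin.val_add]

theorem fo_period (s : ℕ) : fo D (s * (D + 1)) = 0 := by
  apply Fin.ext
  simp [fo]

theorem fo_lt {k : ℕ} (h : k < D + 1) : fo D k = ⟨k, h⟩ := by
  apply Fin.ext
  simp [fo, Nat.mod_eq_of_lt h]

theorem rotE_pow_apply (t : ℕ) (v : Fin (D + 1) → Bool) (j : Fin (D + 1)) :
    ((rotE D) ^ t) v j = v (j - fo D t) := by
  induction t generalizing v j with
  | zero => simp [fo_zero]
  | succ t ih =>
    rw [pow_succ, Equiv.Perm.mul_apply, ih, rotE_apply, fo_succ]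
    congr 1
    abel

theorem rotE_pow_period (s : ℕ) : (rotE D) ^ (s * (D + 1)) = 1 := by
  ext v j
  rw [rotE_pow_apply, fo_period]
  simp

/-- The step in bit coordinates. -/
theorem bits_thorp (c : Fin (2 ^ D) → Bool) (x : Fin (2 * 2 ^ D)) (j : Fin (D + 1))
    (hj : j ≠ Fin.last D) :
    bitsE D (thorpPerm (2 ^ D) c x) (j + 1) = bitsE D x j := by
  have hjD : (j : ℕ) < D := by
    have := Fin.val_lt_last hj
    simpa using this
  have hj1 : ((j + 1 : Fin (D + 1)) : ℕ) = j + 1 := by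
    rw [Fin.val_add_one]
    simp [hj]
  rw [bitsE_apply, bitsE_apply, hj1, thorpPerm_apply]
  by_cases hx : (x : ℕ) < 2 ^ D
  · rw [thorpPos_lt c x hx, Nat.testBit_succ]
    congr 1
    split_ifs <;> omega
  · rw [thorpPos_ge c x hx, Nat.testBit_succ]
    have h1 : (2 * ((x : ℕ) - 2 ^ D) + if c ⟨x - 2 ^ D, by omega⟩ then 0 else 1) / 2 =
        (x : ℕ) - 2 ^ D := by
      split_ifs <;> omega
    rw [h1]
    have h2 : (x : ℕ) = 2 ^ D + (x - 2 ^ D) := by omega
    conv_rhs => rw [h2]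
    rw [Nat.testBit_two_pow_add_gt hjD]

/-- Conjugation by the binary digits. -/
noncomputable def cj : Equiv.Perm (Fin (2 * 2 ^ D)) ≃* Arr (D + 1) := (bitsE D).permCongrHom

theorem cj_apply (g : Equiv.Perm (Fin (2 * 2 ^ D))) (v : Fin (D + 1) → Bool) :
    cj D g v = bitsE D (g ((bitsE D).symm v)) := rfl

/-- The swap part of a step. -/
noncomputable def kp (c : Fin (2 ^ D) → Bool) : Arr (D + 1) :=
  (rotE D)⁻¹ * cj D (thorpPerm (2 ^ D) c)

theorem rotE_inv_apply (v : Fin (D + 1) → Bool) (j : Fin (D + 1)) :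
    (rotE D)⁻¹ v j = v (j + 1) := rfl

theorem rotE_pow_inv_apply (t : ℕ) (v : Fin (D + 1) → Bool) (j : Fin (D + 1)) :
    ((rotE D) ^ t)⁻¹ v j = v (j + fo D t) := by
  have h : ((rotE D) ^ t) (((rotE D) ^ t)⁻¹ v) = v := by simp
  have h2 := rotE_pow_apply D t (((rotE D) ^ t)⁻¹ v) (j + fo D t)
  rw [h, add_sub_cancel_right] at h2
  exact h2.symm

theorem kp_mem (c : Fin (2 ^ D) → Bool) : kp D c ∈ GG {Fin.last D} := by
  intro v k hk
  rw [Finset.mem_singleton] at hk
  rw [kp, Equiv.Perm.mul_apply, rotE_inv_apply, cj_apply, bits_thorp D c _ k hk,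
    Equiv.apply_symm_apply]

theorem kp_injective : Function.Injective (kp D) := by
  intro c c' h
  have h1 : cj D (thorpPerm (2 ^ D) c) = cj D (thorpPerm (2 ^ D) c') := mul_left_cancel h
  have h2 := (cj D).injective h1
  funext y
  have h3 : thorpPerm (2 ^ D) c ⟨y, by omega⟩ = thorpPerm (2 ^ D) c' ⟨y, by omega⟩ := by rw [h2]
  have h4 := congrArg Fin.val h3
  rw [thorpPerm_apply, thorpPerm_apply, thorpPos_lt c _ y.2, thorpPos_lt c' _ y.2] at h4
  have h5 : (⟨((⟨y, by omega⟩ : Fin (2 * 2 ^ D)) : ℕ), y.2⟩ : Fin (2 ^ D)) = y := rfl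
  rw [h5] at h4
  cases hc : c y <;> cases hc' : c' y <;> simp [hc, hc'] at h4 ⊢

theorem card_GG_last : Fintype.card (GG (d := D + 1) {Fin.last D}) ≤ 2 ^ (2 ^ D) := by
  have hcard : Fintype.card ((Fin D → Bool) → Bool) = 2 ^ (2 ^ D) := by simp
  rw [← hcard]
  apply Fintype.card_le_of_injective
    (fun (π : GG (d := D + 1) {Fin.last D}) (w : Fin D → Bool) =>
      (π : Arr (D + 1)) (Fin.snoc w false : Fin (D + 1) → Bool) (Fin.last D))
  intro π π' h
  have hmem : ∀ (ρ : GG (d := D + 1) {Fin.last D}) (v : Fin (D + 1) → Bool) (k : Fin (D + 1)),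
      k ≠ Fin.last D → (ρ : Arr (D + 1)) v k = v k := fun ρ v k hk =>
    ρ.2 v k (by simpa using hk)
  have hlast0 : ∀ w : Fin D → Bool,
      (π : Arr (D + 1)) (Fin.snoc w false : Fin (D + 1) → Bool) (Fin.last D) =
      (π' : Arr (D + 1)) (Fin.snoc w false : Fin (D + 1) → Bool) (Fin.last D) :=
    fun w => congrFun h w
  apply Subtype.ext
  apply Equiv.ext
  intro v
  funext k
  by_cases hk : k = Fin.last D
  · subst hk
    set v0 : Fin (D + 1) → Bool := Fin.snoc (Fin.init v) false with hv0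
    have hv0k : ∀ k, k ≠ Fin.last D → v0 k = v k := by
      intro k hk
      obtain ⟨j, rfl⟩ := Fin.exists_castSucc_eq.2 hk
      rw [hv0, Fin.snoc_castSucc]
      rfl
    have hv0l : v0 (Fin.last D) = false := by rw [hv0, Fin.snoc_last]
    by_cases hv : v (Fin.last D) = false
    · have hvv : v = v0 := by
        funext k
        by_cases hk : k = Fin.last D
        · rw [hk, hv, hv0l]
        · exact (hv0k k hk).symm
      rw [hvv]
      exact hlast0 _
    · have hv' : v (Fin.last D) = true := by simpa using hv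
      have hne : ∀ ρ : GG (d := D + 1) {Fin.last D},
          (ρ : Arr (D + 1)) v (Fin.last D) ≠ (ρ : Arr (D + 1)) v0 (Fin.last D) := by
        intro ρ heq
        have : (ρ : Arr (D + 1)) v = (ρ : Arr (D + 1)) v0 := by
          funext k
          by_cases hk : k = Fin.last D
          · rw [hk]; exact heq
          · rw [hmem ρ v k hk, hmem ρ v0 k hk, hv0k k hk]
        have h2 := (ρ : Arr (D + 1)).injective this
        rw [h2, hv0l] at hv'
        exact Bool.false_ne_true hv'
      have e1 := hne π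
      have e2 := hne π'
      have e3 := hlast0 (Fin.init v)
      rw [← hv0] at e3
      rw [e3] at e1
      cases h1 : (π : Arr (D + 1)) v (Fin.last D) <;>
        cases h2 : (π' : Arr (D + 1)) v (Fin.last D) <;>
        cases h3 : (π' : Arr (D + 1)) v0 (Fin.last D) <;> simp_all
  · rw [hmem π v k hk, hmem π' v k hk]

theorem kp_bijective : Function.Bijective
    (fun c : Fin (2 ^ D) → Bool => (⟨kp D c, kp_mem D c⟩ : GG (d := D + 1) {Fin.last D})) := by
  have hinj : Function.Injective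
      (fun c : Fin (2 ^ D) → Bool => (⟨kp D c, kp_mem D c⟩ : GG (d := D + 1) {Fin.last D})) :=
    fun c c' h => kp_injective D (congrArg Subtype.val h)
  refine (Fintype.bijective_iff_injective_and_card _).2 ⟨hinj, le_antisymm
    (Fintype.card_le_of_injective _ hinj) ?_⟩
  refine (card_GG_last D).trans (le_of_eq ?_)
  rw [Fintype.card_fun, Fintype.card_bool, Fintype.card_fin]

/-- Conjugation by a power of the rotation moves the direction. -/
def conjGG (t : ℕ) : GG (d := D + 1) {Fin.last D} ≃ GG (d := D + 1) {Fin.last D - fo D t} where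
  toFun π := ⟨((rotE D) ^ t)⁻¹ * π * (rotE D) ^ t, by
    intro v k hk
    rw [Finset.mem_singleton] at hk
    have hk' : k + fo D t ∉ ({Fin.last D} : Finset (Fin (D + 1))) := by
      rw [Finset.mem_singleton]
      intro h
      apply hk
      rw [← h]; abel
    rw [Equiv.Perm.mul_apply, Equiv.Perm.mul_apply, rotE_pow_inv_apply, π.2 _ _ hk',
      rotE_pow_apply]
    congr 1
    abel⟩
  invFun π := ⟨(rotE D) ^ t * π * ((rotE D) ^ t)⁻¹, by
    intro v k hk
    rw [Finset.mem_singleton] at hk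
    have hk' : k - fo D t ∉ ({Fin.last D - fo D t} : Finset (Fin (D + 1))) := by
      rw [Finset.mem_singleton]
      intro h
      apply hk
      exact sub_left_injective h
    rw [Equiv.Perm.mul_apply, Equiv.Perm.mul_apply, rotE_pow_apply, π.2 _ _ hk',
      rotE_pow_inv_apply]
    congr 1
    abel⟩
  left_inv π := by
    apply Subtype.ext
    simp only
    group
  right_inv π := by
    apply Subtype.ext
    simp only
    group

/-- Density of the rotated arrangement after `t` shuffles. -/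
noncomputable def dens (t : ℕ) (σ : Arr (D + 1)) : ℝ :=
  (Fintype.card (Arr (D + 1)) : ℝ) * thorpLawN (2 ^ D) t ((cj D).symm ((rotE D) ^ t * σ))

theorem dens_succ (t : ℕ) : dens D (t + 1) = PP {Fin.last D - fo D t} (dens D t) := by
  funext σ
  have h1 : dens D (t + 1) σ = av (fun c : Fin (2 ^ D) → Bool =>
      dens D t ((((rotE D) ^ t)⁻¹ * (kp D c)⁻¹ * (rotE D) ^ t) * σ)) := by
    unfold dens
    rw [thorpLawN, sum_thorpLaw (fun h => thorpLawN (2 ^ D) t
      (h⁻¹ * (cj D).symm ((rotE D) ^ (t + 1) * σ))), ← av_mul_left]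
    apply av_congr
    intro c
    congr 2
    apply (cj D).injective
    rw [map_mul, map_inv, MulEquiv.apply_symm_apply, MulEquiv.apply_symm_apply]
    have : cj D (thorpPerm (2 ^ D) c) = rotE D * kp D c := by
      rw [kp, mul_inv_cancel_left]
    rw [this, pow_succ']
    group
  rw [h1, PP]
  have h2 := av_equiv (Equiv.ofBijective _ (kp_bijective D))
    (fun π : GG (d := D + 1) {Fin.last D} =>
      dens D t ((((rotE D) ^ t)⁻¹ * (π : Arr (D + 1))⁻¹ * (rotE D) ^ t) * σ))
  have h3 := av_equiv (Equiv.inv (GG (d := D + 1) {Fin.last D}))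
    (fun π : GG (d := D + 1) {Fin.last D} =>
      dens D t ((((rotE D) ^ t)⁻¹ * (π : Arr (D + 1)) * (rotE D) ^ t) * σ))
  have h4 := av_equiv (conjGG D t) (fun π : GG (d := D + 1) {Fin.last D - fo D t} =>
      dens D t ((π : Arr (D + 1)) * σ))
  exact (h2.trans h3).trans h4

theorem dens_pass (s : ℕ) : ∀ k : ℕ, k ≤ D + 1 →
    pass k (dens D (s * (D + 1) + (D + 1 - k))) = dens D ((s + 1) * (D + 1)) := by
  intro k
  induction k with
  | zero =>
    intro _
    rw [pass]
    congr 1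
    rw [Nat.sub_zero, add_mul, one_mul]
  | succ k ih =>
    intro hk
    have hkD : k < D + 1 := by omega
    rw [pass, dif_pos hkD]
    have h1 : s * (D + 1) + (D + 1 - (k + 1)) + 1 = s * (D + 1) + (D + 1 - k) := by omega
    have h2 : PP {⟨k, hkD⟩} (dens D (s * (D + 1) + (D + 1 - (k + 1)))) =
        dens D (s * (D + 1) + (D + 1 - k)) := by
      rw [← h1, dens_succ]
      congr 2
      have h3 : fo D (s * (D + 1) + (D + 1 - (k + 1))) = fo D (D - k) := by
        rw [fo_add, fo_period, zero_add]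
        congr 1
        omega
      have h4 : Fin.last D = fo D k + fo D (D - k) := by
        rw [← fo_add, show k + (D - k) = D by omega, fo_lt D (by omega : D < D + 1)]
        rfl
      rw [h3, h4, add_sub_cancel_right, fo_lt D hkD]
    rw [h2]
    exact ih (by omega)

theorem dens_nonneg (t : ℕ) (σ : Arr (D + 1)) : 0 ≤ dens D t σ :=
  mul_nonneg (Nat.cast_nonneg _) (thorpLawN_nonneg _ _)

/-- The bijection behind the change of variables. -/
noncomputable def chv (t : ℕ) : Arr (D + 1) ≃ Equiv.Perm (Fin (2 * 2 ^ D)) :=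
  (Equiv.mulLeft ((rotE D) ^ t)).trans (cj D).symm.toEquiv

theorem dens_eq (t : ℕ) (σ : Arr (D + 1)) : dens D t σ =
    (Fintype.card (Arr (D + 1)) : ℝ) * thorpLawN (2 ^ D) t (chv D t σ) := rfl

theorem card_Arr : Fintype.card (Arr (D + 1)) = Nat.factorial (2 * 2 ^ D) := by
  rw [Fintype.card_perm, Fintype.card_fun, Fintype.card_bool, Fintype.card_fin, pow_succ']

theorem av_dens (t : ℕ) : av (dens D t) = 1 := by
  have hc : (0 : ℝ) < Fintype.card (Arr (D + 1)) := by exact_mod_cast Fintype.card_pos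
  have h : ∑ σ, dens D t σ = Fintype.card (Arr (D + 1)) := by
    simp only [dens_eq, ← Finset.mul_sum]
    rw [Equiv.sum_comp (chv D t) (fun g => thorpLawN (2 ^ D) t g), sum_thorpLawN, mul_one]
  rw [av, h, div_self hc.ne']

theorem thorpTV_eq (t : ℕ) : thorpTV (2 ^ D) t = (av fun σ => |dens D t σ - 1|) / 2 := by
  have hc : (0 : ℝ) < Fintype.card (Arr (D + 1)) := by exact_mod_cast Fintype.card_pos
  unfold thorpTV av
  rw [← card_Arr]
  congr 1
  rw [← Equiv.sum_comp (chv D t), eq_div_iff hc.ne', Finset.sum_mul]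
  apply Finset.sum_congr rfl
  intro σ _
  change _ = |dens D t σ - 1|
  rw [dens_eq, mul_comm, ← abs_of_pos hc, ← abs_mul, abs_of_pos hc]
  congr 1
  field_simp

theorem Ent_dens_zero : Ent (dens D 0) = Real.log (Nat.factorial (2 * 2 ^ D)) := by
  have hc : (0 : ℝ) < Fintype.card (Arr (D + 1)) := by exact_mod_cast Fintype.card_pos
  have h1 : ∀ σ : Arr (D + 1), dens D 0 σ =
      if σ = 1 then (Fintype.card (Arr (D + 1)) : ℝ) else 0 := by
    intro σ
    rw [dens, pow_zero, one_mul, thorpLawN]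
    by_cases hσ : σ = 1
    · rw [hσ, map_one, if_pos rfl, if_pos rfl, mul_one]
    · rw [if_neg hσ, if_neg, mul_zero]
      intro h
      apply hσ
      rw [← (cj D).apply_symm_apply σ, h, map_one]
  unfold Ent av
  have h2 : ∀ σ : Arr (D + 1), dens D 0 σ * Real.log (dens D 0 σ) =
      if σ = 1 then (Fintype.card (Arr (D + 1)) : ℝ) *
        Real.log (Fintype.card (Arr (D + 1)) : ℝ) else 0 := by
    intro σ
    rw [h1]
    split_ifs <;> simp
  rw [Finset.sum_congr rfl fun σ _ => h2 σ, Finset.sum_ite_eq']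
  simp only [Finset.mem_univ, if_true]
  rw [mul_div_assoc, mul_div_cancel₀ _ hc.ne', card_Arr]

end transfer

/-- Pinsker type inequality through the Hellinger distance. -/
theorem pinsker {d : ℕ} (f : Arr d → ℝ) (h0 : ∀ σ, 0 ≤ f σ) (h1 : av f = 1) :
    av (fun σ => |f σ - 1|) ≤ 2 * √(Ent f) := by
  have key : ∀ y : ℝ, 0 ≤ y → (√y - 1) ^ 2 ≤ y * Real.log y - y + 1 := by
    intro y hy
    rcases hy.eq_or_lt with rfl | hy
    · simp
    have hs : 0 < √y := Real.sqrt_pos.2 hy
    have h2 : 1 - (√y)⁻¹ ≤ Real.log (√y) := Real.one_sub_inv_le_log_of_pos hs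
    have h3 : Real.log y = 2 * Real.log (√y) := by
      rw [Real.log_sqrt hy.le]; ring
    have h4 : √y ^ 2 = y := Real.sq_sqrt hy.le
    rw [h3]
    have h5 : y * (1 - (√y)⁻¹) = y - √y := by
      have : y * (√y)⁻¹ = √y := by
        rw [← div_eq_mul_inv, div_eq_iff hs.ne', ← sq, h4]
      rw [mul_sub, mul_one, this]
    nlinarith [mul_le_mul_of_nonneg_left h2 hy.le]
  have hH : av (fun σ => (√(f σ) - 1) ^ 2) ≤ Ent f := by
    refine (av_mono fun σ => key (f σ) (h0 σ)).trans (le_of_eq ?_)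
    rw [av_add (fun σ => f σ * Real.log (f σ) - f σ) (fun _ => 1),
      av_sub (fun σ => f σ * Real.log (f σ)) f, h1, av_const]
    unfold Ent
    ring
  have hS : av (fun σ => (√(f σ) + 1) ^ 2) ≤ 4 := by
    have : av (fun σ => (√(f σ) + 1) ^ 2) ≤ av (fun σ => 2 * f σ + 2) := by
      apply av_mono
      intro σ
      have := Real.sq_sqrt (h0 σ)
      nlinarith [sq_nonneg (√(f σ) - 1)]
    refine this.trans (le_of_eq ?_)
    rw [av_add (fun σ => 2 * f σ) (fun _ => 2), av_mul_left, h1, av_const]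
    norm_num
  have h3 : ∀ σ, |f σ - 1| = |√(f σ) - 1| * |√(f σ) + 1| := by
    intro σ
    rw [← abs_mul]
    congr 1
    have := Real.sq_sqrt (h0 σ)
    linear_combination -this
  rw [av_congr h3]
  refine (av_mul_le_sqrt _ _).trans ?_
  simp only [sq_abs]
  rw [mul_comm]
  have h4 : √(av fun σ => (√(f σ) + 1) ^ 2) ≤ 2 := by
    rw [show (2 : ℝ) = √4 by rw [show (4 : ℝ) = 2 ^ 2 by norm_num]; exact (Real.sqrt_sq (by norm_num)).symm]
    exact Real.sqrt_le_sqrt hS
  exact mul_le_mul h4 (Real.sqrt_le_sqrt hH) (Real.sqrt_nonneg _) (by norm_num)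

theorem Ent_passes {δ : ℝ} (h1 : δ ≤ 1)
    (hδ : ∀ (d : ℕ) (f : Arr d → ℝ), (∀ σ, 0 ≤ f σ) → av f = 1 →
      Ent (pass d f) ≤ (1 - δ) * Ent f) (D s : ℕ) :
    Ent (dens D (s * (D + 1))) ≤ (1 - δ) ^ s * Real.log (Nat.factorial (2 * 2 ^ D)) := by
  induction s with
  | zero => rw [zero_mul, pow_zero, one_mul, Ent_dens_zero]
  | succ s ih =>
    have h2 := dens_pass D s (D + 1) le_rfl
    rw [Nat.sub_self, add_zero] at h2
    rw [← h2]
    refine (hδ (D + 1) _ (dens_nonneg D _) (av_dens D _)).trans ?_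
    rw [pow_succ', mul_assoc]
    exact mul_le_mul_of_nonneg_left ih (by linarith)

theorem thorp_main_of (h : ∃ δ : ℝ, 0 < δ ∧ δ ≤ 1 ∧ ∀ (d : ℕ) (f : Arr d → ℝ),
    (∀ σ, 0 ≤ f σ) → av f = 1 → Ent (pass d f) ≤ (1 - δ) * Ent f) :
    ∃ C : ℝ, 0 < C ∧ ∀ d : ℕ, 1 ≤ d → ∀ t : ℕ, C * (d : ℝ) ^ 2 ≤ t →
      thorpTV (2 ^ (d - 1)) t ≤ 1 / 4 := by
  obtain ⟨δ, h0, h1, hδ⟩ := h
  refine ⟨6 / δ + 1, by positivity, fun d hd t ht => ?_⟩
  obtain ⟨D, rfl⟩ : ∃ D, d = D + 1 := ⟨d - 1, by omega⟩
  rw [Nat.add_sub_cancel]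
  set s := t / (D + 1) with hs
  have hst : s * (D + 1) ≤ t := Nat.div_mul_le_self _ _
  refine (thorpTV_antitone hst).trans ?_
  have hd0 : (0 : ℝ) < (D + 1 : ℕ) := by positivity
  have hd1 : (1 : ℝ) ≤ (D + 1 : ℕ) := by exact_mod_cast hd
  -- lower bound for `s`
  have hslow : 6 * ((D + 1 : ℕ) : ℝ) / δ ≤ s := by
    have h2 : t < (s + 1) * (D + 1) := by
      rw [hs, mul_comm]
      exact Nat.lt_mul_div_succ t (by omega)
    have h3 : (t : ℝ) < (s + 1) * (D + 1 : ℕ) := by exact_mod_cast h2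
    have h4 : (6 / δ + 1) * ((D + 1 : ℕ) : ℝ) < s + 1 := by
      have h5 : (6 / δ + 1) * ((D + 1 : ℕ) : ℝ) * (D + 1 : ℕ) < (s + 1) * (D + 1 : ℕ) := by
        calc _ = (6 / δ + 1) * ((D + 1 : ℕ) : ℝ) ^ 2 := by ring
          _ ≤ t := ht
          _ < _ := h3
      exact lt_of_mul_lt_mul_right h5 hd0.le
    have h6 : 6 * ((D + 1 : ℕ) : ℝ) / δ = 6 / δ * ((D + 1 : ℕ) : ℝ) := by ring
    rw [h6]
    nlinarith
  have hE : Ent (dens D (s * (D + 1))) ≤ 1 / 16 := by
    refine (Ent_passes h1 hδ D s).trans ?_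
    have hlog : Real.log (Nat.factorial (2 * 2 ^ D)) ≤ 2 ^ (2 * (D + 1)) := by
      have hf : (Nat.factorial (2 * 2 ^ D) : ℝ) ≤ ((2 : ℝ) ^ (D + 1)) ^ (2 ^ (D + 1)) := by
        have := Nat.factorial_le_pow (2 ^ (D + 1))
        rw [show 2 * 2 ^ D = 2 ^ (D + 1) by rw [pow_succ']]
        exact_mod_cast this
      have hpos : (0 : ℝ) < Nat.factorial (2 * 2 ^ D) := by
        exact_mod_cast Nat.factorial_pos _
      refine (Real.log_le_log hpos hf).trans ?_
      rw [Real.log_pow, Real.log_pow]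
      have hl2 : Real.log 2 ≤ 1 := by
        have := Real.log_le_sub_one_of_pos (show (0 : ℝ) < 2 by norm_num)
        linarith
      have hD : ((D + 1 : ℕ) : ℝ) ≤ 2 ^ (D + 1) := by
        exact_mod_cast (Nat.lt_two_pow_self (n := D + 1)).le
      have hl0 : 0 ≤ Real.log 2 := Real.log_nonneg (by norm_num)
      calc (((2 : ℕ) ^ (D + 1) : ℕ) : ℝ) * (((D + 1 : ℕ) : ℝ) * Real.log 2) ≤
          2 ^ (D + 1) * (2 ^ (D + 1) * 1) := by
            push_cast
            gcongr
            push_cast at hD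
            exact hD
        _ = 2 ^ (2 * (D + 1)) := by ring
    have hexp : (1 - δ) ^ s ≤ Real.exp (-(6 * ((D + 1 : ℕ) : ℝ))) := by
      calc (1 - δ) ^ s ≤ (Real.exp (-δ)) ^ s := by
            apply pow_le_pow_left₀ (by linarith)
            have := Real.add_one_le_exp (-δ)
            linarith
        _ = Real.exp (-(δ * s)) := by rw [← Real.exp_nat_mul]; ring_nf
        _ ≤ _ := by
            apply Real.exp_le_exp.2
            rw [div_le_iff₀ h0] at hslow
            linarith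
    have h2e : (2 : ℝ) ≤ Real.exp 1 := by
      have := Real.add_one_le_exp (1 : ℝ)
      linarith
    have hexp2 : Real.exp (-(6 * ((D + 1 : ℕ) : ℝ))) ≤ ((2 : ℝ) ^ (6 * (D + 1)))⁻¹ := by
      rw [Real.exp_neg]
      apply inv_anti₀ (by positivity)
      calc (2 : ℝ) ^ (6 * (D + 1)) ≤ (Real.exp 1) ^ (6 * (D + 1)) := by gcongr
        _ = _ := by rw [← Real.exp_nat_mul]; push_cast; ring_nf
    calc (1 - δ) ^ s * Real.log (Nat.factorial (2 * 2 ^ D)) ≤
        ((2 : ℝ) ^ (6 * (D + 1)))⁻¹ * 2 ^ (2 * (D + 1)) := by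
          apply mul_le_mul (hexp.trans hexp2) hlog
          · apply Real.log_nonneg
            exact_mod_cast Nat.factorial_pos _
          · positivity
      _ = ((2 : ℝ) ^ (4 * (D + 1)))⁻¹ := by
          rw [show 6 * (D + 1) = 4 * (D + 1) + 2 * (D + 1) by ring, pow_add]
          field_simp
      _ ≤ ((2 : ℝ) ^ 4)⁻¹ := by
          apply inv_anti₀ (by positivity)
          exact pow_le_pow_right₀ (by norm_num) (by omega)
      _ = 1 / 16 := by norm_num
  rw [thorpTV_eq]
  have hP := pinsker (dens D (s * (D + 1))) (dens_nonneg D _) (av_dens D _)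
  have hsq : √(Ent (dens D (s * (D + 1)))) ≤ 1 / 4 := by
    rw [show (1 / 4 : ℝ) = √(1 / 16) by
      rw [show (1 / 16 : ℝ) = (1 / 4) ^ 2 by norm_num]; exact (Real.sqrt_sq (by norm_num)).symm]
    exact Real.sqrt_le_sqrt hE
  linarith

end Vale.Agent.P162
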