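import Vale.Agent.Lib.P162.Slice
import Vale.Agent.Lib.P162.TFBlock
import Vale.Agent.Lib.P162.Hyper
import Vale.Agent.Lib.P162.Thorp
import Vale.Agent.Lib.P162.EntPass

/-!
# P162: final assembly
-/

open Finset

namespace Vale.Agent.P162

theorem hc_large : ∃ J : ℕ, 3 ≤ J ∧ ∀ j : ℕ, J ≤ j → HC (2 ^ (j - 1)) (1 / (j : ℝ) ^ 2) :=
  hc_large_of
    (fun hM _ _ h _ h0 h1 _ hj u w hu hw => bilinear hM h h0 h1 hj u w hu hw)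
    (fun hM _ _ h _ _ hu hv => joint_le hM h hu hv)

theorem tf_seq : ∃ c : ℕ → ℝ, (∀ j, 0 < c j) ∧ (∀ j, c j < 1) ∧ Summable c ∧
    ∀ j, 1 ≤ j → BlockTF (2 ^ (j - 1)) (c j) :=
  tf_seq_of (fun M hM => gap M hM) hc_large

/-- One pass of the butterfly network (`d` shuffles) contracts the relative entropy by an absolute
factor. -/
theorem ent_pass : ∃ δ : ℝ, 0 < δ ∧ δ ≤ 1 ∧ ∀ (d : ℕ) (f : Arr d → ℝ), (∀ σ, 0 ≤ f σ) → av f = 1 →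
    Ent (pass d f) ≤ (1 - δ) * Ent f := by
  obtain ⟨c, h0, h1, hs, hB⟩ := tf_seq
  obtain ⟨δ, hδ0, hδ⟩ := prod_lower h0 h1 hs
  exact ent_pass_of_seq h0 h1 hB hδ0 hδ

theorem thorp_main : ∃ C : ℝ, 0 < C ∧ ∀ d : ℕ, 1 ≤ d → ∀ t : ℕ, C * (d : ℝ) ^ 2 ≤ t →
    thorpTV (2 ^ (d - 1)) t ≤ 1 / 4 := thorp_main_of ent_pass

end Vale.Agent.P162
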