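import Vale.Agent.Lib.P162.Basic

open Finset

namespace Vale.Agent.P162

variable {d : ℕ}

/-- invariance of a function under left multiplication by `GG Δ`. -/
def Inv (Δ : Finset (Fin d)) (f : Arr d → ℝ) : Prop := ∀ h ∈ GG Δ, ∀ σ, f (h * σ) = f σ

theorem GG_mono {Δ Δ' : Finset (Fin d)} (h : Δ ⊆ Δ') : GG Δ ≤ GG Δ' :=
  fun _ hπ v k hk => hπ v k fun hk' => hk (h hk')

theorem Inv.mono {Δ Δ' : Finset (Fin d)} (h : Δ ⊆ Δ') {f : Arr d → ℝ} (hf : Inv Δ' f) : Inv Δ f :=
  fun π hπ σ => hf π (GG_mono h hπ) σ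

instance (Δ : Finset (Fin d)) : Nonempty (GG Δ) := ⟨1⟩

theorem PP_inv (Δ : Finset (Fin d)) (f : Arr d → ℝ) : Inv Δ (PP Δ f) := by
  intro h hh σ
  unfold PP
  have := av_equiv (Equiv.mulRight (⟨h, hh⟩ : GG Δ)) (fun g : GG Δ => f ((g : Arr d) * σ))
  rw [← this]
  apply av_congr
  intro g
  simp [mul_assoc]

theorem PP_of_inv {Δ : Finset (Fin d)} {f : Arr d → ℝ} (hf : Inv Δ f) (σ : Arr d) :
    PP Δ f σ = f σ := by
  unfold PP
  have h1 : ∀ h : GG Δ, f ((h : Arr d) * σ) = f σ := fun h => hf (h : Arr d) (SetLike.coe_mem h) σ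
  rw [av_congr h1, av_const]

theorem PP_mul {Δ : Finset (Fin d)} {φ : Arr d → ℝ} (hφ : Inv Δ φ) (f : Arr d → ℝ) (σ : Arr d) :
    PP Δ (fun σ => φ σ * f σ) σ = φ σ * PP Δ f σ := by
  unfold PP
  rw [← av_mul_left]
  exact av_congr fun h => by
    show φ ((h : Arr d) * σ) * f ((h : Arr d) * σ) = φ σ * f ((h : Arr d) * σ)
    rw [hφ (h : Arr d) h.2 σ]

theorem av_mul_left_perm (h : Arr d) (f : Arr d → ℝ) : av (fun σ => f (h * σ)) = av f :=
  av_equiv (Equiv.mulLeft h) f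

theorem av_PP (Δ : Finset (Fin d)) (f : Arr d → ℝ) : av (PP Δ f) = av f := by
  unfold PP
  rw [av_comm (fun (σ : Arr d) (h : GG Δ) => f ((h : Arr d) * σ))]
  rw [av_congr (g := fun _ : GG Δ => av f) fun h => av_mul_left_perm (h : Arr d) f, av_const]

theorem av_mul_PP {Δ : Finset (Fin d)} {φ : Arr d → ℝ} (hφ : Inv Δ φ) (f : Arr d → ℝ) :
    av (fun σ => φ σ * PP Δ f σ) = av fun σ => φ σ * f σ := by
  rw [← av_PP Δ (fun σ => φ σ * f σ)]
  exact av_congr fun σ => (PP_mul hφ f σ).symm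

theorem PP_PP_of_subset {Δ Δ' : Finset (Fin d)} (h : Δ ⊆ Δ') (f : Arr d → ℝ) (σ : Arr d) :
    PP Δ' (PP Δ f) σ = PP Δ' f σ := by
  unfold PP
  rw [av_comm (fun (g : GG Δ') (k : GG Δ) => f ((k : Arr d) * ((g : Arr d) * σ)))]
  rw [av_congr (g := fun _ : GG Δ => av fun g : GG Δ' => f ((g : Arr d) * σ)), av_const]
  intro k
  have := av_equiv (Equiv.mulLeft (⟨k, GG_mono h k.2⟩ : GG Δ')) (fun g : GG Δ' => f ((g : Arr d) * σ))
  rw [← this]
  exact av_congr fun g => by simp [mul_assoc]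

theorem PP_nonneg {Δ : Finset (Fin d)} {f : Arr d → ℝ} (hf : ∀ σ, 0 ≤ f σ) (σ : Arr d) :
    0 ≤ PP Δ f σ := av_nonneg fun _ => hf _

theorem av_pos {Ω : Type*} [Fintype Ω] [Nonempty Ω] {f : Ω → ℝ} (hf : ∀ ω, 0 < f ω) :
    0 < av f := by
  unfold av
  exact div_pos (Finset.sum_pos (fun ω _ => hf ω) Finset.univ_nonempty)
    (by exact_mod_cast Fintype.card_pos)

theorem PP_pos {Δ : Finset (Fin d)} {f : Arr d → ℝ} (hf : ∀ σ, 0 < f σ) (σ : Arr d) :
    0 < PP Δ f σ := av_pos fun _ => hf _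

theorem PP_empty (f : Arr d → ℝ) (σ : Arr d) : PP ∅ f σ = f σ := by
  apply PP_of_inv
  intro h hh σ
  have : h = 1 := by
    ext v k
    rw [hh v k (Finset.notMem_empty k)]
    rfl
  rw [this, one_mul]

theorem PP_univ (f : Arr d → ℝ) (σ : Arr d) : PP univ f σ = av f := by
  have hinv : Inv univ (PP univ f) := PP_inv _ _
  have : ∀ τ, PP univ f τ = PP univ f σ := by
    intro τ
    have := hinv (τ * σ⁻¹) (fun v k hk => absurd (mem_univ k) hk) σ
    rw [inv_mul_cancel_right] at this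
    exact this
  rw [← av_PP univ f, av_congr this, av_const]

theorem PP_const (Δ : Finset (Fin d)) (c : ℝ) (σ : Arr d) : PP Δ (fun _ => c) σ = c :=
  PP_of_inv (fun _ _ _ => rfl) σ

theorem PP_add (Δ : Finset (Fin d)) (f g : Arr d → ℝ) (σ : Arr d) :
    PP Δ (fun σ => f σ + g σ) σ = PP Δ f σ + PP Δ g σ := av_add _ _

theorem PP_smul (Δ : Finset (Fin d)) (c : ℝ) (f : Arr d → ℝ) (σ : Arr d) :
    PP Δ (fun σ => c * f σ) σ = c * PP Δ f σ := av_mul_left _ _

/-- `Ent (P f) = av (f log P f)`. -/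
theorem Ent_PP {Δ : Finset (Fin d)} (f : Arr d → ℝ) :
    Ent (PP Δ f) = av fun σ => f σ * Real.log (PP Δ f σ) := by
  unfold Ent
  have h : Inv Δ (fun σ => Real.log (PP Δ f σ)) := fun h hh σ => by
    show Real.log (PP Δ f (h * σ)) = Real.log (PP Δ f σ)
    rw [PP_inv Δ f h hh σ]
  have := av_mul_PP h f
  rw [av_congr (g := fun σ => Real.log (PP Δ f σ) * PP Δ f σ) fun σ => mul_comm _ _, this]
  exact av_congr fun σ => mul_comm _ _

/-- entropy decreases under averaging over a larger group. -/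
theorem Ent_mono {Δ Δ' : Finset (Fin d)} (h : Δ ⊆ Δ') {f : Arr d → ℝ} (hf : ∀ σ, 0 < f σ) :
    Ent (PP Δ' f) ≤ Ent (PP Δ f) := by
  rw [Ent_PP, Ent_PP, ← sub_nonpos, ← av_sub]
  have h1 : ∀ σ, f σ * Real.log (PP Δ' f σ) - f σ * Real.log (PP Δ f σ) ≤
      f σ * (PP Δ' f σ / PP Δ f σ) - f σ := by
    intro σ
    have a := PP_pos (Δ := Δ) hf σ
    have b := PP_pos (Δ := Δ') hf σ
    rw [← mul_sub, ← Real.log_div b.ne' a.ne']
    have := Real.log_le_sub_one_of_pos (div_pos b a)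
    nlinarith [hf σ]
  refine (av_mono h1).trans ?_
  rw [av_sub]
  have h2 : Inv Δ (fun σ => PP Δ' f σ / PP Δ f σ) := fun k hk σ => by
    show PP Δ' f (k * σ) / PP Δ f (k * σ) = PP Δ' f σ / PP Δ f σ
    rw [PP_inv Δ f k hk σ, (PP_inv Δ' f).mono h k hk σ]
  have h3 := av_mul_PP h2 f
  rw [av_congr (g := fun σ => (PP Δ' f σ / PP Δ f σ) * f σ) fun σ => mul_comm _ _, ← h3,
    av_congr (g := fun σ => PP Δ' f σ) fun σ => div_mul_cancel₀ _ (PP_pos (Δ := Δ) hf σ).ne', av_PP,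
    sub_self]

theorem kap_mem {i l : Fin d} (hil : i ≠ l) : kap i l hil ∈ GG {l} := by
  intro v k hk
  have hk' : k ≠ l := fun h => hk (by simp [h])
  show (if v i then Function.update v l (!v l) else v) k = v k
  split_ifs
  · rw [Function.update_of_ne hk']
  · rfl

/-- conjugation by `kap` preserves `GG Δ` if `i, l ∉ Δ`. -/
theorem kap_conj {i l : Fin d} (hil : i ≠ l) {Δ : Finset (Fin d)} (hi : i ∉ Δ) (hl : l ∉ Δ)
    {h : Arr d} (hh : h ∈ GG Δ) : kap i l hil * h * (kap i l hil)⁻¹ ∈ GG Δ := by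
  intro v k hk
  have hinv : (kap i l hil)⁻¹ v = if v i then Function.update v l (!v l) else v := rfl
  rw [Equiv.Perm.mul_apply, Equiv.Perm.mul_apply, hinv]
  set u := if v i then Function.update v l (!v l) else v with hu
  have hui : u i = v i := by
    rw [hu]; split_ifs
    · rw [Function.update_of_ne hil]
    · rfl
  have hwi : h u i = v i := by rw [hh u i hi, hui]
  have hwl : h u l = u l := hh u l hl
  show (if (h u) i then Function.update (h u) l (!(h u) l) else (h u)) k = v k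
  rw [hwi]
  by_cases hv : v i = true
  · rw [if_pos hv]
    have hu' : u = Function.update v l (!v l) := by rw [hu, if_pos hv]
    by_cases hkl : k = l
    · subst hkl
      rw [Function.update_self, hwl, hu', Function.update_self, Bool.not_not]
    · rw [Function.update_of_ne hkl, hh u k hk, hu', Function.update_of_ne hkl]
  · rw [if_neg hv]
    have hu' : u = v := by rw [hu, if_neg hv]
    rw [hh u k hk, hu']

/-- The statement of the module GROUP. -/
def TFGroup {i l : Fin d} (hil : i < l) (c : ℝ) : Prop :=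
  ∀ s b s'' : Arr d → ℝ, (∀ σ, 0 ≤ s σ) → (∀ σ, 0 ≤ b σ) → (∀ σ, 0 ≤ s'' σ) →
    (∀ h ∈ GG (Finset.Ico i l), ∀ σ, s (h * σ) = s σ) →
    (∀ h ∈ GG (Finset.Ioc i l), ∀ σ, b (h * σ) = b σ) →
    (∀ h ∈ GG (Finset.Ico i l), ∀ σ, s'' (h * σ) = s'' σ) → ∀ σ : Arr d,
    PP (Finset.Icc i l) (fun σ => b σ * s σ * s'' (kap i l hil.ne * σ)) σ ≤
      (PP (Finset.Icc i l) (fun σ => b σ ^ (1 / (1 - c))) σ) ^ (1 - c) *
      √(PP (Finset.Icc i l) (fun σ => s σ ^ 2) σ) *
      √(PP (Finset.Icc i l) (fun σ => s'' (kap i l hil.ne * σ) ^ 2) σ)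

/-- (I1) -/
theorem I1 {i l : Fin d} (hil : i < l) {c : ℝ} (h0 : 0 < c) (h1 : c < 1) (hTF : TFGroup hil c)
    {g : Arr d → ℝ} (hg : ∀ σ, 0 < g σ) (hk : ∀ σ, g (kap i l hil.ne * σ) = g σ) :
    (1 - c) * (Ent (PP (Finset.Ioc i l) g) - Ent (PP (Finset.Icc i l) g)) ≤
      Ent (PP (Finset.Ioo i l) g) - Ent (PP (Finset.Ico i l) g) := by
  set a := PP (Finset.Ico i l) g with ha
  set b := PP (Finset.Ioc i l) g with hb
  set z := PP (Finset.Icc i l) g with hz
  set g0 := PP (Finset.Ioo i l) g with hg0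
  have ap : ∀ σ, 0 < a σ := PP_pos hg
  have bp : ∀ σ, 0 < b σ := PP_pos hg
  have zp : ∀ σ, 0 < z σ := PP_pos hg
  have g0p : ∀ σ, 0 < g0 σ := PP_pos hg
  have hc : 0 < 1 - c := by linarith
  let κ := kap i l hil.ne
  have sub1 : Finset.Ioo i l ⊆ Finset.Ico i l := Finset.Ioo_subset_Ico_self
  have sub2 : Finset.Ioo i l ⊆ Finset.Ioc i l := Finset.Ioo_subset_Ioc_self
  have sub3 : Finset.Ico i l ⊆ Finset.Icc i l := Finset.Ico_subset_Icc_self
  have sub4 : Finset.Ioc i l ⊆ Finset.Icc i l := Finset.Ioc_subset_Icc_self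
  have sub5 : Finset.Ioo i l ⊆ Finset.Icc i l := Finset.Ioo_subset_Icc_self
  have κmem : κ ∈ GG (Finset.Icc i l) :=
    GG_mono (by intro k hk; rw [Finset.mem_singleton] at hk; subst hk
                exact Finset.mem_Icc.2 ⟨hil.le, le_rfl⟩) (kap_mem hil.ne)
  -- entropies
  have e1 : Ent a = av fun σ => g σ * Real.log (a σ) := Ent_PP g
  have e2 : Ent b = av fun σ => g σ * Real.log (b σ) := Ent_PP g
  have e3 : Ent z = av fun σ => g σ * Real.log (z σ) := Ent_PP g
  have e4 : Ent g0 = av fun σ => g σ * Real.log (g0 σ) := Ent_PP g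
  have e1' : Ent a = av fun σ => g σ * Real.log (a (κ * σ)) := by
    rw [e1, ← av_mul_left_perm κ (fun σ => g σ * Real.log (a σ))]
    exact av_congr fun σ => by rw [hk σ]
  -- the function `X`
  set X : Arr d → ℝ := fun σ => √(a σ) * √(a (κ * σ)) * b σ ^ (1 - c) / (g0 σ * z σ ^ (1 - c)) with hX
  have Xp : ∀ σ, 0 < X σ := fun σ => by
    have := ap σ; have := ap (κ * σ); have := bp σ; have := zp σ; have := g0p σ
    simp only [hX]
    positivity
  have logX : ∀ σ, Real.log (X σ) = (1 / 2) * Real.log (a σ) + (1 / 2) * Real.log (a (κ * σ)) +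
      (1 - c) * Real.log (b σ) - (Real.log (g0 σ) + (1 - c) * Real.log (z σ)) := by
    intro σ
    have h1 := ap σ; have h2 := ap (κ * σ); have h3 := bp σ; have h4 := zp σ; have h5 := g0p σ
    have h6 : √(a σ) ≠ 0 := (Real.sqrt_pos.2 h1).ne'
    have h7 : √(a (κ * σ)) ≠ 0 := (Real.sqrt_pos.2 h2).ne'
    have h8 : b σ ^ (1 - c) ≠ 0 := (Real.rpow_pos_of_pos h3 _).ne'
    have h9 : z σ ^ (1 - c) ≠ 0 := (Real.rpow_pos_of_pos h4 _).ne'
    simp only [hX]
    rw [Real.log_div (mul_ne_zero (mul_ne_zero h6 h7) h8) (mul_ne_zero h5.ne' h9),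
      Real.log_mul (mul_ne_zero h6 h7) h8, Real.log_mul h6 h7, Real.log_mul h5.ne' h9,
      Real.log_rpow h3, Real.log_rpow h4, Real.log_sqrt h1.le, Real.log_sqrt h2.le]
    ring
  have key : av (fun σ => g σ * Real.log (X σ)) ≤ 0 := by
    have h1 : ∀ σ, g σ * Real.log (X σ) ≤ X σ * g σ - g σ := fun σ => by
      have := Real.log_le_sub_one_of_pos (Xp σ)
      nlinarith [hg σ]
    refine (av_mono h1).trans ?_
    rw [av_sub]
    -- `X` is `GG Ioo` invariant
    have ia : Inv (Finset.Ioo i l) a := (PP_inv _ g).mono sub1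
    have ib : Inv (Finset.Ioo i l) b := (PP_inv _ g).mono sub2
    have iz : Inv (Finset.Ioo i l) z := (PP_inv _ g).mono sub5
    have ig : Inv (Finset.Ioo i l) g0 := PP_inv _ g
    have ia' : Inv (Finset.Ioo i l) fun σ => a (κ * σ) := by
      intro h hh σ
      have hconj := kap_conj hil.ne (Δ := Finset.Ioo i l) (by simp) (by simp) hh
      have := ia _ hconj (κ * σ)
      show a (κ * (h * σ)) = a (κ * σ)
      rw [← this]
      congr 1
      show κ * (h * σ) = κ * h * κ⁻¹ * (κ * σ)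
      group
    have iX : Inv (Finset.Ioo i l) X := by
      intro h hh σ
      simp only [hX]
      have t := ia' h hh σ
      simp only at t
      rw [ia h hh σ, t, ib h hh σ, iz h hh σ, ig h hh σ]
    rw [← av_mul_PP iX g]
    have h2 : av (fun σ => X σ * g0 σ) ≤ av z := by
      have h3 : ∀ σ, X σ * g0 σ = (z σ ^ (1 - c))⁻¹ *
          (b σ ^ (1 - c) * √(a σ) * √(a (κ * σ))) := fun σ => by
        simp only [hX]
        have := (g0p σ).ne'
        have := (Real.rpow_pos_of_pos (zp σ) (1 - c)).ne'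
        field_simp
      have iz' : Inv (Finset.Icc i l) fun σ => (z σ ^ (1 - c))⁻¹ := fun h hh σ => by
        show (z (h * σ) ^ (1 - c))⁻¹ = (z σ ^ (1 - c))⁻¹
        rw [hz, PP_inv _ g h hh σ]
      rw [av_congr h3, ← av_mul_PP iz']
      apply av_mono
      intro σ
      have tf := hTF (fun σ => √(a σ)) (fun σ => b σ ^ (1 - c)) (fun σ => √(a σ))
        (fun σ => Real.sqrt_nonneg _) (fun σ => Real.rpow_nonneg (bp σ).le _)
        (fun σ => Real.sqrt_nonneg _)
        (fun h hh σ => by rw [ha, PP_inv _ g h hh σ])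
        (fun h hh σ => by rw [hb, PP_inv _ g h hh σ])
        (fun h hh σ => by rw [ha, PP_inv _ g h hh σ]) σ
      have q1 : PP (Finset.Icc i l) (fun σ => (b σ ^ (1 - c)) ^ (1 / (1 - c))) σ = z σ := by
        have : (fun σ => (b σ ^ (1 - c)) ^ (1 / (1 - c))) = b := by
          funext τ
          rw [← Real.rpow_mul (bp τ).le, mul_one_div_cancel hc.ne', Real.rpow_one]
        rw [this, hb, PP_PP_of_subset sub4]
      have q2 : PP (Finset.Icc i l) (fun σ => √(a σ) ^ 2) σ = z σ := by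
        have : (fun σ => √(a σ) ^ 2) = a := by
          funext τ
          rw [Real.sq_sqrt (ap τ).le]
        rw [this, ha, PP_PP_of_subset sub3]
      have q3 : PP (Finset.Icc i l) (fun σ => √(a (κ * σ)) ^ 2) σ = z σ := by
        have : (fun σ => √(a (κ * σ)) ^ 2) = fun σ => a (κ * σ) := by
          funext τ
          rw [Real.sq_sqrt (ap (κ * τ)).le]
        rw [this]
        have t1 : PP (Finset.Icc i l) (fun σ => a (κ * σ)) σ = PP (Finset.Icc i l) a σ := by
          unfold PP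
          have := av_equiv (Equiv.mulLeft (⟨κ, κmem⟩ : GG (Finset.Icc i l)))
            (fun h : GG (Finset.Icc i l) => a ((h : Arr d) * σ))
          rw [← this]
          exact av_congr fun h => by simp [mul_assoc]
        rw [t1, ha, PP_PP_of_subset sub3]
      rw [q1, q2] at tf
      have q3' : PP (Finset.Icc i l) (fun σ => √(a (kap i l hil.ne * σ)) ^ 2) σ = z σ := q3
      rw [q3', mul_assoc, Real.mul_self_sqrt (zp σ).le] at tf
      have zc := Real.rpow_pos_of_pos (zp σ) (1 - c)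
      calc (z σ ^ (1 - c))⁻¹ * PP (Finset.Icc i l)
            (fun σ => b σ ^ (1 - c) * √(a σ) * √(a (κ * σ))) σ
          ≤ (z σ ^ (1 - c))⁻¹ * (z σ ^ (1 - c) * z σ) :=
            mul_le_mul_of_nonneg_left tf (inv_nonneg.2 zc.le)
        _ = z σ := by rw [← mul_assoc, inv_mul_cancel₀ zc.ne', one_mul]
    rw [hz, av_PP] at h2
    linarith
  -- expand the logarithm
  have expand : av (fun σ => g σ * Real.log (X σ)) =
      (1 / 2) * Ent a + (1 / 2) * Ent a + (1 - c) * Ent b - (Ent g0 + (1 - c) * Ent z) := by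
    nth_rewrite 1 [e1]
    nth_rewrite 1 [e1']
    rw [e2, e3, e4, ← av_mul_left, ← av_mul_left, ← av_mul_left, ← av_mul_left, ← av_add, ← av_add,
      ← av_add, ← av_sub]
    exact av_congr fun σ => by rw [logX σ]; ring
  rw [expand] at key
  linarith

/-- positions `i ≤ k < l` -/
def SS (d i l : ℕ) : Finset (Fin d) := univ.filter fun k => i ≤ (k : ℕ) ∧ (k : ℕ) < l

/-- information on bit `i` -/
noncomputable def WW (i l : ℕ) (f : Arr d → ℝ) : ℝ :=
  Ent (PP (SS d (i + 1) l) f) - Ent (PP (SS d i l) f)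

theorem SS_mono {i i' l l' : ℕ} (hi : i' ≤ i) (hl : l ≤ l') : SS d i l ⊆ SS d i' l' := by
  intro k hk
  simp only [SS, mem_filter, mem_univ, true_and] at hk ⊢
  omega

theorem WW_nonneg (i l : ℕ) {f : Arr d → ℝ} (hf : ∀ σ, 0 < f σ) : 0 ≤ WW i l f :=
  sub_nonneg.2 (Ent_mono (SS_mono (Nat.le_succ i) le_rfl) hf)

theorem WW_step {c : ℕ → ℝ} (h0 : ∀ j, 0 < c j) (h1 : ∀ j, c j < 1)
    (hTF : ∀ (i l : Fin d) (hil : i < l), TFGroup hil (c ((l : ℕ) - i)))
    {i l : ℕ} (hil : i < l) (hl : l < d) {f : Arr d → ℝ} (hf : ∀ σ, 0 < f σ) :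
    (1 - c (l - i)) * WW i (l + 1) f ≤ WW i l (PP {⟨l, hl⟩} f) := by
  have hi : i < d := hil.trans hl
  set I : Fin d := ⟨i, hi⟩
  set L : Fin d := ⟨l, hl⟩
  have hIL : I < L := hil
  have s1 : SS d (i + 1) (l + 1) = Finset.Ioc I L := by
    ext k; simp [SS, Finset.mem_Ioc, I, L, Fin.lt_def, Fin.le_def]
  have s2 : SS d i (l + 1) = Finset.Icc I L := by
    ext k; simp [SS, Finset.mem_Icc, I, L, Fin.le_def]
  have s3 : SS d (i + 1) l = Finset.Ioo I L := by
    ext k; simp [SS, Finset.mem_Ioo, I, L, Fin.lt_def]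
  have s4 : SS d i l = Finset.Ico I L := by
    ext k; simp [SS, Finset.mem_Ico, I, L, Fin.lt_def, Fin.le_def]
  have sub1 : ({L} : Finset (Fin d)) ⊆ Finset.Ioc I L := by
    intro k hk; rw [Finset.mem_singleton] at hk; subst hk; exact Finset.mem_Ioc.2 ⟨hIL, le_rfl⟩
  have sub2 : ({L} : Finset (Fin d)) ⊆ Finset.Icc I L := sub1.trans Finset.Ioc_subset_Icc_self
  have key := I1 hIL (h0 (l - i)) (h1 (l - i)) (hTF I L hIL) (g := PP {L} f) (PP_pos hf)
    (fun σ => PP_inv _ f _ (kap_mem hIL.ne) σ)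
  have e1 : PP (Finset.Ioc I L) (PP {L} f) = PP (Finset.Ioc I L) f :=
    funext fun σ => PP_PP_of_subset sub1 f σ
  have e2 : PP (Finset.Icc I L) (PP {L} f) = PP (Finset.Icc I L) f :=
    funext fun σ => PP_PP_of_subset sub2 f σ
  rw [e1, e2] at key
  unfold WW
  rw [s1, s2, s3, s4]
  exact key

theorem pass_succ {k : ℕ} (hk : k < d) (f : Arr d → ℝ) : pass (k + 1) f = pass k (PP {⟨k, hk⟩} f) := by
  simp only [pass, hk, dif_pos]

theorem pass_bound {c : ℕ → ℝ} (h0 : ∀ j, 0 < c j) (h1 : ∀ j, c j < 1)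
    (hTF : ∀ (i l : Fin d) (hil : i < l), TFGroup hil (c ((l : ℕ) - i))) :
    ∀ l : ℕ, l ≤ d → ∀ f : Arr d → ℝ, (∀ σ, 0 < f σ) →
      ∑ i ∈ range l, (∏ j ∈ range (l - 1 - i), (1 - c (j + 1))) * WW i l f ≤
        Ent f - Ent (pass l f) := by
  intro l
  induction l with
  | zero => intro _ f _; simp [pass]
  | succ l ih =>
    intro hl f hf
    have hl' : l < d := hl
    rw [pass_succ hl', Finset.sum_range_succ]
    have h2 := ih hl'.le (PP {⟨l, hl'⟩} f) (PP_pos hf)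
    have h3 : WW l (l + 1) f = Ent f - Ent (PP {⟨l, hl'⟩} f) := by
      have s1 : SS d (l + 1) (l + 1) = ∅ := by
        ext k; simp [SS]
      have s2 : SS d l (l + 1) = {⟨l, hl'⟩} := by
        ext k; simp [SS, Fin.ext_iff]; omega
      unfold WW
      rw [s1, s2, show PP ∅ f = f from funext (PP_empty f)]
    have h4 : ∑ i ∈ range l, (∏ j ∈ range (l + 1 - 1 - i), (1 - c (j + 1))) * WW i (l + 1) f ≤
        ∑ i ∈ range l, (∏ j ∈ range (l - 1 - i), (1 - c (j + 1))) * WW i l (PP {⟨l, hl'⟩} f) := by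
      apply Finset.sum_le_sum
      intro i hi
      have hi' : i < l := Finset.mem_range.1 hi
      have e : l + 1 - 1 - i = (l - 1 - i) + 1 := by omega
      rw [e, Finset.prod_range_succ, mul_assoc]
      apply mul_le_mul_of_nonneg_left _ (Finset.prod_nonneg fun j _ => by linarith [h1 (j + 1)])
      have := WW_step h0 h1 hTF hi' hl' hf
      rwa [show l - 1 - i + 1 = l - i by omega]
    have h5 : l + 1 - 1 - l = 0 := by omega
    rw [h5, Finset.prod_range_zero, one_mul, h3]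
    linarith

theorem sum_WW (l : ℕ) (f : Arr d → ℝ) :
    ∑ i ∈ range l, WW i l f = Ent (PP (SS d l l) f) - Ent (PP (SS d 0 l) f) := by
  unfold WW
  exact Finset.sum_range_sub (fun i => Ent (PP (SS d i l) f)) l

theorem ent_pass_pos {c : ℕ → ℝ} (h0 : ∀ j, 0 < c j) (h1 : ∀ j, c j < 1)
    (hTF : ∀ (i l : Fin d) (hil : i < l), TFGroup hil (c ((l : ℕ) - i))) {δ : ℝ}
    (hδ : ∀ s : Finset ℕ, δ ≤ ∏ j ∈ s, (1 - c j)) (f : Arr d → ℝ) (hf : ∀ σ, 0 < f σ)
    (hf1 : av f = 1) : Ent (pass d f) ≤ (1 - δ) * Ent f := by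
  have h2 := pass_bound h0 h1 hTF d le_rfl f hf
  have h3 : δ * ∑ i ∈ range d, WW i d f ≤
      ∑ i ∈ range d, (∏ j ∈ range (d - 1 - i), (1 - c (j + 1))) * WW i d f := by
    rw [Finset.mul_sum]
    apply Finset.sum_le_sum
    intro i _
    apply mul_le_mul_of_nonneg_right _ (WW_nonneg i d hf)
    have := hδ ((range (d - 1 - i)).map ⟨Nat.succ, Nat.succ_injective⟩)
    rw [Finset.prod_map] at this
    exact this
  rw [sum_WW] at h3
  have s1 : SS d d d = ∅ := by ext k; simp [SS]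
  have s2 : SS d 0 d = univ := by ext k; simp [SS]
  have e1 : Ent (PP univ f) = 0 := by
    rw [show PP univ f = fun _ => (1 : ℝ) from funext fun σ => by rw [PP_univ, hf1]]
    simp [Ent, av_zero]
  rw [s1, s2, show PP ∅ f = f from funext (PP_empty f), e1] at h3
  linarith

theorem pass_affine (a b : ℝ) : ∀ (k : ℕ) (f : Arr d → ℝ),
    pass k (fun σ => a * f σ + b) = fun σ => a * pass k f σ + b
  | 0, f => rfl
  | (k + 1), f => by
    by_cases hk : k < d
    · rw [pass_succ hk, pass_succ hk, ← pass_affine a b k]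
      congr 1
      funext σ
      rw [PP_add _ (fun σ => a * f σ) (fun _ => b), PP_smul, PP_const]
    · simp only [pass, hk, dif_neg, not_false_eq_true]
      exact pass_affine a b k f

theorem continuous_Ent_affine (F : Arr d → ℝ) :
    Continuous fun ε : ℝ => Ent fun σ => (1 - ε) * F σ + ε := by
  unfold Ent av
  apply Continuous.div_const
  apply continuous_finsetSum
  intro σ _
  exact Real.continuous_mul_log.comp (by fun_prop : Continuous fun ε : ℝ => (1 - ε) * F σ + ε)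

theorem ent_pass_of {c : ℕ → ℝ} (h0 : ∀ j, 0 < c j) (h1 : ∀ j, c j < 1)
    (hTF : ∀ (i l : Fin d) (hil : i < l), TFGroup hil (c ((l : ℕ) - i))) {δ : ℝ}
    (hδ : ∀ s : Finset ℕ, δ ≤ ∏ j ∈ s, (1 - c j)) (f : Arr d → ℝ) (hf : ∀ σ, 0 ≤ f σ)
    (hf1 : av f = 1) : Ent (pass d f) ≤ (1 - δ) * Ent f := by
  have key : ∀ ε ∈ Set.Ioo (0 : ℝ) 1, (Ent fun σ => (1 - ε) * pass d f σ + ε) ≤
      (1 - δ) * Ent fun σ => (1 - ε) * f σ + ε := by
    intro ε hε
    have hpos : ∀ σ, 0 < (1 - ε) * f σ + ε := fun σ => by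
      have := mul_nonneg (sub_nonneg.2 hε.2.le) (hf σ)
      linarith [hε.1]
    have hav : av (fun σ => (1 - ε) * f σ + ε) = 1 := by
      rw [av_add (fun σ => (1 - ε) * f σ) (fun _ => ε), av_mul_left, av_const, hf1]; ring
    have := ent_pass_pos h0 h1 hTF hδ _ hpos hav
    rwa [pass_affine] at this
  have c1 := (continuous_Ent_affine (pass d f)).tendsto 0
  have c2 := ((continuous_Ent_affine f).const_mul (1 - δ)).tendsto 0
  simp only [sub_zero, one_mul, add_zero] at c1 c2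
  have c1' := c1.mono_left (nhdsWithin_le_nhds (s := Set.Ioi (0 : ℝ)))
  have c2' := c2.mono_left (nhdsWithin_le_nhds (s := Set.Ioi (0 : ℝ)))
  refine le_of_tendsto_of_tendsto c1' c2' ?_
  have : Set.Ioo (0 : ℝ) 1 ∈ nhdsWithin (0 : ℝ) (Set.Ioi 0) := Ioo_mem_nhdsGT one_pos
  filter_upwards [this] with ε hε
  exact key ε hε

end Vale.Agent.P162
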