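import Vale.Agent.Lib.P162.Count
import Vale.Agent.Lib.P162.Bonami

open Finset

namespace Vale.Agent.P162

/-- `e M k = E_{balanced} χ_T` for `|T| = k`. -/
noncomputable def eco (M : ℕ) : ℕ → ℝ
  | 0 => 1
  | 1 => 0
  | (k + 2) => -((k + 1 : ℝ) / (4 * M - (k + 1))) * eco M k

namespace SliceAux

/-! ### characters -/

theorem sg_sq (b : Bool) : sg b * sg b = 1 := by cases b <;> simp [sg]

theorem sg_xor (a b : Bool) : sg (xor a b) = sg a * sg b := by cases a <;> cases b <;> simp [sg]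

theorem chi_xor {n : ℕ} (T x y : Fin n → Bool) :
    chi T (fun i => xor (x i) (y i)) = chi T x * chi T y := by
  unfold chi
  rw [← Finset.prod_mul_distrib]
  refine Finset.prod_congr rfl fun i _ => ?_
  by_cases h : T i = true
  · simp [h, sg_xor]
  · simp [h]

theorem chi_sq {n : ℕ} (T x : Fin n → Bool) : chi T x * chi T x = 1 := by
  unfold chi
  rw [← Finset.prod_mul_distrib]
  refine Finset.prod_eq_one fun i _ => ?_
  by_cases h : T i = true
  · simp [h, sg_sq]
  · simp [h]

theorem abs_chi {n : ℕ} (T x : Fin n → Bool) : |chi T x| = 1 := by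
  have h := chi_sq T x
  have h2 : |chi T x| * |chi T x| = 1 := by rw [← abs_mul, h, abs_one]
  nlinarith [abs_nonneg (chi T x)]

theorem sum_chi {n : ℕ} (z : Fin n → Bool) :
    ∑ T : Fin n → Bool, chi T z = if z = (fun _ => false) then (2 : ℝ) ^ n else 0 := by
  have h1 : ∑ T : Fin n → Bool, chi T z = ∏ i : Fin n, (1 + sg (z i)) := by
    have h := Finset.prod_univ_sum (fun _ : Fin n => (Finset.univ : Finset Bool))
      (fun i b => if b then sg (z i) else 1)
    simp only [Fintype.univ_bool] at h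
    unfold chi
    have h2 : (Fintype.piFinset fun _ : Fin n => ({true, false} : Finset Bool)) = Finset.univ := by
      ext x; simp
    rw [h2] at h
    rw [← h]
    refine Finset.prod_congr rfl fun i _ => ?_
    simp [add_comm]
  rw [h1]
  split_ifs with hz
  · subst hz
    simp [sg]
    norm_num
  · obtain ⟨i, hi⟩ : ∃ i, z i = true := by
      by_contra hcon
      push Not at hcon
      exact hz (funext fun i => by simpa using hcon i)
    refine Finset.prod_eq_zero (Finset.mem_univ i) ?_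
    simp [sg, hi]

theorem sum_chi_mul {n : ℕ} (x y : Fin n → Bool) :
    ∑ T : Fin n → Bool, chi T x * chi T y = if x = y then (2 : ℝ) ^ n else 0 := by
  have h : ∀ T : Fin n → Bool, chi T x * chi T y = chi T (fun i => xor (x i) (y i)) := fun T =>
    (chi_xor T x y).symm
  rw [Finset.sum_congr rfl fun T _ => h T, sum_chi]
  have h2 : ((fun i => xor (x i) (y i)) = (fun _ => false)) ↔ x = y := by
    constructor
    · intro h
      funext i
      have := congrFun h i
      simpa using this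
    · intro h
      subst h
      simp
  simp only [h2]

/-- flipping the membership of `i` multiplies the character by `sg (x i)`. -/
theorem chi_update_true {n : ℕ} (S x : Fin n → Bool) (i : Fin n) (hi : S i = false) :
    chi (Function.update S i true) x = chi S x * sg (x i) := by
  unfold chi
  rw [← Finset.mul_prod_erase _ _ (Finset.mem_univ i),
    ← Finset.mul_prod_erase (Finset.univ) (fun j => if S j then sg (x j) else 1) (Finset.mem_univ i)]
  rw [Finset.prod_congr rfl (g := fun j => if S j then sg (x j) else 1)]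
  · simp [hi]
    ring
  · intro j hj
    rw [Function.update_of_ne (Finset.ne_of_mem_erase hj)]

theorem chi_update_false {n : ℕ} (S x : Fin n → Bool) (i : Fin n) (hi : S i = true) :
    chi (Function.update S i false) x = chi S x * sg (x i) := by
  have h := chi_update_true (Function.update S i false) x i (by simp)
  rw [Function.update_idem] at h
  have h2 : Function.update S i true = S := by
    rw [← hi]; exact Function.update_eq_self i S
  rw [h2] at h
  rw [h, mul_assoc, sg_sq, mul_one]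

theorem chi_comp_perm {n : ℕ} (T x : Fin n → Bool) (ρ : Equiv.Perm (Fin n)) :
    chi (T ∘ ρ) (x ∘ ρ) = chi T x := by
  unfold chi
  exact Equiv.prod_comp ρ (fun i => if T i then sg (x i) else 1)

theorem deg_update_true {n : ℕ} (S : Fin n → Bool) (i : Fin n) (hi : S i = false) :
    deg (Function.update S i true) = deg S + 1 := by
  unfold deg
  have : (univ.filter fun j => Function.update S i true j = true) =
      insert i (univ.filter fun j => S j = true) := by
    ext j
    by_cases hj : j = i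
    · subst hj; simp
    · simp [hj]
  rw [this, Finset.card_insert_of_notMem]
  simp [hi]

theorem deg_update_false {n : ℕ} (S : Fin n → Bool) (i : Fin n) (hi : S i = true) :
    deg (Function.update S i false) + 1 = deg S := by
  have h := deg_update_true (Function.update S i false) i (by simp)
  rw [Function.update_idem] at h
  have h2 : Function.update S i true = S := by
    rw [← hi]; exact Function.update_eq_self i S
  rw [h2] at h
  exact h.symm

theorem deg_comp_perm {n : ℕ} (T : Fin n → Bool) (ρ : Equiv.Perm (Fin n)) :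
    deg (T ∘ ρ) = deg T := by
  unfold deg
  rw [← Fintype.card_subtype, ← Fintype.card_subtype]
  exact Fintype.card_congr (ρ.subtypeEquiv fun a => by simp)

/-! ### averages of characters over a balanced bit function -/

section

variable {M : ℕ} {p q : Fin (4 * M) → Bool}

theorem cells_card_true (h : Cells M p q) : (univ.filter fun i => p i = true).card = 2 * M := by
  have h1 := h true true
  have h2 := h true false
  have : (univ.filter fun i => p i = true) =
      (univ.filter fun i => p i = true ∧ q i = true) ∪ (univ.filter fun i => p i = true ∧ q i = false) := by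
    ext i; cases hq : q i <;> simp [hq]
  rw [this, Finset.card_union_of_disjoint, h1, h2]
  · ring
  · rw [Finset.disjoint_filter]
    intro i _ h3 h4
    simp [h3.2] at h4

theorem cells_card_false (h : Cells M p q) : (univ.filter fun i => p i = false).card = 2 * M := by
  have h1 := h false true
  have h2 := h false false
  have : (univ.filter fun i => p i = false) =
      (univ.filter fun i => p i = false ∧ q i = true) ∪
        (univ.filter fun i => p i = false ∧ q i = false) := by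
    ext i; cases hq : q i <;> simp [hq]
  rw [this, Finset.card_union_of_disjoint, h1, h2]
  · ring
  · rw [Finset.disjoint_filter]
    intro i _ h3 h4
    simp [h3.2] at h4

theorem cells_sum_sg (h : Cells M p q) : ∑ i, sg (p i) = 0 := by
  have h1 := (cells_card_true h)
  have h2 := (cells_card_false h)
  have h3 : ∀ i, sg (p i) = (if p i = false then 1 else 0) - (if p i = true then 1 else 0) := by
    intro i; cases p i <;> simp [sg]
  rw [Finset.sum_congr rfl fun i _ => h3 i, Finset.sum_sub_distrib, Finset.sum_boole,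
    Finset.sum_boole, h1, h2, sub_self]

theorem av_chi_comp (T : Fin (4 * M) → Bool) (ρ : Equiv.Perm (Fin (4 * M))) :
    av (fun π : Equiv.Perm (Fin (4 * M)) => chi (T ∘ ρ) (p ∘ π)) =
      av (fun π : Equiv.Perm (Fin (4 * M)) => chi T (p ∘ π)) := by
  have h := av_equiv (Equiv.mulRight ρ) (fun π : Equiv.Perm (Fin (4 * M)) => chi (T ∘ ρ) (p ∘ π))
  rw [← h]
  refine av_congr fun π => ?_
  have : p ∘ ((Equiv.mulRight ρ) π) = (p ∘ π) ∘ ρ := by
    funext i; simp
  rw [this, chi_comp_perm]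

theorem av_chi_step (h : Cells M p q) (S : Fin (4 * M) → Bool) :
    ∑ i, av (fun π : Equiv.Perm (Fin (4 * M)) => chi S (p ∘ π) * sg (p (π i))) = 0 := by
  rw [← av_sum]
  have : ∀ π : Equiv.Perm (Fin (4 * M)), ∑ i, chi S (p ∘ π) * sg (p (π i)) = 0 := by
    intro π
    rw [← Finset.mul_sum, Equiv.sum_comp π (fun i => sg (p i)), (cells_sum_sg h), mul_zero]
  rw [av_congr this, av_zero]

theorem av_chi (h : Cells M p q) (T : Fin (4 * M) → Bool) :
    av (fun π : Equiv.Perm (Fin (4 * M)) => chi T (p ∘ π)) = eco M (deg T) := by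
  have key : ∀ k, ∀ T : Fin (4 * M) → Bool, deg T = k →
      av (fun π : Equiv.Perm (Fin (4 * M)) => chi T (p ∘ π)) = eco M k := by
    intro k
    induction k using Nat.strong_induction_on with
    | _ k ih =>
      intro T hT
      rcases Nat.eq_zero_or_pos k with hk | hk
      · subst hk
        have hT0 : ∀ i, T i = false := by
          intro i
          unfold deg at hT
          rw [Finset.card_eq_zero, Finset.filter_eq_empty_iff] at hT
          simpa using hT (Finset.mem_univ i)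
        have : ∀ π : Equiv.Perm (Fin (4 * M)), chi T (p ∘ π) = 1 := by
          intro π; unfold chi; simp [hT0]
        rw [av_congr this, av_const]
        rfl
      · obtain ⟨i0, hi0⟩ : ∃ i, T i = true := by
          by_contra hcon
          push Not at hcon
          have : deg T = 0 := by
            unfold deg
            rw [Finset.card_eq_zero, Finset.filter_eq_empty_iff]
            intro i _
            simpa using hcon i
          omega
        set S := Function.update T i0 false with hS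
        have hSi0 : S i0 = false := by simp [hS]
        have hdS : deg S + 1 = k := by rw [← hT]; exact deg_update_false T i0 hi0
        have hST : Function.update S i0 true = T := by
          rw [hS, Function.update_idem, ← hi0]; exact Function.update_eq_self i0 T
        have h0 := av_chi_step h S
        have hterm1 : ∀ i, S i = false →
            av (fun π : Equiv.Perm (Fin (4 * M)) => chi S (p ∘ π) * sg (p (π i))) =
            av (fun π : Equiv.Perm (Fin (4 * M)) => chi T (p ∘ π)) := by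
          intro i hi
          have e1 : ∀ π : Equiv.Perm (Fin (4 * M)), chi S (p ∘ π) * sg (p (π i)) =
              chi (Function.update S i true) (p ∘ π) := by
            intro π
            rw [chi_update_true S (p ∘ π) i hi]; rfl
          rw [av_congr e1]
          have e2 : Function.update S i true = T ∘ (Equiv.swap i i0) := by
            funext j
            rw [Function.comp_apply]
            by_cases hj : j = i
            · subst hj; rw [Equiv.swap_apply_left]; simp [hi0]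
            · by_cases hj0 : j = i0
              · subst hj0
                rw [Equiv.swap_apply_right, Function.update_of_ne hj, hSi0]
                rw [← hST, Function.update_of_ne (Ne.symm hj), hi]
              · rw [Equiv.swap_apply_of_ne_of_ne hj hj0, Function.update_of_ne hj, ← hST,
                  Function.update_of_ne hj0]
          rw [e2, av_chi_comp]
        have hterm2 : ∀ i, S i = true →
            av (fun π : Equiv.Perm (Fin (4 * M)) => chi S (p ∘ π) * sg (p (π i))) = eco M (k - 2) := by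
          intro i hi
          have e1 : ∀ π : Equiv.Perm (Fin (4 * M)), chi S (p ∘ π) * sg (p (π i)) =
              chi (Function.update S i false) (p ∘ π) := by
            intro π
            rw [chi_update_false S (p ∘ π) i hi]; rfl
          rw [av_congr e1]
          have hd := deg_update_false S i hi
          exact ih (k - 2) (by omega) _ (by omega)
        have hsplit := Finset.sum_filter_add_sum_filter_not (Finset.univ : Finset (Fin (4 * M)))
          (fun i => S i = true)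
          (fun i => av (fun π : Equiv.Perm (Fin (4 * M)) => chi S (p ∘ π) * sg (p (π i))))
        rw [h0] at hsplit
        rw [Finset.sum_congr rfl (g := fun _ => eco M (k - 2)) (s₁ := Finset.univ.filter fun i => S i = true),
          Finset.sum_congr rfl (g := fun _ => av (fun π : Equiv.Perm (Fin (4 * M)) => chi T (p ∘ π)))
            (s₁ := Finset.univ.filter fun i => ¬ S i = true)] at hsplit
        · rw [Finset.sum_const, Finset.sum_const, nsmul_eq_mul, nsmul_eq_mul] at hsplit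
          have hc1 : (Finset.univ.filter fun i => S i = true).card = k - 1 := by
            have : deg S = k - 1 := by omega
            exact this
          have hc2 : (Finset.univ.filter fun i => ¬ S i = true).card = 4 * M - (k - 1) := by
            have := Finset.card_filter_add_card_filter_not (s := (Finset.univ : Finset (Fin (4 * M))))
              (fun i => S i = true)
            rw [hc1, Finset.card_univ, Fintype.card_fin] at this
            omega
          have hpos : 0 < (Finset.univ.filter fun i => ¬ S i = true).card := by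
            rw [Finset.card_pos]
            exact ⟨i0, by simp [hSi0]⟩
          rw [hc1, hc2] at hsplit
          rw [hc2] at hpos
          obtain ⟨m, rfl⟩ : ∃ m, k = m + 1 := ⟨k - 1, by omega⟩
          have hcast : ((4 * M - (m + 1 - 1) : ℕ) : ℝ) = 4 * M - m := by
            rw [Nat.add_sub_cancel, Nat.cast_sub (by omega)]
            push_cast; ring
          rw [hcast] at hsplit
          have hpos' : (0 : ℝ) < 4 * M - m := by
            have : ((4 * M - (m + 1 - 1) : ℕ) : ℝ) > 0 := by exact_mod_cast hpos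
            rw [hcast] at this; exact this
          rw [Nat.add_sub_cancel] at hsplit
          rcases Nat.eq_zero_or_pos m with hm | hm
          · subst hm
            simp only [Nat.cast_zero, zero_mul, zero_add] at hsplit
            have : av (fun π : Equiv.Perm (Fin (4 * M)) => chi T (p ∘ π)) = 0 := by
              rcases mul_eq_zero.mp hsplit with h | h
              · linarith
              · exact h
            rw [this]
            rfl
          · obtain ⟨r, rfl⟩ : ∃ r, m = r + 1 := ⟨m - 1, by omega⟩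
            have e3 : eco M (r + 1 + 1) = -((r + 1 : ℝ) / (4 * M - (r + 1))) * eco M r := rfl
            rw [e3]
            have e4 : r + 1 + 1 - 2 = r := by omega
            rw [e4] at hsplit
            push_cast at hsplit hpos'
            have hne : (4 * (M : ℝ) - (r + 1)) ≠ 0 := by linarith
            have e5 : av (fun π : Equiv.Perm (Fin (4 * M)) => chi T (p ∘ π)) =
                -((r + 1) * eco M r) / (4 * M - (r + 1)) := by
              rw [eq_div_iff hne]
              linarith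
            rw [e5]
            field_simp
        · intro i hi
          exact hterm1 i (by simpa using hi)
        · intro i hi
          exact hterm2 i (by simpa using hi)
  exact key _ T rfl

end

/-! ### the slice formula -/

section

variable {M : ℕ} {p q : Fin (4 * M) → Bool}

theorem BB_card_pos (M : ℕ) : (0 : ℝ) < (BB M).card := by
  rw [card_BB]
  exact_mod_cast Nat.choose_pos (by omega)

theorem DD_card_pos (M : ℕ) : (0 : ℝ) < (DD M).card := by
  rw [card_DD]
  exact_mod_cast Nat.mul_pos (Nat.choose_pos (by omega)) (pow_pos (Nat.choose_pos (by omega)) 2)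

/-- Fourier expansion of the indicator of the slice. -/
theorem ind_BB (h : Cells M p q) (z : Fin (4 * M) → Bool) :
    (if z ∈ BB M then (1 : ℝ) else 0) =
      ((BB M).card / 2 ^ (4 * M)) * ∑ T : Fin (4 * M) → Bool, eco M (deg T) * chi T z := by
  have h1 : ∀ T : Fin (4 * M) → Bool, eco M (deg T) = (∑ x ∈ BB M, chi T x) / (BB M).card := by
    intro T
    rw [← av_chi h T, av_perm_left h (fun x => chi T x)]
  have hb := BB_card_pos M
  have h2 : ∑ T : Fin (4 * M) → Bool, eco M (deg T) * chi T z =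
      (∑ x ∈ BB M, ∑ T : Fin (4 * M) → Bool, chi T x * chi T z) / (BB M).card := by
    rw [Finset.sum_comm, Finset.sum_div]
    refine Finset.sum_congr rfl fun T _ => ?_
    rw [h1 T, div_mul_eq_mul_div, Finset.sum_mul]
  rw [h2]
  simp only [sum_chi_mul]
  rw [Finset.sum_ite_eq' (BB M) z]
  have h4 : (2 : ℝ) ^ (4 * M) ≠ 0 := by positivity
  split_ifs
  · field_simp
  · simp

theorem slice_raw (h : Cells M p q) (u w : (Fin (4 * M) → Bool) → ℝ) :
    av (fun π : Equiv.Perm (Fin (4 * M)) => u (p ∘ π) * w (q ∘ π)) =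
      ((BB M).card ^ 3 / ((DD M).card * 2 ^ (4 * M)) : ℝ) *
      ∑ T : Fin (4 * M) → Bool, eco M (deg T) *
        (av fun π : Equiv.Perm (Fin (4 * M)) => u (p ∘ π) * chi T (p ∘ π)) *
        (av fun π : Equiv.Perm (Fin (4 * M)) => w (q ∘ π) * chi T (q ∘ π)) := by
  have hb := BB_card_pos M
  have hd := DD_card_pos M
  have h4 : (2 : ℝ) ^ (4 * M) ≠ 0 := by positivity
  rw [av_perm_pair h (fun x y => u x * w y)]
  have hu : ∀ T : Fin (4 * M) → Bool,
      (av fun π : Equiv.Perm (Fin (4 * M)) => u (p ∘ π) * chi T (p ∘ π)) =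
      (∑ x ∈ BB M, u x * chi T x) / (BB M).card := fun T =>
    av_perm_left h (fun x => u x * chi T x)
  have hw : ∀ T : Fin (4 * M) → Bool,
      (av fun π : Equiv.Perm (Fin (4 * M)) => w (q ∘ π) * chi T (q ∘ π)) =
      (∑ x ∈ BB M, w x * chi T x) / (BB M).card := fun T =>
    av_perm_left h.swap (fun x => w x * chi T x)
  simp only [hu, hw]
  have h5 : ∑ z ∈ DD M, u z.1 * w z.2 = ∑ x ∈ BB M, ∑ y ∈ BB M,
      u x * w y * (if (fun i => xor (x i) (y i)) ∈ BB M then (1 : ℝ) else 0) := by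
    have e : DD M = ((BB M) ×ˢ (BB M)).filter
        (fun z => (fun i => xor (z.1 i) (z.2 i)) ∈ BB M) := by
      ext ⟨x, y⟩
      rw [mem_DD]
      simp [and_assoc]
    rw [e, Finset.sum_filter, Finset.sum_product]
    refine Finset.sum_congr rfl fun x _ => Finset.sum_congr rfl fun y _ => ?_
    simp
  rw [h5]
  simp only [ind_BB h, chi_xor]
  have h6 : ∀ x y : Fin (4 * M) → Bool, u x * w y * (((BB M).card / 2 ^ (4 * M) : ℝ) *
      ∑ T : Fin (4 * M) → Bool, eco M (deg T) * (chi T x * chi T y)) =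
      ∑ T : Fin (4 * M) → Bool, ((BB M).card / 2 ^ (4 * M) : ℝ) * (eco M (deg T) *
        ((u x * chi T x) * (w y * chi T y))) := by
    intro x y
    rw [Finset.mul_sum, Finset.mul_sum]
    refine Finset.sum_congr rfl fun T _ => ?_
    ring
  have h7 : ∑ x ∈ BB M, ∑ y ∈ BB M, u x * w y * (((BB M).card / 2 ^ (4 * M) : ℝ) *
      ∑ T : Fin (4 * M) → Bool, eco M (deg T) * (chi T x * chi T y)) =
      ∑ T : Fin (4 * M) → Bool, ((BB M).card / 2 ^ (4 * M) : ℝ) * (eco M (deg T) *
        ((∑ x ∈ BB M, u x * chi T x) * (∑ y ∈ BB M, w y * chi T y))) := by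
    simp only [h6]
    rw [Finset.sum_congr rfl fun x _ => Finset.sum_comm, Finset.sum_comm]
    refine Finset.sum_congr rfl fun T _ => ?_
    rw [Finset.sum_mul_sum, Finset.mul_sum, Finset.mul_sum]
    refine Finset.sum_congr rfl fun x _ => ?_
    rw [Finset.mul_sum, Finset.mul_sum]
  rw [h7, Finset.sum_div, Finset.mul_sum]
  refine Finset.sum_congr rfl fun T _ => ?_
  field_simp

/-- the slice formula; `κ₀³/π₀ = (C(4M,2M)/4^(2M))² / (C(2M,M)/4^M)²`. -/
theorem slice_formula (_hM : 1 ≤ M) (h : Cells M p q)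
    (u w : (Fin (4 * M) → Bool) → ℝ) :
    av (fun π : Equiv.Perm (Fin (4 * M)) => u (p ∘ π) * w (q ∘ π)) =
      (((4 * M).choose (2 * M) / 4 ^ (2 * M) : ℝ) / ((2 * M).choose M / 4 ^ M)) ^ 2 *
      ∑ T : Fin (4 * M) → Bool, eco M (deg T) *
        (av fun π : Equiv.Perm (Fin (4 * M)) => u (p ∘ π) * chi T (p ∘ π)) *
        (av fun π : Equiv.Perm (Fin (4 * M)) => w (q ∘ π) * chi T (q ∘ π)) := by
  rw [slice_raw h u w]
  congr 1
  rw [card_DD, card_BB]
  have h1 : ((4 * M).choose (2 * M) : ℝ) ≠ 0 := by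
    exact_mod_cast (Nat.choose_pos (by omega : 2 * M ≤ 4 * M)).ne'
  have h2 : ((2 * M).choose M : ℝ) ≠ 0 := by
    exact_mod_cast (Nat.choose_pos (by omega : M ≤ 2 * M)).ne'
  have h3 : (2 : ℝ) ^ (4 * M) = (4 ^ M) ^ 2 := by
    rw [← pow_mul, show (4 : ℝ) = 2 ^ 2 by norm_num, ← pow_mul]
    congr 1; ring
  have h4 : (4 : ℝ) ^ (2 * M) = (4 ^ M) ^ 2 := by
    rw [← pow_mul]; congr 1; ring
  push_cast
  rw [h3, h4]
  field_simp

end

/-! ### bounds for `eco` -/

theorem eco_even_succ (M j : ℕ) :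
    eco M (2 * (j + 1)) = -((2 * j + 1 : ℝ) / (4 * M - (2 * j + 1))) * eco M (2 * j) := by
  have h : 2 * (j + 1) = 2 * j + 2 := by ring
  rw [h]
  show -((((2 * j : ℕ) : ℝ) + 1) / (4 * M - (((2 * j : ℕ) : ℝ) + 1))) * eco M (2 * j) = _
  push_cast
  ring

theorem eco_odd (M j : ℕ) : eco M (2 * j + 1) = 0 := by
  induction j with
  | zero => rfl
  | succ j ih =>
    have h : 2 * (j + 1) + 1 = (2 * j + 1) + 2 := by ring
    rw [h]
    show -(_ / _) * eco M (2 * j + 1) = 0
    rw [ih, mul_zero]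

theorem abs_eco_even_succ {M j : ℕ} (hj : j + 1 ≤ M) :
    |eco M (2 * (j + 1))| = (2 * j + 1 : ℝ) / (4 * M - (2 * j + 1)) * |eco M (2 * j)| := by
  have h1 : (j : ℝ) + 1 ≤ M := by exact_mod_cast hj
  have h0 : (0 : ℝ) ≤ j := Nat.cast_nonneg j
  rw [eco_even_succ, abs_mul, abs_neg, abs_of_nonneg]
  apply div_nonneg <;> linarith

theorem abs_eco_le_one {M : ℕ} : ∀ {j : ℕ}, j ≤ M → |eco M (2 * j)| ≤ 1 := by
  intro j
  induction j with
  | zero => intro _; simp [eco]
  | succ j ih =>
    intro hj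
    rw [abs_eco_even_succ hj]
    have h1 : (j : ℝ) + 1 ≤ M := by exact_mod_cast hj
    have h0 : (0 : ℝ) ≤ j := Nat.cast_nonneg j
    have h2 : (2 * j + 1 : ℝ) / (4 * M - (2 * j + 1)) ≤ 1 := by
      rw [div_le_one (by linarith)]; linarith
    have h3 : (0 : ℝ) ≤ (2 * j + 1 : ℝ) / (4 * M - (2 * j + 1)) := by
      apply div_nonneg <;> linarith
    calc _ ≤ (1 : ℝ) * 1 := mul_le_mul h2 (ih (by omega)) (abs_nonneg _) zero_le_one
      _ = 1 := one_mul 1

theorem abs_eco_le {M : ℕ} {j : ℕ} (h1j : 1 ≤ j) (hj : j ≤ M) :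
    |eco M (2 * j)| ≤ 1 / (4 * M - 1) := by
  induction j, h1j using Nat.le_induction with
  | base =>
    have h := abs_eco_even_succ (M := M) (j := 0) (by omega)
    simp only [Nat.cast_zero, mul_zero, zero_add] at h
    rw [h]
    simp [eco]
  | succ j h1j ih =>
    rw [abs_eco_even_succ hj]
    have h1 : (j : ℝ) + 1 ≤ M := by exact_mod_cast hj
    have h0 : (1 : ℝ) ≤ j := by exact_mod_cast h1j
    have h2 : (2 * j + 1 : ℝ) / (4 * M - (2 * j + 1)) ≤ 1 := by
      rw [div_le_one (by linarith)]; linarith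
    calc _ ≤ (1 : ℝ) * |eco M (2 * j)| := mul_le_mul_of_nonneg_right h2 (abs_nonneg _)
      _ = |eco M (2 * j)| := one_mul _
      _ ≤ _ := ih (by omega)

theorem eco_ratio_le {M j j₀ : ℕ} {τ : ℝ} (hj : j + 1 ≤ M) (hjj : j + 1 ≤ j₀)
    (hj₀ : (j₀ : ℝ) ≤ M * τ ^ 2) :
    (2 * j + 1 : ℝ) / (4 * M - (2 * j + 1)) ≤ τ ^ 2 := by
  have h1 : (j : ℝ) + 1 ≤ M := by exact_mod_cast hj
  have h0 : (0 : ℝ) ≤ j := Nat.cast_nonneg j
  have h2 : (j : ℝ) + 1 ≤ j₀ := by exact_mod_cast hjj
  have h3 : 0 ≤ τ ^ 2 := sq_nonneg τ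
  rw [div_le_iff₀ (by linarith)]
  nlinarith [mul_nonneg h3 (by linarith : (0 : ℝ) ≤ 2 * M - (2 * j + 1))]

theorem abs_eco_le_pow1 {M j j₀ : ℕ} {τ : ℝ} (h1j : 1 ≤ j) (hj : j ≤ M) (hjj : j ≤ j₀)
    (hj₀ : (j₀ : ℝ) ≤ M * τ ^ 2) :
    |eco M (2 * j)| ≤ (τ ^ 2) ^ (j - 1) * (1 / (4 * M - 1)) := by
  induction j, h1j using Nat.le_induction with
  | base =>
    simpa using abs_eco_le (le_refl 1) hj
  | succ j h1j ih =>
    rw [abs_eco_even_succ hj]
    have h := ih (by omega) (by omega)
    have hr := eco_ratio_le hj hjj hj₀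
    have e : j + 1 - 1 = (j - 1) + 1 := by omega
    rw [e, pow_succ]
    calc _ ≤ τ ^ 2 * |eco M (2 * j)| := mul_le_mul_of_nonneg_right hr (abs_nonneg _)
      _ ≤ τ ^ 2 * ((τ ^ 2) ^ (j - 1) * (1 / (4 * M - 1))) :=
        mul_le_mul_of_nonneg_left h (sq_nonneg τ)
      _ = _ := by ring

theorem abs_eco_le_pow2 {M j j₀ : ℕ} {τ : ℝ} (hj : j ≤ M)
    (hj₀ : (j₀ : ℝ) ≤ M * τ ^ 2) :
    |eco M (2 * j)| ≤ (τ ^ 2) ^ (min j j₀) := by
  induction j with
  | zero => simp [eco]
  | succ j ih =>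
    rw [abs_eco_even_succ hj]
    have h := ih (by omega)
    by_cases hjj : j + 1 ≤ j₀
    · have hr := eco_ratio_le hj hjj hj₀
      have e : min (j + 1) j₀ = min j j₀ + 1 := by omega
      rw [e, pow_succ]
      calc _ ≤ τ ^ 2 * |eco M (2 * j)| := mul_le_mul_of_nonneg_right hr (abs_nonneg _)
        _ ≤ τ ^ 2 * ((τ ^ 2) ^ (min j j₀)) := mul_le_mul_of_nonneg_left h (sq_nonneg τ)
        _ = _ := by ring
    · have e : min (j + 1) j₀ = min j j₀ := by omega
      rw [e]
      have h1 : (j : ℝ) + 1 ≤ M := by exact_mod_cast hj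
      have h0 : (0 : ℝ) ≤ j := Nat.cast_nonneg j
      have h2 : (2 * j + 1 : ℝ) / (4 * M - (2 * j + 1)) ≤ 1 := by
        rw [div_le_one (by linarith)]; linarith
      calc _ ≤ (1 : ℝ) * |eco M (2 * j)| := mul_le_mul_of_nonneg_right h2 (abs_nonneg _)
        _ = |eco M (2 * j)| := one_mul _
        _ ≤ _ := h

theorem eco_bound {M j j₀ : ℕ} {τ : ℝ} (h0 : 0 < τ) (h1j : 1 ≤ j) (hj : j ≤ M)
    (hj₀ : (j₀ : ℝ) ≤ M * τ ^ 2) :
    |eco M (2 * j)| ≤ τ ^ (2 * j) / ((4 * M - 1) * τ ^ 2) + τ ^ (2 * j₀) := by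
  have hM : (1 : ℝ) ≤ M := by exact_mod_cast h1j.trans hj
  have hp : (0 : ℝ) < 4 * M - 1 := by linarith
  have hA : 0 ≤ τ ^ (2 * j) / ((4 * M - 1) * τ ^ 2) := by positivity
  have hB : 0 ≤ τ ^ (2 * j₀) := by positivity
  by_cases hjj : j ≤ j₀
  · have h := abs_eco_le_pow1 h1j hj hjj hj₀
    have e : (τ ^ 2) ^ (j - 1) * (1 / (4 * M - 1)) = τ ^ (2 * j) / ((4 * M - 1) * τ ^ 2) := by
      obtain ⟨i, rfl⟩ : ∃ i, j = i + 1 := ⟨j - 1, by omega⟩
      rw [Nat.add_sub_cancel, ← pow_mul, mul_add, pow_add, mul_one]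
      field_simp
    rw [e] at h
    linarith
  · have h := abs_eco_le_pow2 hj hj₀
    have e : min j j₀ = j₀ := by omega
    rw [e, ← pow_mul] at h
    linarith

/-! ### complements -/

section

variable {M : ℕ} {p q : Fin (4 * M) → Bool}

theorem deg_compl {n : ℕ} (T : Fin n → Bool) : deg (fun i => !T i) + deg T = n := by
  unfold deg
  have h := Finset.card_filter_add_card_filter_not (s := (Finset.univ : Finset (Fin n)))
    (fun i => T i = true)
  rw [Finset.card_univ, Fintype.card_fin] at h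
  have e : (univ.filter fun i => (!T i) = true) = univ.filter fun i => ¬ T i = true := by
    ext i; simp
  rw [e]
  omega

theorem cells_prod_sg (h : Cells M p q) : ∏ i, sg (p i) = 1 := by
  unfold sg
  rw [Finset.prod_ite, Finset.prod_const, Finset.prod_const, (cells_card_true h), one_pow, mul_one,
    pow_mul]
  norm_num

theorem chi_compl (h : Cells M p q) (T : Fin (4 * M) → Bool) (π : Equiv.Perm (Fin (4 * M))) :
    chi (fun i => !T i) (p ∘ π) = chi T (p ∘ π) := by
  have h1 : chi (fun i => !T i) (p ∘ π) * chi T (p ∘ π) = 1 := by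
    unfold chi
    rw [← Finset.prod_mul_distrib]
    have : ∀ i, ((if (!T i) then sg ((p ∘ π) i) else 1) * if T i then sg ((p ∘ π) i) else 1) =
        sg (p (π i)) := by
      intro i
      cases hT : T i <;> simp
    rw [Finset.prod_congr rfl fun i _ => this i, Equiv.prod_comp π (fun i => sg (p i)), (cells_prod_sg h)]
  have h2 := chi_sq T (p ∘ π)
  have h3 : (chi (fun i => !T i) (p ∘ π) - chi T (p ∘ π)) * chi T (p ∘ π) = 0 := by
    rw [sub_mul, h1, h2, sub_self]
  rcases mul_eq_zero.mp h3 with h4 | h4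
  · linarith
  · rw [h4] at h2; norm_num at h2

theorem eco_compl (h : Cells M p q) (T : Fin (4 * M) → Bool) :
    eco M (deg (fun i => !T i)) = eco M (deg T) := by
  rw [← av_chi h, ← av_chi h]
  exact av_congr fun π => chi_compl h T π

/-! ### Bonami on the slice -/

theorem kappa_inv_le (M : ℕ) (hM : 1 ≤ M) : (2 : ℝ) ^ (4 * M) / (BB M).card ≤ 4 * M := by
  have hb := BB_card_pos M
  rw [div_le_iff₀ hb, card_BB]
  have h := Nat.four_pow_le_two_mul_self_mul_centralBinom (2 * M) (by omega)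
  rw [Nat.centralBinom_eq_two_mul_choose] at h
  have e : 2 * (2 * M) = 4 * M := by ring
  rw [e] at h
  have h2 : (2 : ℝ) ^ (4 * M) = 4 ^ (2 * M) := by
    rw [show (4 : ℝ) = 2 ^ 2 by norm_num, ← pow_mul]
    congr 1; ring
  rw [h2]
  exact_mod_cast h

theorem hat_bonami (h : Cells M p q) {τ : ℝ} (h0 : 0 ≤ τ) (h1 : τ ≤ 1)
    (u : (Fin (4 * M) → Bool) → ℝ) :
    ∑ T : Fin (4 * M) → Bool, τ ^ deg T *
        (av fun π : Equiv.Perm (Fin (4 * M)) => u (p ∘ π) * chi T (p ∘ π)) ^ 2 ≤
      (2 ^ (4 * M) / (BB M).card : ℝ) ^ (2 * τ / (1 + τ)) *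
        (av fun π : Equiv.Perm (Fin (4 * M)) => |u (p ∘ π)| ^ (1 + τ)) ^ (2 / (1 + τ)) := by
  have hb := BB_card_pos M
  have h2 : (0 : ℝ) < 2 ^ (4 * M) := by positivity
  set K : ℝ := 2 ^ (4 * M) / (BB M).card with hK
  have hK0 : 0 < K := by positivity
  have hcard : (Fintype.card (Fin (4 * M) → Bool) : ℝ) = 2 ^ (4 * M) := by
    simp
  have hfc : ∀ T : Fin (4 * M) → Bool, fc (fun x => if x ∈ BB M then u x * K else 0) T =
      (av fun π : Equiv.Perm (Fin (4 * M)) => u (p ∘ π) * chi T (p ∘ π)) := by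
    intro T
    rw [av_perm_left h (fun x => u x * chi T x)]
    unfold fc av
    rw [hcard]
    have e : ∀ x : Fin (4 * M) → Bool, (if x ∈ BB M then u x * K else 0) * chi T x =
        if x ∈ BB M then K * (u x * chi T x) else 0 := by
      intro x; split_ifs <;> ring
    rw [Finset.sum_congr rfl fun x _ => e x, Finset.sum_ite_mem, Finset.univ_inter,
      ← Finset.mul_sum, hK]
    field_simp
  have hav : (av fun x : Fin (4 * M) → Bool => |if x ∈ BB M then u x * K else 0| ^ (1 + τ)) =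
      K ^ τ * (av fun π : Equiv.Perm (Fin (4 * M)) => |u (p ∘ π)| ^ (1 + τ)) := by
    rw [av_perm_left h (fun x => |u x| ^ (1 + τ))]
    unfold av
    rw [hcard]
    have e : ∀ x : Fin (4 * M) → Bool, |if x ∈ BB M then u x * K else 0| ^ (1 + τ) =
        if x ∈ BB M then K ^ (1 + τ) * (|u x| ^ (1 + τ)) else 0 := by
      intro x
      split_ifs
      · rw [abs_mul, abs_of_pos hK0, Real.mul_rpow (abs_nonneg _) hK0.le, mul_comm]
      · rw [abs_zero, Real.zero_rpow (by linarith)]
    rw [Finset.sum_congr rfl fun x _ => e x, Finset.sum_ite_mem, Finset.univ_inter,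
      ← Finset.mul_sum, Real.rpow_add hK0, Real.rpow_one]
    nth_rewrite 1 [hK]
    field_simp
  have hB := bonami h0 h1 (fun x => if x ∈ BB M then u x * K else 0)
  simp only [hfc] at hB
  rw [hav] at hB
  refine hB.trans (le_of_eq ?_)
  rw [Real.mul_rpow (Real.rpow_nonneg hK0.le _)
    (av_nonneg fun π => Real.rpow_nonneg (abs_nonneg _) _), ← Real.rpow_mul hK0.le]
  congr 2
  ring

theorem hat_bonami' (hM : 1 ≤ M) (h : Cells M p q) {τ : ℝ} (h0 : 0 ≤ τ) (h1 : τ ≤ 1)
    (u : (Fin (4 * M) → Bool) → ℝ) :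
    ∑ T : Fin (4 * M) → Bool, τ ^ deg T *
        (av fun π : Equiv.Perm (Fin (4 * M)) => u (p ∘ π) * chi T (p ∘ π)) ^ 2 ≤
      (4 * M : ℝ) ^ (2 * τ) *
        ((av fun π : Equiv.Perm (Fin (4 * M)) => |u (p ∘ π)| ^ (1 + τ)) ^ (1 / (1 + τ))) ^ 2 := by
  have hM' : (1 : ℝ) ≤ M := by exact_mod_cast hM
  refine (hat_bonami h h0 h1 u).trans ?_
  have hA : 0 ≤ av fun π : Equiv.Perm (Fin (4 * M)) => |u (p ∘ π)| ^ (1 + τ) :=
    av_nonneg fun π => Real.rpow_nonneg (abs_nonneg _) _
  have e : (av fun π : Equiv.Perm (Fin (4 * M)) => |u (p ∘ π)| ^ (1 + τ)) ^ (2 / (1 + τ)) =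
      ((av fun π : Equiv.Perm (Fin (4 * M)) => |u (p ∘ π)| ^ (1 + τ)) ^ (1 / (1 + τ))) ^ 2 := by
    rw [← Real.rpow_natCast, ← Real.rpow_mul hA]
    congr 1
    push_cast
    ring
  rw [e]
  refine mul_le_mul_of_nonneg_right ?_ (sq_nonneg _)
  have hb := BB_card_pos M
  have hexp : 0 ≤ 2 * τ / (1 + τ) := by positivity
  calc (2 ^ (4 * M) / (BB M).card : ℝ) ^ (2 * τ / (1 + τ))
      ≤ (4 * M : ℝ) ^ (2 * τ / (1 + τ)) :=
        Real.rpow_le_rpow (by positivity) (kappa_inv_le M hM) hexp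
    _ ≤ (4 * M : ℝ) ^ (2 * τ) := by
        refine Real.rpow_le_rpow_of_exponent_le (by linarith) ?_
        rw [div_le_iff₀ (by linarith)]
        nlinarith

theorem hat_parseval (h : Cells M p q) (u : (Fin (4 * M) → Bool) → ℝ) :
    ∑ T : Fin (4 * M) → Bool,
        (av fun π : Equiv.Perm (Fin (4 * M)) => u (p ∘ π) * chi T (p ∘ π)) ^ 2 ≤
      (2 ^ (4 * M) / (BB M).card : ℝ) *
        (av fun π : Equiv.Perm (Fin (4 * M)) => u (p ∘ π) ^ 2) := by
  have hB := hat_bonami h (τ := 1) zero_le_one le_rfl u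
  norm_num at hB
  exact hB

/-! ### the bilinear bound and the spectral gap -/

/-- Fourier coefficient on the slice, through the permutation average. -/
noncomputable def hat (p : Fin (4 * M) → Bool) (u : (Fin (4 * M) → Bool) → ℝ)
    (T : Fin (4 * M) → Bool) : ℝ :=
  av fun π : Equiv.Perm (Fin (4 * M)) => u (p ∘ π) * chi T (p ∘ π)

theorem hat_compl (h : Cells M p q) (u : (Fin (4 * M) → Bool) → ℝ) (T : Fin (4 * M) → Bool) :
    hat p u (fun i => !T i) = hat p u T :=
  av_congr fun π => by rw [chi_compl h T π]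

theorem hat_deg_zero (u : (Fin (4 * M) → Bool) → ℝ)
    (hu : av (fun π : Equiv.Perm (Fin (4 * M)) => u (p ∘ π)) = 0) (T : Fin (4 * M) → Bool)
    (hT : deg T = 0) : hat p u T = 0 := by
  have hT0 : ∀ i, T i = false := by
    intro i
    unfold deg at hT
    rw [Finset.card_eq_zero, Finset.filter_eq_empty_iff] at hT
    simpa using hT (Finset.mem_univ i)
  rw [← hu]
  refine av_congr fun π => ?_
  have : chi T (p ∘ π) = 1 := by unfold chi; simp [hT0]
  rw [this, mul_one]

theorem term_low (u w : (Fin (4 * M) → Bool) → ℝ)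
    (hu : av (fun π : Equiv.Perm (Fin (4 * M)) => u (p ∘ π)) = 0) {B : ℕ → ℝ}
    (hB0 : ∀ k, 0 ≤ B k) (hB : ∀ j, 1 ≤ j → j ≤ M → |eco M (2 * j)| ≤ B (2 * j))
    (T : Fin (4 * M) → Bool) (hT : deg T ≤ 2 * M) :
    |eco M (deg T) * hat p u T * hat q w T| ≤ B (deg T) * (|hat p u T| * |hat q w T|) := by
  have hR : 0 ≤ B (deg T) * (|hat p u T| * |hat q w T|) := by
    have := hB0 (deg T); positivity
  rcases Nat.even_or_odd' (deg T) with ⟨j, hj | hj⟩
  · rcases Nat.eq_zero_or_pos j with hj0 | hj0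
    · have h0 : deg T = 0 := by omega
      rw [hat_deg_zero u hu T h0]
      simp
    · rw [abs_mul, abs_mul, mul_assoc]
      refine mul_le_mul_of_nonneg_right ?_ (by positivity)
      rw [hj]
      exact hB j hj0 (by omega)
  · rw [hj, eco_odd]
    simp only [zero_mul, abs_zero]
    rw [hj] at hR
    exact hR

theorem term_high (h : Cells M p q) (u w : (Fin (4 * M) → Bool) → ℝ)
    (hu : av (fun π : Equiv.Perm (Fin (4 * M)) => u (p ∘ π)) = 0) {B : ℕ → ℝ}
    (hB0 : ∀ k, 0 ≤ B k) (hB : ∀ j, 1 ≤ j → j ≤ M → |eco M (2 * j)| ≤ B (2 * j))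
    (T : Fin (4 * M) → Bool) (hT : ¬ deg T ≤ 2 * M) :
    |eco M (deg T) * hat p u T * hat q w T| ≤
      B (deg (fun i => !T i)) * (|hat p u (fun i => !T i)| * |hat q w (fun i => !T i)|) := by
  have h1 := term_low u w hu hB0 hB (p := p) (q := q) (fun i => !T i)
    (by have := deg_compl T; omega)
  have e : eco M (deg (fun i => !T i)) * hat p u (fun i => !T i) * hat q w (fun i => !T i) =
      eco M (deg T) * hat p u T * hat q w T := by
    rw [eco_compl h T, hat_compl h u T, hat_compl h.swap w T]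
  rw [e] at h1
  exact h1

theorem sum_compl {n : ℕ} (G : (Fin n → Bool) → ℝ) :
    ∑ T : Fin n → Bool, G (fun i => !T i) = ∑ T : Fin n → Bool, G T :=
  Equiv.sum_comp (Equiv.arrowCongr (Equiv.refl (Fin n)) Equiv.boolNot) G

theorem sum_abs_le (h : Cells M p q) (u w : (Fin (4 * M) → Bool) → ℝ)
    (hu : av (fun π : Equiv.Perm (Fin (4 * M)) => u (p ∘ π)) = 0) {B : ℕ → ℝ}
    (hB0 : ∀ k, 0 ≤ B k) (hB : ∀ j, 1 ≤ j → j ≤ M → |eco M (2 * j)| ≤ B (2 * j)) :
    |∑ T : Fin (4 * M) → Bool, eco M (deg T) * hat p u T * hat q w T| ≤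
      2 * ∑ T : Fin (4 * M) → Bool, B (deg T) * (|hat p u T| * |hat q w T|) := by
  refine (Finset.abs_sum_le_sum_abs _ _).trans ?_
  have hG : ∀ T : Fin (4 * M) → Bool, 0 ≤ B (deg T) * (|hat p u T| * |hat q w T|) := by
    intro T; have := hB0 (deg T); positivity
  calc ∑ T : Fin (4 * M) → Bool, |eco M (deg T) * hat p u T * hat q w T|
      ≤ ∑ T : Fin (4 * M) → Bool, (B (deg T) * (|hat p u T| * |hat q w T|) +
          B (deg (fun i => !T i)) * (|hat p u (fun i => !T i)| * |hat q w (fun i => !T i)|)) := by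
        refine Finset.sum_le_sum fun T _ => ?_
        by_cases hT : deg T ≤ 2 * M
        · have h1 := term_low u w hu hB0 hB (p := p) (q := q) T hT
          have h2 := hG (fun i => !T i)
          linarith
        · have h1 := term_high h u w hu hB0 hB T hT
          have h2 := hG T
          linarith
    _ = _ := by
        rw [Finset.sum_add_distrib,
          sum_compl (fun T => B (deg T) * (|hat p u T| * |hat q w T|))]
        ring

theorem cs_weight (τ : ℝ) (h0 : 0 ≤ τ) {n : ℕ} (a b : (Fin n → Bool) → ℝ) {A B : ℝ} (hA : 0 ≤ A)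
    (hB : 0 ≤ B) {K : ℝ} (hK : 0 ≤ K)
    (ha : ∑ T : Fin n → Bool, τ ^ deg T * a T ^ 2 ≤ K * A ^ 2)
    (hb : ∑ T : Fin n → Bool, τ ^ deg T * b T ^ 2 ≤ K * B ^ 2) :
    ∑ T : Fin n → Bool, τ ^ deg T * (|a T| * |b T|) ≤ K * (A * B) := by
  have hcs := Finset.sum_mul_sq_le_sq_mul_sq (Finset.univ : Finset (Fin n → Bool))
    (fun T => √(τ ^ deg T) * |a T|) (fun T => √(τ ^ deg T) * |b T|)
  have e1 : ∀ T : Fin n → Bool, (√(τ ^ deg T) * |a T|) * (√(τ ^ deg T) * |b T|) =
      τ ^ deg T * (|a T| * |b T|) := by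
    intro T
    have := Real.mul_self_sqrt (pow_nonneg h0 (deg T))
    calc _ = (√(τ ^ deg T) * √(τ ^ deg T)) * (|a T| * |b T|) := by ring
      _ = _ := by rw [this]
  have e2 : ∀ c : (Fin n → Bool) → ℝ, ∀ T : Fin n → Bool, (√(τ ^ deg T) * |c T|) ^ 2 =
      τ ^ deg T * c T ^ 2 := by
    intro c T
    rw [mul_pow, Real.sq_sqrt (pow_nonneg h0 (deg T)), sq_abs]
  rw [Finset.sum_congr rfl fun T _ => e1 T, Finset.sum_congr rfl fun T _ => e2 a T,
    Finset.sum_congr rfl fun T _ => e2 b T] at hcs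
  have hpos : 0 ≤ K * (A * B) := by positivity
  refine le_of_sq_le_sq ?_ hpos
  refine hcs.trans ?_
  calc _ ≤ (K * A ^ 2) * (K * B ^ 2) :=
        mul_le_mul ha hb (Finset.sum_nonneg fun T _ => by positivity) (by positivity)
    _ = _ := by ring

theorem centralBinom_add_le (m k : ℕ) : Nat.centralBinom (m + k) ≤ Nat.centralBinom m * 4 ^ k := by
  induction k with
  | zero => simp
  | succ k ih =>
    have h := Nat.succ_mul_centralBinom_succ (m + k)
    have h2 : Nat.centralBinom (m + k + 1) ≤ 4 * Nat.centralBinom (m + k) := by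
      have h3 : (m + k + 1) * Nat.centralBinom (m + k + 1) ≤
          (m + k + 1) * (4 * Nat.centralBinom (m + k)) := by
        rw [h]
        have : 2 * (2 * (m + k) + 1) ≤ (m + k + 1) * 4 := by omega
        calc 2 * (2 * (m + k) + 1) * Nat.centralBinom (m + k)
            ≤ (m + k + 1) * 4 * Nat.centralBinom (m + k) := Nat.mul_le_mul_right _ this
          _ = _ := by ring
      exact Nat.le_of_mul_le_mul_left h3 (by omega)
    calc Nat.centralBinom (m + (k + 1)) ≤ 4 * Nat.centralBinom (m + k) := h2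
      _ ≤ 4 * (Nat.centralBinom m * 4 ^ k) := Nat.mul_le_mul_left _ ih
      _ = _ := by rw [pow_succ]; ring

theorem coef_le_one (M : ℕ) :
    (((4 * M).choose (2 * M) / 4 ^ (2 * M) : ℝ) / ((2 * M).choose M / 4 ^ M)) ^ 2 ≤ 1 := by
  have h := centralBinom_add_le M M
  rw [← two_mul, Nat.centralBinom_eq_two_mul_choose, Nat.centralBinom_eq_two_mul_choose] at h
  have e : 2 * (2 * M) = 4 * M := by ring
  rw [e] at h
  have h' : ((4 * M).choose (2 * M) : ℝ) ≤ (2 * M).choose M * 4 ^ M := by exact_mod_cast h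
  have h2 : (0 : ℝ) < (2 * M).choose M := by exact_mod_cast Nat.choose_pos (by omega)
  have h4 : (4 : ℝ) ^ (2 * M) = 4 ^ M * 4 ^ M := by rw [two_mul, pow_add]
  apply pow_le_one₀ (by positivity)
  rw [div_le_one (by positivity), h4, div_le_div_iff₀ (by positivity) (by positivity)]
  have : (0 : ℝ) < 4 ^ M := by positivity
  nlinarith

end

theorem bilinear {M : ℕ} (hM : 1 ≤ M) {p q : Fin (4 * M) → Bool} (h : Cells M p q)
    {τ : ℝ} (h0 : 0 < τ) (h1 : τ ≤ 1) {j₀ : ℕ} (hj : (j₀ : ℝ) ≤ M * τ ^ 2)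
    (u w : (Fin (4 * M) → Bool) → ℝ)
    (hu : av (fun π : Equiv.Perm (Fin (4 * M)) => u (p ∘ π)) = 0)
    (_hw : av (fun π : Equiv.Perm (Fin (4 * M)) => w (q ∘ π)) = 0) :
    |av (fun π : Equiv.Perm (Fin (4 * M)) => u (p ∘ π) * w (q ∘ π))| ≤
      2 * (((4 * M : ℝ) ^ (2 * τ) / ((4 * M - 1) * τ ^ 2)) *
        ((av fun π : Equiv.Perm (Fin (4 * M)) => |u (p ∘ π)| ^ (1 + τ)) ^ (1 / (1 + τ)) *
         (av fun π : Equiv.Perm (Fin (4 * M)) => |w (q ∘ π)| ^ (1 + τ)) ^ (1 / (1 + τ))) +
        4 * M * τ ^ (2 * j₀) *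
        (√(av fun π : Equiv.Perm (Fin (4 * M)) => u (p ∘ π) ^ 2) *
         √(av fun π : Equiv.Perm (Fin (4 * M)) => w (q ∘ π) ^ 2))) := by
  have hM' : (1 : ℝ) ≤ M := by exact_mod_cast hM
  have hp1 : (0 : ℝ) < 4 * M - 1 := by linarith
  rw [slice_formula hM h u w, abs_mul, abs_of_nonneg (sq_nonneg _)]
  have hS := sum_abs_le h u w hu (B := fun k => τ ^ k / ((4 * M - 1) * τ ^ 2) + τ ^ (2 * j₀))
    (fun k => by positivity) (fun j h1j hjM => eco_bound h0 h1j hjM hj)
  unfold hat at hS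
  refine (mul_le_of_le_one_left (abs_nonneg _) (coef_le_one M)).trans (hS.trans ?_)
  refine mul_le_mul_of_nonneg_left ?_ (by norm_num)
  have hsplit : ∑ T : Fin (4 * M) → Bool, (τ ^ deg T / ((4 * M - 1) * τ ^ 2) + τ ^ (2 * j₀)) *
        (|av fun π : Equiv.Perm (Fin (4 * M)) => u (p ∘ π) * chi T (p ∘ π)| *
         |av fun π : Equiv.Perm (Fin (4 * M)) => w (q ∘ π) * chi T (q ∘ π)|) =
      (1 / ((4 * M - 1) * τ ^ 2)) * (∑ T : Fin (4 * M) → Bool, τ ^ deg T *
        (|av fun π : Equiv.Perm (Fin (4 * M)) => u (p ∘ π) * chi T (p ∘ π)| *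
         |av fun π : Equiv.Perm (Fin (4 * M)) => w (q ∘ π) * chi T (q ∘ π)|)) +
      τ ^ (2 * j₀) * (∑ T : Fin (4 * M) → Bool, (1 : ℝ) ^ deg T *
        (|av fun π : Equiv.Perm (Fin (4 * M)) => u (p ∘ π) * chi T (p ∘ π)| *
         |av fun π : Equiv.Perm (Fin (4 * M)) => w (q ∘ π) * chi T (q ∘ π)|)) := by
    rw [Finset.mul_sum, Finset.mul_sum, ← Finset.sum_add_distrib]
    refine Finset.sum_congr rfl fun T _ => ?_
    rw [one_pow]
    ring
  rw [hsplit]
  have hAu : 0 ≤ (av fun π : Equiv.Perm (Fin (4 * M)) => |u (p ∘ π)| ^ (1 + τ)) ^ (1 / (1 + τ)) :=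
    Real.rpow_nonneg (av_nonneg fun π => Real.rpow_nonneg (abs_nonneg _) _) _
  have hAw : 0 ≤ (av fun π : Equiv.Perm (Fin (4 * M)) => |w (q ∘ π)| ^ (1 + τ)) ^ (1 / (1 + τ)) :=
    Real.rpow_nonneg (av_nonneg fun π => Real.rpow_nonneg (abs_nonneg _) _) _
  have hK : (0 : ℝ) ≤ (4 * M : ℝ) ^ (2 * τ) := Real.rpow_nonneg (by linarith) _
  have hc1 := cs_weight τ h0.le
    (fun T => av fun π : Equiv.Perm (Fin (4 * M)) => u (p ∘ π) * chi T (p ∘ π))
    (fun T => av fun π : Equiv.Perm (Fin (4 * M)) => w (q ∘ π) * chi T (q ∘ π)) hAu hAw hK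
    (hat_bonami' hM h h0.le h1 u) (hat_bonami' hM h.swap h0.le h1 w)
  have hpar : ∀ {p' q' : Fin (4 * M) → Bool}, Cells M p' q' → ∀ v : (Fin (4 * M) → Bool) → ℝ,
      ∑ T : Fin (4 * M) → Bool, (1 : ℝ) ^ deg T *
        (av fun π : Equiv.Perm (Fin (4 * M)) => v (p' ∘ π) * chi T (p' ∘ π)) ^ 2 ≤
      (4 * M : ℝ) * √(av fun π : Equiv.Perm (Fin (4 * M)) => v (p' ∘ π) ^ 2) ^ 2 := by
    intro p' q' h' v
    have hh := hat_parseval h' v
    rw [Real.sq_sqrt (av_nonneg fun π => sq_nonneg _)]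
    simp only [one_pow, one_mul]
    exact hh.trans (mul_le_mul_of_nonneg_right (kappa_inv_le M hM) (av_nonneg fun π => sq_nonneg _))
  have hc2 := cs_weight 1 zero_le_one
    (fun T => av fun π : Equiv.Perm (Fin (4 * M)) => u (p ∘ π) * chi T (p ∘ π))
    (fun T => av fun π : Equiv.Perm (Fin (4 * M)) => w (q ∘ π) * chi T (q ∘ π))
    (Real.sqrt_nonneg _) (Real.sqrt_nonneg _) (by linarith : (0 : ℝ) ≤ 4 * M)
    (hpar h u) (hpar h.swap w)
  have e1 : (1 / ((4 * M - 1) * τ ^ 2)) * ((4 * M : ℝ) ^ (2 * τ) *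
      ((av fun π : Equiv.Perm (Fin (4 * M)) => |u (p ∘ π)| ^ (1 + τ)) ^ (1 / (1 + τ)) *
       (av fun π : Equiv.Perm (Fin (4 * M)) => |w (q ∘ π)| ^ (1 + τ)) ^ (1 / (1 + τ)))) =
      ((4 * M : ℝ) ^ (2 * τ) / ((4 * M - 1) * τ ^ 2)) *
      ((av fun π : Equiv.Perm (Fin (4 * M)) => |u (p ∘ π)| ^ (1 + τ)) ^ (1 / (1 + τ)) *
       (av fun π : Equiv.Perm (Fin (4 * M)) => |w (q ∘ π)| ^ (1 + τ)) ^ (1 / (1 + τ))) := by
    ring
  have e2 : τ ^ (2 * j₀) * (4 * M *
      (√(av fun π : Equiv.Perm (Fin (4 * M)) => u (p ∘ π) ^ 2) *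
       √(av fun π : Equiv.Perm (Fin (4 * M)) => w (q ∘ π) ^ 2))) =
      4 * M * τ ^ (2 * j₀) *
      (√(av fun π : Equiv.Perm (Fin (4 * M)) => u (p ∘ π) ^ 2) *
       √(av fun π : Equiv.Perm (Fin (4 * M)) => w (q ∘ π) ^ 2)) := by ring
  rw [← e1, ← e2]
  exact add_le_add (mul_le_mul_of_nonneg_left hc1 (by positivity))
    (mul_le_mul_of_nonneg_left hc2 (by positivity))

/-- `C(4M,2M) < (4M-1) C(2M,M)^2`. -/
theorem choose_lt (M : ℕ) (hM : 1 ≤ M) :
    ((4 * M).choose (2 * M) : ℝ) < (4 * M - 1) * ((2 * M).choose M : ℝ) ^ 2 := by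
  have hV : (4 * M).choose (2 * M) ≤ (2 * M + 1) * ((2 * M).choose M) ^ 2 := by
    have h := Nat.sum_range_choose_sq (2 * M)
    have e : 2 * (2 * M) = 4 * M := by ring
    rw [e] at h
    rw [← h]
    calc ∑ i ∈ Finset.range (2 * M + 1), ((2 * M).choose i) ^ 2
        ≤ ∑ i ∈ Finset.range (2 * M + 1), ((2 * M).choose M) ^ 2 := by
          refine Finset.sum_le_sum fun i _ => Nat.pow_le_pow_left ?_ 2
          have := Nat.choose_le_centralBinom i M
          rwa [Nat.centralBinom_eq_two_mul_choose] at this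
      _ = _ := by rw [Finset.sum_const, Finset.card_range, smul_eq_mul]
  rcases Nat.lt_or_ge 1 M with h2 | h2
  · have hc : (0 : ℝ) < (2 * M).choose M := by exact_mod_cast Nat.choose_pos (by omega)
    have h3 : (2 : ℝ) ≤ M := by exact_mod_cast h2
    have hV' : ((4 * M).choose (2 * M) : ℝ) ≤ (2 * M + 1) * ((2 * M).choose M : ℝ) ^ 2 := by
      exact_mod_cast hV
    have h4 : (2 * M + 1 : ℝ) * ((2 * M).choose M : ℝ) ^ 2 <
        (4 * M - 1) * ((2 * M).choose M : ℝ) ^ 2 :=
      mul_lt_mul_of_pos_right (by linarith) (by positivity)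
    linarith
  · have : M = 1 := by omega
    subst this
    norm_num [Nat.choose]

theorem gap (M : ℕ) (hM : 1 ≤ M) : ∃ γ : ℝ, 0 < γ ∧ γ ≤ 1 ∧
    ∀ p q : Fin (4 * M) → Bool, Cells M p q → ∀ u w : (Fin (4 * M) → Bool) → ℝ,
    av (fun π : Equiv.Perm (Fin (4 * M)) => u (p ∘ π)) = 0 →
    av (fun π : Equiv.Perm (Fin (4 * M)) => w (q ∘ π)) = 0 →
    |av (fun π : Equiv.Perm (Fin (4 * M)) => u (p ∘ π) * w (q ∘ π))| ≤
      (1 - γ) * (√(av fun π : Equiv.Perm (Fin (4 * M)) => u (p ∘ π) ^ 2) *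
         √(av fun π : Equiv.Perm (Fin (4 * M)) => w (q ∘ π) ^ 2)) := by
  have hM' : (1 : ℝ) ≤ M := by exact_mod_cast hM
  have hp1 : (0 : ℝ) < 4 * M - 1 := by linarith
  have hc2 : (0 : ℝ) < (2 * M).choose M := by exact_mod_cast Nat.choose_pos (by omega)
  have hc4 : (0 : ℝ) < (4 * M).choose (2 * M) := by exact_mod_cast Nat.choose_pos (by omega)
  refine ⟨1 - ((4 * M).choose (2 * M) : ℝ) / ((4 * M - 1) * ((2 * M).choose M : ℝ) ^ 2), ?_, ?_, ?_⟩
  · rw [sub_pos, div_lt_one (by positivity)]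
    exact choose_lt M hM
  · have : 0 ≤ ((4 * M).choose (2 * M) : ℝ) / ((4 * M - 1) * ((2 * M).choose M : ℝ) ^ 2) := by
      positivity
    linarith
  · intro p q h u w hu _hw
    have hb := BB_card_pos M
    have hd := DD_card_pos M
    rw [slice_raw h u w, abs_mul, abs_of_nonneg (by positivity)]
    have hterm : ∀ T : Fin (4 * M) → Bool, |eco M (deg T) * hat p u T * hat q w T| ≤
        1 / (4 * M - 1) * (|hat p u T| * |hat q w T|) := by
      intro T
      have hB0 : ∀ k : ℕ, (0 : ℝ) ≤ (fun _ : ℕ => 1 / (4 * (M : ℝ) - 1)) k := fun k => by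
        show (0 : ℝ) ≤ 1 / (4 * (M : ℝ) - 1); positivity
      have hB : ∀ j, 1 ≤ j → j ≤ M → |eco M (2 * j)| ≤ (fun _ : ℕ => 1 / (4 * (M : ℝ) - 1)) (2 * j) :=
        fun j h1j hjM => abs_eco_le h1j hjM
      by_cases hT : deg T ≤ 2 * M
      · exact term_low u w hu hB0 hB T hT
      · have h1 := term_high h u w hu hB0 hB T hT
        rw [hat_compl h u T, hat_compl h.swap w T] at h1
        exact h1
    have hpar : ∀ {p' q' : Fin (4 * M) → Bool}, Cells M p' q' → ∀ v : (Fin (4 * M) → Bool) → ℝ,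
        ∑ T : Fin (4 * M) → Bool, (1 : ℝ) ^ deg T * (hat p' v T) ^ 2 ≤
        (2 ^ (4 * M) / (BB M).card : ℝ) *
          √(av fun π : Equiv.Perm (Fin (4 * M)) => v (p' ∘ π) ^ 2) ^ 2 := by
      intro p' q' h' v
      have hh := hat_parseval h' v
      rw [Real.sq_sqrt (av_nonneg fun π => sq_nonneg _)]
      simp only [one_pow, one_mul]
      exact hh
    have hcs := cs_weight 1 zero_le_one (hat p u) (hat q w)
      (Real.sqrt_nonneg _) (Real.sqrt_nonneg _) (by positivity : (0 : ℝ) ≤ 2 ^ (4 * M) / (BB M).card)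
      (hpar h u) (hpar h.swap w)
    simp only [one_pow, one_mul] at hcs
    have hsum : |∑ T : Fin (4 * M) → Bool, eco M (deg T) * hat p u T * hat q w T| ≤
        1 / (4 * M - 1) * ((2 ^ (4 * M) / (BB M).card : ℝ) *
          (√(av fun π : Equiv.Perm (Fin (4 * M)) => u (p ∘ π) ^ 2) *
           √(av fun π : Equiv.Perm (Fin (4 * M)) => w (q ∘ π) ^ 2))) := by
      refine (Finset.abs_sum_le_sum_abs _ _).trans ((Finset.sum_le_sum fun T _ => hterm T).trans ?_)
      rw [← Finset.mul_sum]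
      exact mul_le_mul_of_nonneg_left hcs (by positivity)
    refine (mul_le_mul_of_nonneg_left hsum (by positivity)).trans (le_of_eq ?_)
    rw [card_DD, card_BB]
    push_cast
    field_simp
    ring

end SliceAux

theorem av_chi {M : ℕ} {p q : Fin (4 * M) → Bool} (h : Cells M p q) (T : Fin (4 * M) → Bool) :
    av (fun π : Equiv.Perm (Fin (4 * M)) => chi T (p ∘ π)) = eco M (deg T) :=
  SliceAux.av_chi h T

/-- the slice formula; `κ₀³/π₀ = (C(4M,2M)/4^(2M))² / (C(2M,M)/4^M)²`. -/
theorem slice_formula {M : ℕ} (hM : 1 ≤ M) {p q : Fin (4 * M) → Bool} (h : Cells M p q)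
    (u w : (Fin (4 * M) → Bool) → ℝ) :
    av (fun π : Equiv.Perm (Fin (4 * M)) => u (p ∘ π) * w (q ∘ π)) =
      (((4 * M).choose (2 * M) / 4 ^ (2 * M) : ℝ) / ((2 * M).choose M / 4 ^ M)) ^ 2 *
      ∑ T : Fin (4 * M) → Bool, eco M (deg T) *
        (av fun π : Equiv.Perm (Fin (4 * M)) => u (p ∘ π) * chi T (p ∘ π)) *
        (av fun π : Equiv.Perm (Fin (4 * M)) => w (q ∘ π) * chi T (q ∘ π)) :=
  SliceAux.slice_formula hM h u w

theorem bilinear {M : ℕ} (hM : 1 ≤ M) {p q : Fin (4 * M) → Bool} (h : Cells M p q)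
    {τ : ℝ} (h0 : 0 < τ) (h1 : τ ≤ 1) {j₀ : ℕ} (hj : (j₀ : ℝ) ≤ M * τ ^ 2)
    (u w : (Fin (4 * M) → Bool) → ℝ)
    (hu : av (fun π : Equiv.Perm (Fin (4 * M)) => u (p ∘ π)) = 0)
    (hw : av (fun π : Equiv.Perm (Fin (4 * M)) => w (q ∘ π)) = 0) :
    |av (fun π : Equiv.Perm (Fin (4 * M)) => u (p ∘ π) * w (q ∘ π))| ≤
      2 * (((4 * M : ℝ) ^ (2 * τ) / ((4 * M - 1) * τ ^ 2)) *
        ((av fun π : Equiv.Perm (Fin (4 * M)) => |u (p ∘ π)| ^ (1 + τ)) ^ (1 / (1 + τ)) *
         (av fun π : Equiv.Perm (Fin (4 * M)) => |w (q ∘ π)| ^ (1 + τ)) ^ (1 / (1 + τ))) +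
        4 * M * τ ^ (2 * j₀) *
        (√(av fun π : Equiv.Perm (Fin (4 * M)) => u (p ∘ π) ^ 2) *
         √(av fun π : Equiv.Perm (Fin (4 * M)) => w (q ∘ π) ^ 2))) :=
  SliceAux.bilinear hM h h0 h1 hj u w hu hw

theorem gap (M : ℕ) (hM : 1 ≤ M) : ∃ γ : ℝ, 0 < γ ∧ γ ≤ 1 ∧
    ∀ p q : Fin (4 * M) → Bool, Cells M p q → ∀ u w : (Fin (4 * M) → Bool) → ℝ,
    av (fun π : Equiv.Perm (Fin (4 * M)) => u (p ∘ π)) = 0 →
    av (fun π : Equiv.Perm (Fin (4 * M)) => w (q ∘ π)) = 0 →
    |av (fun π : Equiv.Perm (Fin (4 * M)) => u (p ∘ π) * w (q ∘ π))| ≤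
      (1 - γ) * (√(av fun π : Equiv.Perm (Fin (4 * M)) => u (p ∘ π) ^ 2) *
         √(av fun π : Equiv.Perm (Fin (4 * M)) => w (q ∘ π) ^ 2)) :=
  SliceAux.gap M hM

end Vale.Agent.P162
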